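import Crest.Prelude.Def_AsymptoticConvexity

/-!
Basic lemmas on closed finite-codimensional subspaces and an abstract obstruction
to asymptotically uniformly convex renormings (helper library for S0166–S0169).
-/

set_option autoImplicit false

open Filter Topology

namespace Crest.Agent.Lib.AsympBasic

section Generic

variable {X : Type*} [NormedAddCommGroup X] [NormedSpace ℝ X]
variable {Y : Type*} [NormedAddCommGroup Y] [NormedSpace ℝ Y]

/-- Closed finite-codimensional linear subspaces, as sets (an unbundled copy of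
`RealBanach.IsCof`). -/
def Cof (F : Set X) : Prop :=
  ∃ S : Submodule ℝ X, (S : Set X) = F ∧ IsClosed F ∧ FiniteDimensional ℝ (X ⧸ S)

theorem Cof.exists_submodule {F : Set X} (hF : Cof F) : ∃ S : Submodule ℝ X, (S : Set X) = F :=
  let ⟨S, h, _⟩ := hF; ⟨S, h⟩

theorem Cof.zero_mem {F : Set X} (hF : Cof F) : (0 : X) ∈ F := by
  obtain ⟨S, rfl⟩ := hF.exists_submodule
  exact S.zero_mem

theorem Cof.smul_mem {F : Set X} (hF : Cof F) (c : ℝ) {y : X} (hy : y ∈ F) : c • y ∈ F := by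
  obtain ⟨S, rfl⟩ := hF.exists_submodule
  exact S.smul_mem c hy

theorem Cof.add_mem {F : Set X} (hF : Cof F) {y z : X} (hy : y ∈ F) (hz : z ∈ F) : y + z ∈ F := by
  obtain ⟨S, rfl⟩ := hF.exists_submodule
  exact S.add_mem hy hz

theorem Cof.sub_mem {F : Set X} (hF : Cof F) {y z : X} (hy : y ∈ F) (hz : z ∈ F) : y - z ∈ F := by
  obtain ⟨S, rfl⟩ := hF.exists_submodule
  exact S.sub_mem hy hz

theorem Cof.neg_mem {F : Set X} (hF : Cof F) {y : X} (hy : y ∈ F) : -y ∈ F := by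
  obtain ⟨S, rfl⟩ := hF.exists_submodule
  exact S.neg_mem hy

theorem cof_univ : Cof (Set.univ : Set X) := by
  refine ⟨⊤, by simp, isClosed_univ, ?_⟩
  infer_instance

/-- Preimages of closed finite-codimensional subspaces under bounded operators. -/
theorem Cof.preimage {F : Set Y} (hF : Cof F) (L : X →L[ℝ] Y) : Cof (L ⁻¹' F) := by
  obtain ⟨S, rfl, hcl, hfd⟩ := hF
  refine ⟨S.comap (L : X →ₗ[ℝ] Y), rfl, hcl.preimage L.continuous, ?_⟩
  have := hfd
  refine FiniteDimensional.of_injective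
    (Submodule.mapQ (S.comap (L : X →ₗ[ℝ] Y)) S (L : X →ₗ[ℝ] Y) le_rfl) ?_
  rw [← LinearMap.ker_eq_bot, LinearMap.ker_eq_bot']
  intro x
  induction x using Submodule.Quotient.induction_on with
  | H x =>
    intro hx
    rw [Submodule.mapQ_apply, Submodule.Quotient.mk_eq_zero] at hx
    rw [Submodule.Quotient.mk_eq_zero]
    exact hx

theorem Cof.inter {F₁ F₂ : Set X} (h₁ : Cof F₁) (h₂ : Cof F₂) : Cof (F₁ ∩ F₂) := by
  obtain ⟨S₁, rfl, hcl₁, hfd₁⟩ := h₁
  obtain ⟨S₂, rfl, hcl₂, hfd₂⟩ := h₂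
  refine ⟨S₁ ⊓ S₂, rfl, hcl₁.inter hcl₂, ?_⟩
  have := hfd₁
  have := hfd₂
  let f : X →ₗ[ℝ] (X ⧸ S₁) × (X ⧸ S₂) := S₁.mkQ.prod S₂.mkQ
  have hle : S₁ ⊓ S₂ ≤ LinearMap.ker f := by
    intro x hx
    have hfx : f x = (S₁.mkQ x, S₂.mkQ x) := rfl
    rw [LinearMap.mem_ker, hfx, Prod.mk_eq_zero]
    exact ⟨(Submodule.Quotient.mk_eq_zero _).2 hx.1, (Submodule.Quotient.mk_eq_zero _).2 hx.2⟩
  refine FiniteDimensional.of_injective (Submodule.liftQ (S₁ ⊓ S₂) f hle) ?_
  rw [← LinearMap.ker_eq_bot, LinearMap.ker_eq_bot']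
  intro x
  induction x using Submodule.Quotient.induction_on with
  | H x =>
    intro hx
    rw [Submodule.liftQ_apply] at hx
    have hfx : f x = (S₁.mkQ x, S₂.mkQ x) := rfl
    rw [hfx, Prod.mk_eq_zero] at hx
    rw [Submodule.Quotient.mk_eq_zero]
    exact ⟨(Submodule.Quotient.mk_eq_zero _).1 hx.1, (Submodule.Quotient.mk_eq_zero _).1 hx.2⟩

theorem Cof.biInter {ι : Type*} (s : Finset ι) {F : ι → Set X} (h : ∀ i ∈ s, Cof (F i)) :
    Cof (⋂ i ∈ s, F i) := by
  classical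
  induction s using Finset.induction_on with
  | empty => simpa using cof_univ
  | insert a s ha ih =>
    rw [Finset.set_biInter_insert]
    exact (h a (Finset.mem_insert_self _ _)).inter
      (ih fun i hi => h i (Finset.mem_insert_of_mem hi))

theorem cof_zero_of_finiteDimensional [FiniteDimensional ℝ X] : Cof ({0} : Set X) := by
  refine ⟨⊥, by simp, isClosed_singleton, ?_⟩
  infer_instance

/-- The kernel of a bounded functional. -/
theorem cof_ker (ψ : X →L[ℝ] ℝ) : Cof {x : X | ψ x = 0} :=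
  (cof_zero_of_finiteDimensional (X := ℝ)).preimage ψ

/-- The joint kernel of finitely many bounded functionals. -/
theorem cof_biInter_ker {ι : Type*} (s : Finset ι) (ψ : ι → X →L[ℝ] ℝ) :
    Cof {x : X | ∀ i ∈ s, ψ i x = 0} := by
  have := Cof.biInter s (F := fun i => {x : X | ψ i x = 0}) (fun i _ => cof_ker (ψ i))
  convert this using 1
  ext x
  simp

/-- If `u` tends weakly to `0` along a filter then `u` is eventually close to any closed
finite-codimensional subspace. -/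
theorem Cof.eventually_near {ι : Type*} {l : Filter ι} {F : Set X} (hF : Cof F) (u : ι → X)
    (hu : ∀ ψ : X →L[ℝ] ℝ, Tendsto (fun i => ψ (u i)) l (𝓝 0)) {ε : ℝ} (hε : 0 < ε) :
    ∀ᶠ i in l, ∃ y ∈ F, ‖u i - y‖ < ε := by
  obtain ⟨S, rfl, hcl, hfd⟩ := hF
  have : IsClosed (S : Set X) := hcl
  have := hfd
  let b := Module.finBasis ℝ (X ⧸ S)
  let q : X →L[ℝ] (X ⧸ S) := S.mkQ.mkContinuous 1 (fun x => by
    simpa using Submodule.Quotient.norm_mk_le (S := S) x)
  have hq : ∀ x, q x = Submodule.Quotient.mk x := fun _ => rfl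
  let ψ : Fin (Module.finrank ℝ (X ⧸ S)) → X →L[ℝ] ℝ := fun i =>
    (LinearMap.toContinuousLinearMap (b.coord i)).comp q
  have hbound : ∀ x, ‖q x‖ ≤ ∑ i, |ψ i x| * ‖b i‖ := by
    intro x
    conv_lhs => rw [← b.sum_repr (q x)]
    refine (norm_sum_le _ _).trans (le_of_eq ?_)
    refine Finset.sum_congr rfl fun i _ => ?_
    rw [norm_smul, Real.norm_eq_abs]
    rfl
  have htend : Tendsto (fun j => ∑ i, |ψ i (u j)| * ‖b i‖) l (𝓝 0) := by
    have : Tendsto (fun j => ∑ i, |ψ i (u j)| * ‖b i‖) l (𝓝 (∑ i : Fin (Module.finrank ℝ (X ⧸ S)),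
        |(0 : ℝ)| * ‖b i‖)) :=
      tendsto_finsetSum _ fun i _ => ((hu (ψ i)).abs).mul_const _
    simpa using this
  have hev : ∀ᶠ j in l, ∑ i, |ψ i (u j)| * ‖b i‖ < ε / 2 :=
    htend.eventually (gt_mem_nhds (by positivity))
  filter_upwards [hev] with j hj
  obtain ⟨m, hm, hmlt⟩ := Submodule.Quotient.norm_mk_lt (S := S) (q (u j)) (half_pos hε)
  refine ⟨u j - m, ?_, ?_⟩
  · have : (Submodule.Quotient.mk m : X ⧸ S) = Submodule.Quotient.mk (u j) := hm
    rw [SetLike.mem_coe]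
    have := (Submodule.Quotient.eq S).1 this.symm
    exact this
  · simp only [sub_sub_cancel]
    have := hbound (u j)
    linarith

/-- A weakly null sequence in a finite-dimensional space is norm null. -/
theorem not_finiteDimensional_of_weakly_null {ι : Type*} {l : Filter ι} [l.NeBot] (u : ι → X)
    {κ : ℝ} (hκ : 0 < κ) (hu₁ : ∀ i, κ ≤ ‖u i‖)
    (hu : ∀ ψ : X →L[ℝ] ℝ, Tendsto (fun i => ψ (u i)) l (𝓝 0)) :
    ¬ FiniteDimensional ℝ X := by
  intro hfd
  have := hfd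
  obtain ⟨i, y, hy, hlt⟩ := ((cof_zero_of_finiteDimensional (X := X)).eventually_near u hu hκ).exists
  have hy0 : y = 0 := hy
  subst hy0
  have := hu₁ i
  simp only [sub_zero] at hlt
  linarith

/-- An `ℓ²` upper estimate implies weak nullity. -/
theorem tendsto_zero_of_l2_upper (u : ℕ → X) (C : ℝ)
    (hu : ∀ (A : Finset ℕ) (a : ℕ → ℝ), ‖∑ n ∈ A, a n • u n‖ ≤ C * Real.sqrt (∑ n ∈ A, a n ^ 2))
    (ψ : X →L[ℝ] ℝ) : Tendsto (fun n => ψ (u n)) atTop (𝓝 0) := by
  set a : ℕ → ℝ := fun n => ψ (u n) with ha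
  have hbound : ∀ A : Finset ℕ, ∑ n ∈ A, a n ^ 2 ≤ (‖ψ‖ * C) ^ 2 := by
    intro A
    have h₁ : ∑ n ∈ A, a n ^ 2 = ψ (∑ n ∈ A, a n • u n) := by
      rw [map_sum]
      refine Finset.sum_congr rfl fun n _ => ?_
      simp [ha, pow_two]
    set s := ∑ n ∈ A, a n ^ 2 with hs
    have hs0 : 0 ≤ s := Finset.sum_nonneg fun n _ => sq_nonneg _
    have h₂ : s ≤ ‖ψ‖ * (C * Real.sqrt s) := by
      calc s = ψ (∑ n ∈ A, a n • u n) := h₁
        _ ≤ ‖ψ (∑ n ∈ A, a n • u n)‖ := le_abs_self _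
        _ ≤ ‖ψ‖ * ‖∑ n ∈ A, a n • u n‖ := ψ.le_opNorm _
        _ ≤ ‖ψ‖ * (C * Real.sqrt s) := by
            gcongr
            exact hu A a
    rcases hs0.eq_or_lt with h0 | hpos
    · rw [← h0]; positivity
    · have hsq : Real.sqrt s * Real.sqrt s = s := Real.mul_self_sqrt hs0
      have hsqpos : 0 < Real.sqrt s := Real.sqrt_pos.2 hpos
      have h₃ : Real.sqrt s ≤ ‖ψ‖ * C := by
        have : Real.sqrt s * Real.sqrt s ≤ (‖ψ‖ * C) * Real.sqrt s := by
          rw [hsq]; linarith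
        exact le_of_mul_le_mul_right this hsqpos
      calc s = Real.sqrt s ^ 2 := by rw [pow_two, hsq]
        _ ≤ (‖ψ‖ * C) ^ 2 := by gcongr
  have hsum : Summable (fun n => a n ^ 2) :=
    summable_of_sum_le (fun _ => sq_nonneg _) hbound
  have h0 : Tendsto (fun n => a n ^ 2) atTop (𝓝 0) := hsum.tendsto_atTop_zero
  have h1 : Tendsto (fun n => |a n|) atTop (𝓝 0) := by
    have := h0.sqrt
    simpa [Real.sqrt_sq_eq_abs] using this
  exact (tendsto_zero_iff_abs_tendsto_zero _).2 h1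

/-- Unbundled form of `RealBanach.IsEquivNorm`. -/
def IsEquivNorm' (N : X → ℝ) : Prop :=
  (∀ x y : X, N (x + y) ≤ N x + N y) ∧ (∀ (a : ℝ) (x : X), N (a • x) = abs a * N x) ∧
    ∃ a b : ℝ, 0 < a ∧ ∀ x : X, a * ‖x‖ ≤ N x ∧ N x ≤ b * ‖x‖

/-- Unbundled form of `RealBanach.IsAUC`. -/
def IsAUC' (N : X → ℝ) : Prop :=
  ∀ t : ℝ, 0 < t → ∃ c : ℝ, 0 < c ∧ ∀ x : X, N x = 1 → ∃ F : Set X, Cof F ∧
    ∀ y ∈ F, N y = 1 → c ≤ N (x + t • y) - 1

/-- Monotonicity of the excess along a ray, by convexity. -/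
theorem excess_mono {N : X → ℝ} (hadd : ∀ x y : X, N (x + y) ≤ N x + N y)
    (hhom : ∀ (a : ℝ) (x : X), N (a • x) = abs a * N x) {x y : X} (hx : N x = 1) {t r c : ℝ}
    (ht : 0 < t) (htr : t ≤ r) (hc : 0 < c) (h : c ≤ N (x + t • y) - 1) :
    1 + c ≤ N (x + r • y) := by
  have hr : 0 < r := ht.trans_le htr
  have hdec : x + t • y = (1 - t / r) • x + (t / r) • (x + r • y) := by
    have : (t / r) * r = t := by field_simp
    rw [smul_add, smul_smul, this, sub_smul, one_smul]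
    abel
  have h₁ : 0 ≤ 1 - t / r := by
    have : t / r ≤ 1 := (div_le_one hr).2 htr
    linarith
  have h₂ : 0 ≤ t / r := by positivity
  have hle : N (x + t • y) ≤ (1 - t / r) + (t / r) * N (x + r • y) := by
    rw [hdec]
    refine (hadd _ _).trans ?_
    rw [hhom, hhom, abs_of_nonneg h₁, abs_of_nonneg h₂, hx, mul_one]
  have h₃ : c ≤ (t / r) * (N (x + r • y) - 1) := by nlinarith
  have h₄ : t / r ≤ 1 := (div_le_one hr).2 htr
  have h₅ : 0 ≤ N (x + r • y) - 1 := by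
    by_contra hneg
    have hneg' : N (x + r • y) - 1 < 0 := not_le.1 hneg
    have : (t / r) * (N (x + r • y) - 1) ≤ 0 :=
      mul_nonpos_of_nonneg_of_nonpos h₂ hneg'.le
    linarith
  nlinarith

/-- The abstract tree obstruction: a tree of points, with increments of norm at least `κ` as
close as we wish to any prescribed closed finite-codimensional subspace, along which the points
stay bounded, forbids an equivalent asymptotically uniformly convex norm. Here `𝒳 n` consists of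
points from which `n` more steps are possible. -/
theorem no_auc_of_tree (N : X → ℝ) (hN : IsEquivNorm' N) (𝒳 : ℕ → Set X) {κ m M : ℝ}
    (hκ : 0 < κ) (hm : 0 < m) (hne : ∀ n, (𝒳 n).Nonempty)
    (hbd : ∀ n, ∀ x ∈ 𝒳 n, m ≤ ‖x‖ ∧ ‖x‖ ≤ M)
    (hstep : ∀ n, ∀ x ∈ 𝒳 (n + 1), ∀ F : Set X, Cof F → ∀ ε : ℝ, 0 < ε →
      ∃ u y : X, y ∈ F ∧ ‖u - y‖ < ε ∧ κ ≤ ‖u‖ ∧ x + u ∈ 𝒳 n) :
    ¬ IsAUC' N := by
  obtain ⟨hadd, hhom, a, b, ha, hab⟩ := hN
  intro hA
  obtain ⟨x₀, hx₀⟩ := hne 0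
  have hmM : m ≤ M := (hbd 0 x₀ hx₀).1.trans (hbd 0 x₀ hx₀).2
  have hMpos : 0 < M := hm.trans_le hmM
  have hab' : a ≤ b := by
    have h1 := hbd 0 x₀ hx₀
    have hpos : 0 < ‖x₀‖ := hm.trans_le h1.1
    have h2 := hab x₀
    exact le_of_mul_le_mul_right (h2.1.trans h2.2) hpos
  have hb : 0 < b := ha.trans_le hab'
  have hNpos : ∀ x : X, m ≤ ‖x‖ → a * m ≤ N x := fun x hx =>
    (mul_le_mul_of_nonneg_left hx ha.le).trans (hab x).1
  set t₀ : ℝ := a * κ / (2 * b * M) with ht₀def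
  have ht₀ : 0 < t₀ := by positivity
  obtain ⟨c, hc, hAc⟩ := hA t₀ ht₀
  -- one step of the growth
  have step : ∀ n, ∀ x ∈ 𝒳 (n + 1), ∃ x' ∈ 𝒳 n, N x * (1 + c / 2) ≤ N x' := by
    intro n x hx
    obtain ⟨hxm, hxM⟩ := hbd (n + 1) x hx
    have hNx : a * m ≤ N x := hNpos x hxm
    have hNxpos : 0 < N x := lt_of_lt_of_le (by positivity) hNx
    have hNxle : N x ≤ b * M := (hab x).2.trans (by gcongr)
    set x₁ : X := (N x)⁻¹ • x with hx₁
    have hNx₁ : N x₁ = 1 := by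
      rw [hx₁, hhom, abs_of_pos (inv_pos.2 hNxpos), inv_mul_cancel₀ hNxpos.ne']
    obtain ⟨F, hF, hFy⟩ := hAc x₁ hNx₁
    set ε : ℝ := min (κ / 2) (a * m * c / (2 * b)) with hε
    have hεpos : 0 < ε := lt_min (by positivity) (by positivity)
    obtain ⟨u, y, hyF, huy, hκu, hxu⟩ := hstep n x hx F hF ε hεpos
    have hε₁ : ε ≤ κ / 2 := min_le_left _ _
    have hε₂ : ε ≤ a * m * c / (2 * b) := min_le_right _ _
    have hyn : κ / 2 ≤ ‖y‖ := by
      have : ‖u‖ ≤ ‖y‖ + ‖u - y‖ := by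
        have := norm_add_le y (u - y)
        simpa using this
      linarith
    have hNy : a * (κ / 2) ≤ N y := (mul_le_mul_of_nonneg_left hyn ha.le).trans (hab y).1
    have hNypos : 0 < N y := lt_of_lt_of_le (by positivity) hNy
    set y₁ : X := (N y)⁻¹ • y with hy₁
    have hNy₁ : N y₁ = 1 := by
      rw [hy₁, hhom, abs_of_pos (inv_pos.2 hNypos), inv_mul_cancel₀ hNypos.ne']
    have hy₁F : y₁ ∈ F := hF.smul_mem _ hyF
    have hc₁ := hFy y₁ hy₁F hNy₁
    set r : ℝ := N y / N x with hr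
    have hrpos : 0 < r := div_pos hNypos hNxpos
    have hrt : t₀ ≤ r := by
      rw [hr, ht₀def]
      rw [div_le_div_iff₀ (by positivity) hNxpos]
      nlinarith [mul_le_mul hNy hNxle hNxpos.le (by positivity : 0 ≤ N y)]
    -- convexity
    have hconv : 1 + c ≤ N (x₁ + r • y₁) := excess_mono hadd hhom hNx₁ ht₀ hrt hc hc₁
    have hdec₂ : x + y = N x • (x₁ + r • y₁) := by
      have h₁ : N x • x₁ = x := by
        rw [hx₁, smul_smul, mul_inv_cancel₀ hNxpos.ne', one_smul]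
      have h₂ : N x • r • y₁ = y := by
        have : N x * r * (N y)⁻¹ = 1 := by
          rw [hr]; field_simp
        rw [hy₁, smul_smul, smul_smul, this, one_smul]
      rw [smul_add, h₁, h₂]
    have hNxy : N x * (1 + c) ≤ N (x + y) := by
      rw [hdec₂, hhom, abs_of_pos hNxpos]
      gcongr
    have hsplit : x + y = (x + u) + (y - u) := by abel
    have hNsub : N (y - u) ≤ a * m * c / 2 := by
      have h₁ : N (y - u) ≤ b * ‖y - u‖ := (hab _).2
      have h₂ : ‖y - u‖ = ‖u - y‖ := norm_sub_rev _ _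
      have h₃ : b * ‖u - y‖ ≤ b * (a * m * c / (2 * b)) := by
        gcongr
        exact huy.le.trans hε₂
      have h₄ : b * (a * m * c / (2 * b)) = a * m * c / 2 := by field_simp
      rw [h₂] at h₁
      linarith
    refine ⟨x + u, hxu, ?_⟩
    have h₁ : N (x + y) ≤ N (x + u) + N (y - u) := by
      rw [hsplit]; exact hadd _ _
    have h₂ : a * m * c / 2 ≤ N x * c / 2 := by gcongr
    nlinarith
  -- iterate
  have iter : ∀ n, ∀ x ∈ 𝒳 n, N x * (1 + c / 2) ^ n ≤ b * M := by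
    intro n
    induction n with
    | zero =>
      intro x hx
      simpa using (hab x).2.trans (by
        have := (hbd 0 x hx).2
        gcongr)
    | succ n ih =>
      intro x hx
      obtain ⟨x', hx', hle⟩ := step n x hx
      have := ih x' hx'
      calc N x * (1 + c / 2) ^ (n + 1) = (N x * (1 + c / 2)) * (1 + c / 2) ^ n := by ring
        _ ≤ N x' * (1 + c / 2) ^ n := by gcongr
        _ ≤ b * M := this
  obtain ⟨n, hn⟩ := pow_unbounded_of_one_lt (b * M / (a * m)) (by linarith : 1 < 1 + c / 2)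
  obtain ⟨x, hx⟩ := hne n
  have h₁ := iter n x hx
  have h₂ := hNpos x (hbd n x hx).1
  have h₃ : b * M < (1 + c / 2) ^ n * (a * m) := by
    rwa [div_lt_iff₀ (by positivity)] at hn
  have h₄ : (1 + c / 2) ^ n * (a * m) ≤ N x * (1 + c / 2) ^ n := by
    rw [mul_comm]
    gcongr
  linarith

end Generic

end Crest.Agent.Lib.AsympBasic
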