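import Crest.Prelude.Def_DaugavetL1
import Crest.Agent.Lib.AsympBasic

/-!
Consequences of the Daugavet property: the slice lemma and the weakly-open (Shvidkoy) version,
here in the form needed for finite-codimensional subspaces (helper library for S0167).
-/

set_option autoImplicit false

open Filter Topology
open Crest.AnalysisR.L1Subspace

namespace Crest.Agent.Lib.Daugavet

open Crest.Agent.Lib.AsympBasic

variable {X : Type*} [NormedAddCommGroup X] [NormedSpace ℝ X]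

/-- Slice lemma for the Daugavet property. -/
theorem slice_lemma (hD : HasDaugavetProperty X) (φ : X →L[ℝ] ℝ) {x : X} (hx : ‖x‖ = 1) {δ ε : ℝ}
    (hδ : 0 < δ) (hε : 0 < ε) :
    ∃ v : X, ‖v‖ ≤ 1 ∧ ‖φ‖ - δ < φ v ∧ 2 - ε < ‖x + v‖ := by
  by_cases hφ : φ = 0
  · refine ⟨x, hx.le, ?_, ?_⟩
    · subst hφ; simpa using hδ
    · have : ‖x + x‖ = 2 := by
        rw [← two_smul ℝ x, norm_smul, hx]; simp
      rw [this]; linarith
  have hφn : 0 < ‖φ‖ := norm_pos_iff.2 hφ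
  set φ₁ : X →L[ℝ] ℝ := ‖φ‖⁻¹ • φ with hφ₁
  have hφ₁n : ‖φ₁‖ = 1 := by
    rw [hφ₁, norm_smul, norm_inv, norm_norm, inv_mul_cancel₀ hφn.ne']
  have hφv : ∀ w, φ w = ‖φ‖ * φ₁ w := by
    intro w
    simp only [hφ₁, _root_.smul_apply, smul_eq_mul]
    field_simp
  have hφ₁le : ∀ w : X, φ₁ w ≤ ‖w‖ := by
    intro w
    have := (le_abs_self _).trans (φ₁.le_opNorm w)
    rwa [hφ₁n, one_mul] at this
  set ε' : ℝ := min (ε / 2) (δ / ‖φ‖) with hε'
  have hε'pos : 0 < ε' := lt_min (half_pos hε) (div_pos hδ hφn)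
  have hT : ‖ContinuousLinearMap.id ℝ X + φ₁.smulRight x‖ = 2 := by
    rw [hD φ₁ x, ContinuousLinearMap.norm_smulRight_apply, hφ₁n, hx]
    norm_num
  obtain ⟨u, hu, hlt⟩ := ContinuousLinearMap.exists_lt_apply_of_lt_opNorm
    (ContinuousLinearMap.id ℝ X + φ₁.smulRight x) (r := 2 - ε') (by rw [hT]; linarith)
  simp only [_root_.add_apply, ContinuousLinearMap.id_apply,
    ContinuousLinearMap.smulRight_apply] at hlt
  -- choose the sign
  obtain ⟨v, hv, hv0, hvlt⟩ : ∃ v : X, ‖v‖ ≤ 1 ∧ 0 ≤ φ₁ v ∧ 2 - ε' < ‖v + φ₁ v • x‖ := by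
    by_cases h0 : 0 ≤ φ₁ u
    · exact ⟨u, hu.le, h0, hlt⟩
    · refine ⟨-u, by rw [norm_neg]; exact hu.le, ?_, ?_⟩
      · rw [map_neg]; linarith
      · have : -u + φ₁ (-u) • x = -(u + φ₁ u • x) := by
          rw [map_neg, neg_smul, neg_add]
        rw [this, norm_neg]
        exact hlt
  have hφv1 : 1 - ε' < φ₁ v := by
    have h1 : ‖v + φ₁ v • x‖ ≤ ‖v‖ + ‖φ₁ v • x‖ := norm_add_le _ _
    rw [norm_smul, hx, mul_one, Real.norm_eq_abs, abs_of_nonneg hv0] at h1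
    linarith
  have hφvle : φ₁ v ≤ 1 := (hφ₁le v).trans hv
  refine ⟨v, hv, ?_, ?_⟩
  · rw [hφv]
    have h2 : ε' ≤ δ / ‖φ‖ := min_le_right _ _
    have h3 : ‖φ‖ * ε' ≤ δ := by
      have := mul_le_mul_of_nonneg_left h2 hφn.le
      rwa [mul_div_cancel₀ _ hφn.ne'] at this
    nlinarith
  · have h1 : v + φ₁ v • x = (x + v) - (1 - φ₁ v) • x := by
      rw [sub_smul, one_smul]; abel
    have h2 : ‖v + φ₁ v • x‖ ≤ ‖x + v‖ + ‖(1 - φ₁ v) • x‖ := by
      rw [h1]; exact norm_sub_le _ _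
    rw [norm_smul, hx, mul_one, Real.norm_eq_abs, abs_of_nonneg (by linarith)] at h2
    have h3 : ε' ≤ ε / 2 := min_le_left _ _
    linarith

section Hilbert
set_option linter.unusedSectionVars false

variable {H : Type*} [NormedAddCommGroup H] [InnerProductSpace ℝ H] [FiniteDimensional ℝ H]

/-- The set of points of `H` that are images of elements of the unit ball with the
alignment property with respect to every unit vector. -/
def Good (T : X →L[ℝ] H) : Set H :=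
  {q | ∀ ε : ℝ, 0 < ε → ∀ x : X, ‖x‖ = 1 → ∃ (v : X) (g : X →L[ℝ] ℝ),
    ‖v‖ ≤ 1 ∧ ‖g‖ ≤ 1 ∧ 1 - ε < g x ∧ 1 - ε < g v ∧ ‖T v - q‖ < ε}

omit [FiniteDimensional ℝ H] in
theorem good_isClosed (T : X →L[ℝ] H) : IsClosed (Good T) := by
  refine isClosed_of_closure_subset fun q hq ε hε x hx => ?_
  obtain ⟨q', hq', hd⟩ := Metric.mem_closure_iff.1 hq (ε / 2) (half_pos hε)
  obtain ⟨v, g, hv, hg, h1, h2, h3⟩ := hq' (ε / 2) (half_pos hε) x hx
  refine ⟨v, g, hv, hg, by linarith, by linarith, ?_⟩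
  have : ‖T v - q‖ ≤ ‖T v - q'‖ + ‖q' - q‖ := norm_sub_le_norm_sub_add_norm_sub _ _ _
  rw [dist_eq_norm, norm_sub_rev] at hd
  linarith

omit [FiniteDimensional ℝ H] in
theorem good_convex (T : X →L[ℝ] H) : Convex ℝ (Good T) := by
  intro q₁ h₁ q₂ h₂ a b ha hb hab ε hε x hx
  set ε₁ : ℝ := min (ε / 4) (1 / 4) with hε₁
  have hε₁pos : 0 < ε₁ := lt_min (by positivity) (by norm_num)
  have hε₁a : ε₁ ≤ ε / 4 := min_le_left _ _
  have hε₁b : ε₁ ≤ 1 / 4 := min_le_right _ _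
  obtain ⟨v₁, g₁, hv₁, hg₁, h11, h12, h13⟩ := h₁ ε₁ hε₁pos x hx
  have hg₁le : ∀ w : X, g₁ w ≤ ‖w‖ := by
    intro w
    have := (le_abs_self _).trans (g₁.le_opNorm w)
    exact this.trans (by nlinarith [norm_nonneg w])
  have hnorm : 2 - 2 * ε₁ < ‖x + v₁‖ := by
    have := hg₁le (x + v₁)
    rw [map_add] at this
    linarith
  have hnpos : 0 < ‖x + v₁‖ := by linarith
  set x' : X := ‖x + v₁‖⁻¹ • (x + v₁) with hx'
  have hx'n : ‖x'‖ = 1 := by
    rw [hx', norm_smul, norm_inv, norm_norm, inv_mul_cancel₀ hnpos.ne']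
  obtain ⟨v₂, g₂, hv₂, hg₂, h21, h22, h23⟩ := h₂ ε₁ hε₁pos x' hx'n
  have hg₂le : ∀ w : X, g₂ w ≤ ‖w‖ := by
    intro w
    have := (le_abs_self _).trans (g₂.le_opNorm w)
    exact this.trans (by nlinarith [norm_nonneg w])
  have hgx' : (1 - ε₁) * ‖x + v₁‖ < g₂ (x + v₁) := by
    have : g₂ x' = ‖x + v₁‖⁻¹ * g₂ (x + v₁) := by
      rw [hx', map_smul, smul_eq_mul]
    rw [this] at h21
    rw [lt_inv_mul_iff₀ hnpos] at h21
    linarith
  rw [map_add] at hgx'
  have hgxle : g₂ x ≤ 1 := (hg₂le x).trans hx.le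
  have hgv₁le : g₂ v₁ ≤ 1 := (hg₂le v₁).trans hv₁
  have hlow : 2 - 4 * ε₁ < g₂ x + g₂ v₁ := by
    have : (1 - ε₁) * (2 - 2 * ε₁) ≤ (1 - ε₁) * ‖x + v₁‖ :=
      mul_le_mul_of_nonneg_left hnorm.le (by linarith)
    nlinarith
  refine ⟨a • v₁ + b • v₂, g₂, ?_, hg₂, by linarith, ?_, ?_⟩
  · calc ‖a • v₁ + b • v₂‖ ≤ ‖a • v₁‖ + ‖b • v₂‖ := norm_add_le _ _
      _ = a * ‖v₁‖ + b * ‖v₂‖ := by
          rw [norm_smul, norm_smul, Real.norm_eq_abs, Real.norm_eq_abs, abs_of_nonneg ha,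
            abs_of_nonneg hb]
      _ ≤ a * 1 + b * 1 := by gcongr
      _ = 1 := by rw [mul_one, mul_one, hab]
  · rw [map_add, map_smul, map_smul, smul_eq_mul, smul_eq_mul]
    have h3 : 1 - ε < g₂ v₁ := by linarith
    have h4 : 1 - ε < g₂ v₂ := by linarith
    rcases ha.eq_or_lt with rfl | hapos
    · have hb1 : b = 1 := by linarith
      subst hb1
      simpa using h4
    · have h5 : a * (1 - ε) < a * g₂ v₁ := by gcongr
      have h6 : b * (1 - ε) ≤ b * g₂ v₂ := by gcongr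
      have h7 : a * (1 - ε) + b * (1 - ε) = 1 - ε := by rw [← add_mul, hab, one_mul]
      linarith
  · have hsplit : T (a • v₁ + b • v₂) - (a • q₁ + b • q₂) =
        a • (T v₁ - q₁) + b • (T v₂ - q₂) := by
      simp only [map_add, map_smul, smul_sub]
      abel
    rw [hsplit]
    have h5 : ε₁ < ε := by linarith
    calc ‖a • (T v₁ - q₁) + b • (T v₂ - q₂)‖ ≤ ‖a • (T v₁ - q₁)‖ + ‖b • (T v₂ - q₂)‖ :=
          norm_add_le _ _
      _ = a * ‖T v₁ - q₁‖ + b * ‖T v₂ - q₂‖ := by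
          rw [norm_smul, norm_smul, Real.norm_eq_abs, Real.norm_eq_abs, abs_of_nonneg ha,
            abs_of_nonneg hb]
      _ < a * ε + b * ε := by
          rcases ha.eq_or_lt with rfl | hapos
          · have hb1 : b = 1 := by linarith
            subst hb1
            simpa using h23.trans h5
          · have h6 : a * ‖T v₁ - q₁‖ < a * ε := by
              gcongr
              exact h13.trans h5
            have h7 : b * ‖T v₂ - q₂‖ ≤ b * ε := by
              gcongr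
              exact (h23.trans h5).le
            linarith
      _ = ε := by rw [← add_mul, hab, one_mul]

/-- The closure of the image of the unit ball. -/
def imgBall (T : X →L[ℝ] H) : Set H := closure (T '' Metric.closedBall (0 : X) 1)

omit [FiniteDimensional ℝ H] in
theorem imgBall_subset (T : X →L[ℝ] H) : imgBall T ⊆ Metric.closedBall (0 : H) ‖T‖ := by
  refine closure_minimal ?_ Metric.isClosed_closedBall
  rintro _ ⟨v, hv, rfl⟩
  rw [mem_closedBall_zero_iff] at hv ⊢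
  calc ‖T v‖ ≤ ‖T‖ * ‖v‖ := T.le_opNorm v
    _ ≤ ‖T‖ * 1 := by gcongr
    _ = ‖T‖ := mul_one _

theorem imgBall_compact (T : X →L[ℝ] H) : IsCompact (imgBall T) :=
  (isCompact_closedBall (0 : H) ‖T‖).of_isClosed_subset isClosed_closure (imgBall_subset T)

omit [FiniteDimensional ℝ H] in
theorem imgBall_nonempty (T : X →L[ℝ] H) : (imgBall T).Nonempty :=
  ⟨T 0, subset_closure ⟨0, by simp, rfl⟩⟩

/-- A farthest point of the image of the ball is good. -/
theorem farthest_good (hD : HasDaugavetProperty X) (T : X →L[ℝ] H) {y z : H} (hy : y ∈ imgBall T)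
    (hmax : ∀ q ∈ imgBall T, ‖q - z‖ ≤ ‖y - z‖) : y ∈ Good T := by
  intro ε hε x hx
  set ℓ : H := y - z with hℓ
  set φ : X →L[ℝ] ℝ := (innerSL ℝ ℓ).comp T with hφ
  have hφv : ∀ w, φ w = inner ℝ ℓ (T w) := fun w => rfl
  have hyφ : inner ℝ ℓ y ≤ ‖φ‖ := by
    have hcl : IsClosed {q : H | inner ℝ ℓ q ≤ ‖φ‖} :=
      isClosed_le (by fun_prop) continuous_const
    refine closure_minimal ?_ hcl hy
    rintro _ ⟨w, hw, rfl⟩
    rw [mem_closedBall_zero_iff] at hw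
    have h1 := (le_abs_self _).trans (φ.le_opNorm w)
    show inner ℝ ℓ (T w) ≤ ‖φ‖
    rw [← hφv]
    exact h1.trans (by nlinarith [norm_nonneg φ])
  obtain ⟨v, hv, hφlt, hnorm⟩ := slice_lemma hD φ hx (δ := ε ^ 2 / 2) (ε := ε) (by positivity) hε
  obtain ⟨g, hg, hgv⟩ := exists_dual_vector'' ℝ (x + v)
  simp only [RCLike.ofReal_real_eq_id, id_eq] at hgv
  have hgle : ∀ w : X, g w ≤ ‖w‖ := by
    intro w
    have := (le_abs_self _).trans (g.le_opNorm w)
    exact this.trans (by nlinarith [norm_nonneg w])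
  have hgx : g x ≤ 1 := (hgle x).trans hx.le
  have hgv' : g v ≤ 1 := (hgle v).trans hv
  rw [map_add] at hgv
  refine ⟨v, g, hv, hg, by linarith, by linarith, ?_⟩
  -- geometry of the ball
  have hq : T v ∈ imgBall T := subset_closure ⟨v, by simpa using hv, rfl⟩
  have h1 := hmax _ hq
  have hinner : -(ε ^ 2 / 2) < inner ℝ ℓ (T v - y) := by
    rw [inner_sub_right, ← hφv]
    linarith
  have hsq : ‖T v - y‖ ^ 2 < ε ^ 2 := by
    have h2 : ‖T v - z‖ ^ 2 ≤ ‖y - z‖ ^ 2 := by gcongr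
    have h3 : T v - z = (T v - y) + ℓ := by rw [hℓ]; abel
    rw [h3, norm_add_sq_real, real_inner_comm] at h2
    nlinarith
  exact lt_of_pow_lt_pow_left₀ 2 hε.le hsq

/-- Every point of the image of the ball is good. -/
theorem imgBall_subset_good (hD : HasDaugavetProperty X) (T : X →L[ℝ] H) :
    imgBall T ⊆ Good T := by
  intro p hp
  by_contra hpg
  obtain ⟨f, u, hfu, hup⟩ := geometric_hahn_banach_closed_point (good_convex T) (good_isClosed T) hpg
  set ℓ : H := (InnerProductSpace.toDual ℝ H).symm f with hℓ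
  have hfℓ : ∀ w, f w = inner ℝ ℓ w := fun w => by
    rw [hℓ, InnerProductSpace.toDual_symm_apply]
  set gap : ℝ := f p - u with hgap
  have hgappos : 0 < gap := by rw [hgap]; linarith
  set D : ℝ := (2 * ‖T‖) ^ 2 with hD2
  set R : ℝ := (D + 1) / gap with hR
  have hRpos : 0 < R := by
    have : 0 ≤ D := by rw [hD2]; positivity
    positivity
  set z : H := p - R • ℓ with hz
  obtain ⟨y, hy, hymax⟩ := (imgBall_compact T).exists_isMaxOn (imgBall_nonempty T)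
    (f := fun q => ‖q - z‖) (by fun_prop)
  have hgood : y ∈ Good T := farthest_good hD T hy fun q hq => hymax hq
  have hfy := hfu y hgood
  have h1 : ‖p - z‖ ≤ ‖y - z‖ := hymax hp
  have h2 : ‖p - z‖ ^ 2 ≤ ‖y - z‖ ^ 2 := by gcongr
  have h3 : p - z = R • ℓ := by rw [hz]; abel
  have h4 : y - z = (y - p) + R • ℓ := by rw [hz]; abel
  rw [h3, h4, norm_add_sq_real] at h2
  rw [inner_smul_right] at h2
  have h5 : ‖y - p‖ ≤ 2 * ‖T‖ := by
    have hy' := imgBall_subset T hy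
    have hp' := imgBall_subset T hp
    rw [mem_closedBall_zero_iff] at hy' hp'
    calc ‖y - p‖ ≤ ‖y‖ + ‖p‖ := norm_sub_le _ _
      _ ≤ 2 * ‖T‖ := by linarith
  have h6 : ‖y - p‖ ^ 2 ≤ D := by
    rw [hD2]; gcongr
  have h7 : -(D) ≤ 2 * (R * inner ℝ (y - p) ℓ) := by nlinarith
  have h8 : inner ℝ (y - p) ℓ = f y - f p := by
    rw [real_inner_comm, inner_sub_right, hfℓ, hfℓ]
  rw [h8] at h7
  have h9 : f y - f p < -gap := by rw [hgap]; linarith
  have h10 : R * gap = D + 1 := by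
    rw [hR]; field_simp
  nlinarith

/-- Shvidkoy's lemma: the alignment property inside any "weak neighbourhood". -/
theorem exists_aligned (hD : HasDaugavetProperty X) (T : X →L[ℝ] H) {u : X} (hu : ‖u‖ ≤ 1)
    {x : X} (hx : ‖x‖ = 1) {ε : ℝ} (hε : 0 < ε) :
    ∃ (v : X) (g : X →L[ℝ] ℝ), ‖v‖ ≤ 1 ∧ ‖g‖ ≤ 1 ∧ 1 - ε < g x ∧ 1 - ε < g v ∧ ‖T v - T u‖ < ε := by
  have : T u ∈ imgBall T := subset_closure ⟨u, by simpa using hu, rfl⟩
  exact imgBall_subset_good hD T this ε hε x hx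

end Hilbert

/-- Euclidean coordinates for a closed finite-codimensional subspace. -/
theorem Cof_exists_euclidean {F : Set X} (hF : Cof F) :
    ∃ (n : ℕ) (T : X →L[ℝ] EuclideanSpace ℝ (Fin n)) (C : ℝ), 0 ≤ C ∧
      ∀ (w : X) (η : ℝ), 0 < η → ∃ y ∈ F, ‖w - y‖ < C * ‖T w‖ + η := by
  obtain ⟨S, rfl, hcl, hfd⟩ := hF
  have : IsClosed (S : Set X) := hcl
  have := hfd
  let b := Module.finBasis ℝ (X ⧸ S)
  let q : X →L[ℝ] (X ⧸ S) := S.mkQ.mkContinuous 1 (fun x => by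
    simpa using Submodule.Quotient.norm_mk_le (S := S) x)
  let ψ : Fin (Module.finrank ℝ (X ⧸ S)) → X →L[ℝ] ℝ := fun i =>
    (LinearMap.toContinuousLinearMap (b.coord i)).comp q
  let T : X →L[ℝ] EuclideanSpace ℝ (Fin (Module.finrank ℝ (X ⧸ S))) :=
    (EuclideanSpace.equiv (Fin (Module.finrank ℝ (X ⧸ S))) ℝ).symm.toContinuousLinearMap.comp
      (ContinuousLinearMap.pi ψ)
  have hT : ∀ w i, T w i = ψ i w := fun w i => rfl
  refine ⟨_, T, ∑ i, ‖b i‖, Finset.sum_nonneg fun i _ => norm_nonneg _, ?_⟩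
  intro w η hη
  have hbound : ‖q w‖ ≤ (∑ i, ‖b i‖) * ‖T w‖ := by
    conv_lhs => rw [← b.sum_repr (q w)]
    refine (norm_sum_le _ _).trans ?_
    rw [Finset.sum_mul]
    refine Finset.sum_le_sum fun i _ => ?_
    rw [norm_smul, mul_comm]
    gcongr
    have h1 : ‖(T w) i‖ ≤ ‖T w‖ := by
      have := PiLp.norm_apply_le (p := 2) (T w) i
      simpa using this
    exact h1
  obtain ⟨m, hm, hmlt⟩ := Submodule.Quotient.norm_mk_lt (S := S) (q w) hη
  refine ⟨w - m, ?_, ?_⟩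
  · have h1 : (Submodule.Quotient.mk m : X ⧸ S) = Submodule.Quotient.mk w := hm
    exact (Submodule.Quotient.eq S).1 h1.symm
  · simp only [sub_sub_cancel]
    linarith

/-- The anti-aligned direction: in a Daugavet space, for each unit `x`, each closed
finite-codimensional `F` and each `η > 0` there is a unit `y ∈ F` with
`‖x - t • y‖ ≤ max 1 (t - 1) + t * η` for every `t > 0`. -/
theorem exists_anti_aligned (hD : HasDaugavetProperty X) {x : X} (hx : ‖x‖ = 1) {F : Set X}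
    (hF : Cof F) {η : ℝ} (hη : 0 < η) :
    ∃ y ∈ F, ‖y‖ = 1 ∧ ∀ t : ℝ, 0 < t → ‖x - t • y‖ ≤ max 1 (t - 1) + t * η := by
  obtain ⟨n, T, C, hC, hnear⟩ := Cof_exists_euclidean hF
  -- choose small parameters
  set ε : ℝ := min (min (η / (4 * (C + 1))) (1 / (4 * (C + 1)))) (1 / 4) with hε
  have hC1 : 0 < C + 1 := by linarith
  have hεpos : 0 < ε := lt_min (lt_min (by positivity) (by positivity)) (by norm_num)
  have hε1 : ε ≤ η / (4 * (C + 1)) := (min_le_left _ _).trans (min_le_left _ _)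
  have hε2 : ε ≤ 1 / (4 * (C + 1)) := (min_le_left _ _).trans (min_le_right _ _)
  have hε3 : ε ≤ 1 / 4 := min_le_right _ _
  obtain ⟨v, g, hv, hg, h1, h2, h3⟩ := exists_aligned hD T (u := -x) (by rw [norm_neg]; exact hx.le)
    hx hεpos
  have hgle : ∀ w : X, g w ≤ ‖w‖ := by
    intro w
    have := (le_abs_self _).trans (g.le_opNorm w)
    exact this.trans (by nlinarith [norm_nonneg w])
  set y₀ : X := (1 / 2 : ℝ) • (x + v) with hy₀
  have hy₀le : ‖y₀‖ ≤ 1 := by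
    rw [hy₀, norm_smul]
    have : ‖x + v‖ ≤ 2 := (norm_add_le _ _).trans (by linarith)
    norm_num
    linarith
  have hy₀low : 1 - ε < ‖y₀‖ := by
    have h4 := hgle y₀
    have h5 : g y₀ = (g x + g v) / 2 := by
      rw [hy₀, map_smul, map_add, smul_eq_mul]; ring
    rw [h5] at h4
    linarith
  have hTy₀ : ‖T y₀‖ < ε := by
    have h4 : T y₀ = (1 / 2 : ℝ) • (T v - T (-x)) := by
      rw [hy₀, map_smul, map_add, map_neg, sub_neg_eq_add, add_comm]
    have h6 : ‖(1 / 2 : ℝ) • (T v - T (-x))‖ = (1 / 2) * ‖T v - T (-x)‖ := by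
      rw [norm_smul]; norm_num
    rw [h4, h6]
    linarith
  obtain ⟨y₁, hy₁F, hy₁near⟩ := hnear y₀ ε hεpos
  have hy₁near' : ‖y₀ - y₁‖ < (C + 1) * ε := by
    have : C * ‖T y₀‖ ≤ C * ε := by gcongr
    linarith
  have hCε : (C + 1) * ε ≤ η / 4 := by
    have := mul_le_mul_of_nonneg_left hε1 hC1.le
    calc (C + 1) * ε ≤ (C + 1) * (η / (4 * (C + 1))) := this
      _ = η / 4 := by field_simp
  have hCε' : (C + 1) * ε ≤ 1 / 4 := by
    have := mul_le_mul_of_nonneg_left hε2 hC1.le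
    calc (C + 1) * ε ≤ (C + 1) * (1 / (4 * (C + 1))) := this
      _ = 1 / 4 := by field_simp
  have hεC : ε ≤ (C + 1) * ε := by nlinarith
  -- normalisation
  have hy₁low2 : 1 - ε - (C + 1) * ε < ‖y₁‖ := by
    have : ‖y₀‖ ≤ ‖y₁‖ + ‖y₀ - y₁‖ := by
      have := norm_add_le y₁ (y₀ - y₁)
      simpa using this
    linarith
  have hy₁low : 1 / 2 < ‖y₁‖ := by linarith
  have hy₁up : ‖y₁‖ ≤ 1 + (C + 1) * ε := by
    have : ‖y₁‖ ≤ ‖y₀‖ + ‖y₀ - y₁‖ := by
      have := norm_sub_le y₀ (y₀ - y₁)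
      simpa using this
    linarith
  have hy₁pos : 0 < ‖y₁‖ := by linarith
  set y : X := ‖y₁‖⁻¹ • y₁ with hy
  have hyn : ‖y‖ = 1 := by
    rw [hy, norm_smul, norm_inv, norm_norm, inv_mul_cancel₀ hy₁pos.ne']
  have hyF : y ∈ F := hF.smul_mem _ hy₁F
  have hyy₁ : ‖y - y₁‖ = |1 - ‖y₁‖| := by
    have h4 : y - y₁ = (‖y₁‖⁻¹ - 1) • y₁ := by
      rw [hy, sub_smul, one_smul]
    rw [h4, norm_smul, Real.norm_eq_abs]
    have h5 : |‖y₁‖⁻¹ - 1| * ‖y₁‖ = |(‖y₁‖⁻¹ - 1) * ‖y₁‖| := by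
      rw [abs_mul, abs_of_pos hy₁pos]
    rw [h5, sub_mul, inv_mul_cancel₀ hy₁pos.ne', one_mul]
  have hyy₀ : ‖y₀ - y‖ ≤ η := by
    have h4 : ‖y₀ - y‖ ≤ ‖y₀ - y₁‖ + ‖y₁ - y‖ := norm_sub_le_norm_sub_add_norm_sub _ _ _
    rw [norm_sub_rev y₁ y, hyy₁] at h4
    have h5 : |1 - ‖y₁‖| ≤ (C + 1) * ε + ε := by
      rw [abs_le]
      constructor
      · linarith
      · linarith
    linarith
  refine ⟨y, hyF, hyn, fun t ht => ?_⟩
  have hdecomp : x - t • y = (x - t • y₀) + t • (y₀ - y) := by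
    rw [smul_sub]; abel
  rw [hdecomp]
  refine (norm_add_le _ _).trans ?_
  rw [norm_smul, Real.norm_eq_abs, abs_of_pos ht]
  have h6 : t * ‖y₀ - y‖ ≤ t * η := by gcongr
  have h7 : ‖x - t • y₀‖ ≤ max 1 (t - 1) := by
    have h8 : x - t • y₀ = (1 - t / 2) • x - (t / 2) • v := by
      rw [hy₀, smul_smul, smul_add, sub_smul, one_smul]
      have : t * (1 / 2) = t / 2 := by ring
      rw [this]
      abel
    rw [h8]
    refine (norm_sub_le _ _).trans ?_
    rw [norm_smul, norm_smul, hx, mul_one, Real.norm_eq_abs, Real.norm_eq_abs,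
      abs_of_pos (by positivity : 0 < t / 2)]
    have h9 : t / 2 * ‖v‖ ≤ t / 2 * 1 := by gcongr
    rcases le_total t 2 with ht2 | ht2
    · rw [abs_of_nonneg (by linarith)]
      exact (by linarith : 1 - t / 2 + t / 2 * ‖v‖ ≤ 1).trans (le_max_left _ _)
    · rw [abs_of_nonpos (by linarith)]
      exact (by linarith : -(1 - t / 2) + t / 2 * ‖v‖ ≤ t - 1).trans (le_max_right _ _)
  linarith

end Crest.Agent.Lib.Daugavet
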