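import Mathlib
import Crest.Agent.Lib.AsympBasic

/-!
Generic facts on `ℓ²`-sums of Banach spaces (helper library for S0166): reflexivity,
separability and a stability property for "two-centre" lower estimates; weak cluster points
in reflexive spaces.
-/

set_option autoImplicit false

open Filter Topology
open scoped ENNReal

namespace Crest.Agent.Lib.L2Sum

open Crest.Agent.Lib.AsympBasic

lemma sqrt_sq_add_le' (a b c d : ℝ) :
    √(a ^ 2 + b ^ 2) ≤ √(c ^ 2 + d ^ 2) + |a - c| + |b - d| := by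
  set r := √(c ^ 2 + d ^ 2) with hr
  set p := |a - c| with hp
  set q := |b - d| with hq
  have hr0 : 0 ≤ r := Real.sqrt_nonneg _
  have hp0 : 0 ≤ p := abs_nonneg _
  have hq0 : 0 ≤ q := abs_nonneg _
  have hrsq : r ^ 2 = c ^ 2 + d ^ 2 := Real.sq_sqrt (by positivity)
  have hc : |c| ≤ r := Real.abs_le_sqrt (by nlinarith [sq_nonneg d])
  have hd : |d| ≤ r := Real.abs_le_sqrt (by nlinarith [sq_nonneg c])
  have ha : |a| ≤ |c| + p := by
    have : a = c + (a - c) := by ring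
    calc |a| = |c + (a - c)| := by rw [← this]
      _ ≤ |c| + |a - c| := abs_add_le _ _
  have hb : |b| ≤ |d| + q := by
    have : b = d + (b - d) := by ring
    calc |b| = |d + (b - d)| := by rw [← this]
      _ ≤ |d| + |b - d| := abs_add_le _ _
  apply Real.sqrt_le_iff.2
  refine ⟨by positivity, ?_⟩
  have h1 : a ^ 2 ≤ (|c| + p) ^ 2 := by
    rw [← sq_abs a]; gcongr
  have h2 : b ^ 2 ≤ (|d| + q) ^ 2 := by
    rw [← sq_abs b]; gcongr
  have h3 : |c| ^ 2 = c ^ 2 := sq_abs c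
  have h4 : |d| ^ 2 = d ^ 2 := sq_abs d
  have h5 : |c| * p ≤ r * p := by gcongr
  have h6 : |d| * q ≤ r * q := by gcongr
  nlinarith [mul_nonneg hp0 hq0]

section Single

variable {H Y : Type*} [NormedAddCommGroup H] [InnerProductSpace ℝ H] [CompleteSpace H]
  [NormedAddCommGroup Y] [NormedSpace ℝ Y]

/-- A normed space linearly homeomorphic to a Hilbert space is reflexive. -/
theorem reflexive_of_equiv (L : H ≃L[ℝ] Y) :
    Function.Surjective (NormedSpace.inclusionInDoubleDual ℝ Y) := by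
  intro Φ
  -- the composed functional on `H`
  let T : H →L[ℝ] (Y →L[ℝ] ℝ) :=
    ((ContinuousLinearMap.compL ℝ Y H ℝ).flip (L.symm : Y →L[ℝ] H)).comp (innerSL ℝ : H →L[ℝ] _)
  have hT : ∀ w : H, ∀ v : Y, T w v = inner ℝ w (L.symm v) := fun w v => rfl
  let Λ : H →L[ℝ] ℝ := Φ.comp T
  let h : H := (InnerProductSpace.toDual ℝ H).symm Λ
  have hh : ∀ w : H, inner ℝ h w = Φ (T w) := fun w => by
    have := InnerProductSpace.toDual_symm_apply (𝕜 := ℝ) (E := H) (x := w) (y := Λ)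
    exact this
  refine ⟨L h, ?_⟩
  ext ψ
  let w : H := (InnerProductSpace.toDual ℝ H).symm (ψ.comp (L : H →L[ℝ] Y))
  have hw : ∀ v : H, inner ℝ w v = ψ (L v) := fun v => by
    have := InnerProductSpace.toDual_symm_apply (𝕜 := ℝ) (E := H) (x := v)
      (y := ψ.comp (L : H →L[ℝ] Y))
    exact this
  have hTw : T w = ψ := by
    ext v
    rw [hT, hw, L.apply_symm_apply]
  have h1 : Φ ψ = inner ℝ h w := by rw [hh, hTw]
  rw [h1, real_inner_comm, hw]
  rfl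

end Single

section Lp

variable {X : ℕ → Type*} [∀ d, NormedAddCommGroup (X d)] [∀ d, NormedSpace ℝ (X d)]

lemma two_pos' : 0 < ((2 : ℝ≥0∞)).toReal := by norm_num

lemma two_toReal : ((2 : ℝ≥0∞)).toReal = 2 := by norm_num

lemma two_ne_top' : (2 : ℝ≥0∞) ≠ ⊤ := by norm_num

/-- Coordinate projection. -/
noncomputable abbrev pr (d : ℕ) : lp X 2 →L[ℝ] X d := lp.evalCLM ℝ X 2 d

/-- Coordinate injection. -/
noncomputable abbrev inj (d : ℕ) : X d →L[ℝ] lp X 2 := lp.singleContinuousLinearMap ℝ X 2 d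

lemma pr_apply (d : ℕ) (x : lp X 2) : pr (X := X) d x = x d := rfl

lemma inj_apply (d : ℕ) (x : X d) : inj (X := X) d x = lp.single 2 d x := rfl

lemma inj_apply_self (d : ℕ) (x : X d) : (inj (X := X) d x) d = x := lp.single_apply_self 2 d x

lemma inj_apply_ne {d j : ℕ} (x : X d) (h : j ≠ d) : (inj (X := X) d x) j = 0 :=
  lp.single_apply_ne 2 d x h

lemma norm_inj (d : ℕ) (x : X d) : ‖inj (X := X) d x‖ = ‖x‖ :=
  lp.norm_single (by norm_num) d x

lemma hasSum_norm_sq (x : lp X 2) : HasSum (fun d => ‖x d‖ ^ 2) (‖x‖ ^ 2) := by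
  have := lp.hasSum_norm two_pos' x
  simpa [two_toReal] using this

lemma sum_norm_sq_le (x : lp X 2) (T : Finset ℕ) : ∑ d ∈ T, ‖x d‖ ^ 2 ≤ ‖x‖ ^ 2 :=
  sum_le_hasSum T (fun _ _ => by positivity) (hasSum_norm_sq x)

lemma memℓp_of_sum_le {x : ∀ d, X d} {C : ℝ} (h : ∀ T : Finset ℕ, ∑ d ∈ T, ‖x d‖ ^ 2 ≤ C) :
    Memℓp x 2 := by
  refine memℓp_gen' (C := C) ?_
  intro T
  simpa [two_toReal] using h T

lemma hasSum_inj (x : lp X 2) : HasSum (fun d => inj (X := X) d (x d)) x :=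
  lp.hasSum_single two_ne_top' x

lemma sum_mul_norm_le (a : ℕ → ℝ) (x : lp X 2) (T : Finset ℕ) :
    ∑ d ∈ T, a d * ‖x d‖ ≤ √(∑ d ∈ T, a d ^ 2) * ‖x‖ := by
  have h1 := Real.sum_mul_le_sqrt_mul_sqrt T a (fun d => ‖x d‖)
  refine h1.trans ?_
  gcongr
  rw [Real.sqrt_le_left (norm_nonneg _)]
  exact sum_norm_sq_le x T

lemma norm_apply_le (x : lp X 2) (d : ℕ) : ‖x d‖ ≤ ‖x‖ :=
  lp.norm_apply_le_norm (by norm_num) x d

lemma norm_sum_inj_sq (f : ∀ d, X d) (T : Finset ℕ) :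
    ‖∑ d ∈ T, inj (X := X) d (f d)‖ ^ 2 = ∑ d ∈ T, ‖f d‖ ^ 2 := by
  have := lp.norm_sum_single (E := X) (p := 2) two_pos' f T
  simpa [two_toReal] using this

/-- Near-norming vectors for a real functional. -/
lemma exists_near_norming {Y : Type*} [NormedAddCommGroup Y] [NormedSpace ℝ Y] (φ : Y →L[ℝ] ℝ)
    {r : ℝ} (hr : r < ‖φ‖) : ∃ u : Y, ‖u‖ ≤ 1 ∧ r ≤ φ u := by
  obtain ⟨u, hu, hu'⟩ := φ.exists_lt_apply_of_lt_opNorm hr
  rw [Real.norm_eq_abs] at hu'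
  rcases le_total 0 (φ u) with h | h
  · rw [abs_of_nonneg h] at hu'
    exact ⟨u, hu.le, hu'.le⟩
  · rw [abs_of_nonpos h] at hu'
    refine ⟨-u, by simpa using hu.le, ?_⟩
    simpa using hu'.le

theorem sum_sq_norm_comp_le (ψ : lp X 2 →L[ℝ] ℝ) (T : Finset ℕ) :
    ∑ d ∈ T, ‖ψ.comp (inj (X := X) d)‖ ^ 2 ≤ ‖ψ‖ ^ 2 := by
  by_contra hcon
  push Not at hcon
  set b : ℕ → ℝ := fun d => ‖ψ.comp (inj (X := X) d)‖ with hb
  set S : ℝ := ∑ d ∈ T, b d ^ 2 with hS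
  have hS0 : 0 ≤ S := Finset.sum_nonneg fun _ _ => by positivity
  have hSpos : 0 < S := lt_of_le_of_lt (by positivity) hcon
  have hsq : ‖ψ‖ < √S := Real.lt_sqrt_of_sq_lt hcon
  have hb0 : ∀ d, 0 ≤ b d := fun d => norm_nonneg _
  set B : ℝ := ∑ d ∈ T, b d with hBdef
  have hB : 0 ≤ B := Finset.sum_nonneg fun d _ => hb0 d
  have hsS : √S * √S = S := Real.mul_self_sqrt hS0
  have hpos : 0 < √S := Real.sqrt_pos.2 hSpos
  have hlt : ‖ψ‖ * √S < S := by nlinarith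
  obtain ⟨θ, hθ, hθ'⟩ : ∃ θ : ℝ, 0 < θ ∧ ‖ψ‖ * √S + θ * B < S := by
    have hB1 : 0 < B + 1 := by linarith
    refine ⟨(S - ‖ψ‖ * √S) / (2 * (B + 1)), by apply div_pos <;> linarith, ?_⟩
    have : (S - ‖ψ‖ * √S) / (2 * (B + 1)) * B ≤ (S - ‖ψ‖ * √S) / 2 := by
      rw [div_mul_eq_mul_div, div_le_div_iff₀ (by positivity) (by positivity)]
      nlinarith
    nlinarith
  have hex : ∀ d, ∃ u : X d, ‖u‖ ≤ 1 ∧ b d - θ ≤ ψ (inj (X := X) d u) := by
    intro d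
    exact exists_near_norming (ψ.comp (inj (X := X) d)) (by simp only [hb]; linarith)
  choose u hu hu' using hex
  set w : lp X 2 := ∑ d ∈ T, inj (X := X) d (b d • u d) with hw
  have hw1 : ‖w‖ ^ 2 ≤ S := by
    rw [hw, norm_sum_inj_sq]
    refine Finset.sum_le_sum fun d _ => ?_
    rw [norm_smul, Real.norm_eq_abs, abs_of_nonneg (hb0 d)]
    have h1 : b d * ‖u d‖ ≤ b d := by nlinarith [hb0 d, hu d]
    have h2 : 0 ≤ b d * ‖u d‖ := mul_nonneg (hb0 d) (norm_nonneg _)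
    nlinarith
  have hw2 : ‖w‖ ≤ √S := Real.le_sqrt_of_sq_le hw1
  have hw3 : S - θ * B ≤ ψ w := by
    have h1 : ψ w = ∑ d ∈ T, b d * ψ (inj (X := X) d (u d)) := by
      rw [hw, map_sum]
      refine Finset.sum_congr rfl fun d _ => ?_
      rw [map_smul, map_smul, smul_eq_mul]
    rw [h1, hS, hBdef, Finset.mul_sum, ← Finset.sum_sub_distrib]
    refine Finset.sum_le_sum fun d _ => ?_
    nlinarith [hu' d, hb0 d]
  have hw4 : ψ w ≤ ‖ψ‖ * √S := by
    calc ψ w ≤ |ψ w| := le_abs_self _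
      _ = ‖ψ w‖ := rfl
      _ ≤ ‖ψ‖ * ‖w‖ := ψ.le_opNorm w
      _ ≤ ‖ψ‖ * √S := by gcongr
  linarith

/-- A functional on the `ℓ²`-sum is the (norm-convergent) sum of its coordinate parts. -/
theorem hasSum_dual (ψ : lp X 2 →L[ℝ] ℝ) :
    HasSum (fun d => (ψ.comp (inj (X := X) d)).comp (pr (X := X) d)) ψ := by
  set b : ℕ → ℝ := fun d => ‖ψ.comp (inj (X := X) d)‖ with hb
  have hsum : Summable (fun d => b d ^ 2) :=
    summable_of_sum_le (fun _ => by positivity) (sum_sq_norm_comp_le ψ)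
  rw [HasSum, SummationFilter.unconditional_filter, Metric.tendsto_atTop]
  intro ε hε
  -- tails of the square sum are small
  have hε2 : 0 < (ε / 2) ^ 2 := by positivity
  obtain ⟨T₀, hT₀⟩ := summable_iff_vanishing_norm.1 hsum _ hε2
  refine ⟨T₀, fun T hT => ?_⟩
  rw [dist_eq_norm]
  refine lt_of_le_of_lt (ContinuousLinearMap.opNorm_le_bound _ (by positivity) fun e => ?_)
    (half_lt_self hε)
  -- the estimate on a vector `e`
  have hlim := (hasSum_inj e).mapL ψ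
  -- pass to the limit from finite partial sums
  have hev : ∀ᶠ T' : Finset ℕ in atTop,
      ‖∑ d ∈ T', ψ (inj (X := X) d (e d)) - ∑ d ∈ T, ψ (inj (X := X) d (e d))‖ ≤ ε / 2 * ‖e‖ := by
    filter_upwards [eventually_ge_atTop T] with T' hT'
    rw [← Finset.sum_sdiff hT', add_sub_cancel_right]
    have hdis : Disjoint (T' \ T) T₀ :=
      Finset.disjoint_of_subset_right hT Finset.sdiff_disjoint
    have hsmall := hT₀ (T' \ T) hdis
    have h0 : 0 ≤ ∑ d ∈ T' \ T, b d ^ 2 := Finset.sum_nonneg fun _ _ => by positivity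
    rw [Real.norm_of_nonneg h0] at hsmall
    have hs : √(∑ d ∈ T' \ T, b d ^ 2) ≤ ε / 2 := by
      rw [Real.sqrt_le_left (by positivity)]
      exact hsmall.le
    calc ‖∑ d ∈ T' \ T, ψ (inj (X := X) d (e d))‖
        ≤ ∑ d ∈ T' \ T, ‖ψ (inj (X := X) d (e d))‖ := norm_sum_le _ _
      _ ≤ ∑ d ∈ T' \ T, b d * ‖e d‖ := by
          refine Finset.sum_le_sum fun d _ => ?_
          exact (ψ.comp (inj (X := X) d)).le_opNorm (e d)
      _ ≤ √(∑ d ∈ T' \ T, b d ^ 2) * ‖e‖ := sum_mul_norm_le b e _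
      _ ≤ ε / 2 * ‖e‖ := by gcongr
  have hlim2 : Tendsto (fun T' : Finset ℕ =>
      ‖∑ d ∈ T', ψ (inj (X := X) d (e d)) - ∑ d ∈ T, ψ (inj (X := X) d (e d))‖) atTop
      (𝓝 ‖ψ e - ∑ d ∈ T, ψ (inj (X := X) d (e d))‖) := (hlim.sub_const _).norm
  have hfin := le_of_tendsto hlim2 hev
  have hval : (∑ d ∈ T, (ψ.comp (inj (X := X) d)).comp (pr (X := X) d) - ψ) e =
      -(ψ e - ∑ d ∈ T, ψ (inj (X := X) d (e d))) := by
    simp [pr_apply]
  rw [hval, norm_neg]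
  exact hfin

/-- Reflexivity of `ℓ²`-sums. -/
theorem reflexive_lp2
    (hR : ∀ d, Function.Surjective (NormedSpace.inclusionInDoubleDual ℝ (X d))) :
    Function.Surjective (NormedSpace.inclusionInDoubleDual ℝ (lp X 2)) := by
  intro Φ
  -- coordinates
  have hcoord : ∀ d, ∃ x : X d, ∀ ψ : X d →L[ℝ] ℝ, ψ x = Φ (ψ.comp (pr (X := X) d)) := by
    intro d
    let Φd : (X d →L[ℝ] ℝ) →L[ℝ] ℝ :=
      Φ.comp ((ContinuousLinearMap.compL ℝ (lp X 2) (X d) ℝ).flip (pr (X := X) d))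
    obtain ⟨x, hx⟩ := hR d Φd
    refine ⟨x, fun ψ => ?_⟩
    have := congrArg (fun G => G ψ) hx
    exact this
  choose x hx using hcoord
  -- the coordinates are square summable
  have hbd : ∀ T : Finset ℕ, ∑ d ∈ T, ‖x d‖ ^ 2 ≤ ‖Φ‖ ^ 2 := by
    intro T
    have hg : ∀ d, ∃ g : X d →L[ℝ] ℝ, ‖g‖ ≤ 1 ∧ g (x d) = ‖x d‖ := fun d => by
      obtain ⟨g, h1, h2⟩ := exists_dual_vector'' ℝ (x d)
      exact ⟨g, h1, by simpa using h2⟩
    choose g hg1 hg2 using hg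
    set S : ℝ := ∑ d ∈ T, ‖x d‖ ^ 2 with hS
    have hS0 : 0 ≤ S := Finset.sum_nonneg fun _ _ => by positivity
    set Ψ : lp X 2 →L[ℝ] ℝ := ∑ d ∈ T, ‖x d‖ • (g d).comp (pr (X := X) d) with hΨ
    have hΨval : Φ Ψ = S := by
      rw [hΨ, map_sum, hS]
      refine Finset.sum_congr rfl fun d _ => ?_
      rw [map_smul, ← hx, hg2, smul_eq_mul]
      ring
    have hΨnorm : ‖Ψ‖ ≤ √S := by
      refine ContinuousLinearMap.opNorm_le_bound _ (Real.sqrt_nonneg _) fun e => ?_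
      have hΨe : Ψ e = ∑ d ∈ T, (‖x d‖ • (g d).comp (pr (X := X) d)) e := by
        simp [hΨ]
      rw [hΨe]
      calc ‖∑ d ∈ T, (‖x d‖ • (g d).comp (pr (X := X) d)) e‖
          ≤ ∑ d ∈ T, ‖(‖x d‖ • (g d).comp (pr (X := X) d)) e‖ := norm_sum_le _ _
        _ ≤ ∑ d ∈ T, ‖x d‖ * ‖e d‖ := by
            refine Finset.sum_le_sum fun d _ => ?_
            have h1 : ‖g d (e d)‖ ≤ ‖e d‖ := by
              calc ‖g d (e d)‖ ≤ ‖g d‖ * ‖e d‖ := (g d).le_opNorm _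
                _ ≤ 1 * ‖e d‖ := by gcongr; exact hg1 d
                _ = ‖e d‖ := one_mul _
            have h2 : (‖x d‖ • (g d).comp (pr (X := X) d)) e = ‖x d‖ * g d (e d) := rfl
            rw [h2, norm_mul, norm_norm]
            gcongr
        _ ≤ √S * ‖e‖ := sum_mul_norm_le _ e T
    have h1 : S ≤ ‖Φ‖ * √S := by
      calc S = Φ Ψ := hΨval.symm
        _ ≤ |Φ Ψ| := le_abs_self _
        _ = ‖Φ Ψ‖ := rfl
        _ ≤ ‖Φ‖ * ‖Ψ‖ := Φ.le_opNorm _
        _ ≤ ‖Φ‖ * √S := by gcongr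
    have hsS : √S * √S = S := Real.mul_self_sqrt hS0
    have h2 : √S ≤ ‖Φ‖ := by
      by_contra hlt
      push Not at hlt
      have h3 : 0 < √S := lt_of_le_of_lt Φ.opNorm_nonneg hlt
      nlinarith
    calc S = √S * √S := hsS.symm
      _ ≤ ‖Φ‖ * ‖Φ‖ := by gcongr
      _ = ‖Φ‖ ^ 2 := by ring
  let X0 : lp X 2 := ⟨x, memℓp_of_sum_le hbd⟩
  refine ⟨X0, ?_⟩
  ext ψ
  -- both sides are computed from the coordinate expansions
  have h1 := (hasSum_dual ψ).mapL Φ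
  have h2 := (hasSum_inj X0).mapL ψ
  have h3 : (fun d => Φ ((ψ.comp (inj (X := X) d)).comp (pr (X := X) d))) =
      fun d => ψ (inj (X := X) d (X0 d)) := by
    funext d
    rw [← hx]
    rfl
  rw [h3] at h1
  exact (h2.unique h1)

/-- Separability of `ℓ²`-sums. -/
theorem separable_lp2 (hS : ∀ d, TopologicalSpace.SeparableSpace (X d)) :
    TopologicalSpace.SeparableSpace (lp X 2) := by
  let C : Set (lp X 2) := ⋃ d, Set.range (inj (X := X) d)
  have hC : TopologicalSpace.IsSeparable C :=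
    TopologicalSpace.IsSeparable.iUnion fun d => by
      have := hS d
      exact TopologicalSpace.isSeparable_range (inj (X := X) d).continuous
  have hspan : TopologicalSpace.IsSeparable ((Submodule.span ℝ C : Submodule ℝ (lp X 2)) : Set (lp X 2)) :=
    hC.span
  have hclosure := hspan.closure
  rw [← TopologicalSpace.isSeparable_univ_iff]
  refine hclosure.mono fun x _ => ?_
  have hx := hasSum_inj x
  refine mem_closure_of_tendsto hx (Eventually.of_forall fun T => ?_)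
  refine Submodule.sum_mem _ fun d _ => Submodule.subset_span ?_
  exact Set.mem_iUnion.2 ⟨d, _, rfl⟩

lemma coord_sum_inj (f : ∀ d, X d) (T : Finset ℕ) (d : ℕ) :
    (∑ j ∈ T, inj (X := X) j (f j)) d = if d ∈ T then f d else 0 := by
  rw [lp.coeFn_sum, Finset.sum_apply]
  by_cases hd : d ∈ T
  · rw [if_pos hd, Finset.sum_eq_single_of_mem d hd]
    · exact inj_apply_self d (f d)
    · intro j _ hj
      exact inj_apply_ne (f j) (Ne.symm hj)
  · rw [if_neg hd]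
    refine Finset.sum_eq_zero fun j hj => ?_
    refine inj_apply_ne (f j) ?_
    rintro rfl
    exact hd hj

/-- Real square-summable vectors with prescribed coordinates. -/
lemma exists_lp_real (P : ℕ → ℝ) {s : ℝ} (h : HasSum (fun d => P d ^ 2) s) :
    ∃ Q : lp (fun _ : ℕ => ℝ) 2, (∀ d, Q d = P d) ∧ ‖Q‖ ^ 2 = s := by
  have hm : Memℓp P 2 := by
    refine memℓp_gen ?_
    have : (fun i => ‖P i‖ ^ ((2 : ℝ≥0∞)).toReal) = fun i => P i ^ 2 := by
      funext i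
      simp
    rw [this]
    exact h.summable
  refine ⟨⟨P, hm⟩, fun _ => rfl, ?_⟩
  exact (hasSum_norm_sq (X := fun _ : ℕ => ℝ) ⟨P, hm⟩).unique (by simpa using h)

/-- The "two-centre" property. -/
def TC (Y : Type*) [NormedAddCommGroup Y] [NormedSpace ℝ Y] : Prop :=
  ∀ (x a : Y) (η : ℝ), 0 < η → ∃ F : Set Y, Cof F ∧ ∀ y ∈ F,
    2 * √(‖x‖ ^ 2 + ‖y‖ ^ 2 / 4) - η ≤ ‖x + a + y‖ + ‖x - a - y‖

/-- The two-centre property passes to `ℓ²`-sums. -/
theorem TC_lp2 (hTC : ∀ d, TC (X d)) : TC (lp X 2) := by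
  intro x a η hη
  set ζ : ℝ := η / 16 with hζ
  have hζpos : 0 < ζ := by positivity
  have hx := hasSum_inj x
  have ha := hasSum_inj a
  rw [HasSum, SummationFilter.unconditional_filter] at hx ha
  obtain ⟨T, hTx, hTa⟩ := ((Metric.tendsto_nhds.1 hx ζ hζpos).and
    (Metric.tendsto_nhds.1 ha ζ hζpos)).exists
  set x' : lp X 2 := ∑ j ∈ T, inj (X := X) j (x j) with hx'
  set a' : lp X 2 := ∑ j ∈ T, inj (X := X) j (a j) with ha'
  rw [dist_eq_norm] at hTx hTa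
  have hxc : ∀ d, x' d = if d ∈ T then x d else 0 := fun d => coord_sum_inj (fun j => x j) T d
  have hac : ∀ d, a' d = if d ∈ T then a d else 0 := fun d => coord_sum_inj (fun j => a j) T d
  set η₁ : ℝ := η / (8 * ((T.card : ℝ) + 1)) with hη₁
  have hcard : (0 : ℝ) < (T.card : ℝ) + 1 := by positivity
  have hη₁pos : 0 < η₁ := by positivity
  choose F hF hF' using fun d => hTC d (x d) (a d) η₁ hη₁pos
  refine ⟨⋂ d ∈ T, (pr (X := X) d) ⁻¹' (F d),
    Cof.biInter T fun d _ => (hF d).preimage (pr (X := X) d), fun y hy => ?_⟩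
  have hy' : ∀ d ∈ T, y d ∈ F d := fun d hd => by
    have := Set.mem_iInter₂.1 hy d hd
    exact this
  -- the square-function vectors
  set A : lp X 2 := x' + a' + y with hA
  set B : lp X 2 := x' - a' - y with hB
  have hP : HasSum (fun d => (√(‖x' d‖ ^ 2 + ‖y d‖ ^ 2 / 4)) ^ 2) (‖x'‖ ^ 2 + ‖y‖ ^ 2 / 4) := by
    have := (hasSum_norm_sq x').add ((hasSum_norm_sq y).div_const 4)
    convert this using 2 with d
    exact Real.sq_sqrt (by positivity)
  obtain ⟨Q, hQ, hQn⟩ := exists_lp_real _ hP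
  have hNs : HasSum (fun d => (if d ∈ T then η₁ else 0) ^ 2) (∑ d ∈ T, (if d ∈ T then η₁ else 0) ^ 2) :=
    hasSum_sum_of_ne_finset_zero (fun d hd => by simp [hd])
  obtain ⟨N, hN, hNn⟩ := exists_lp_real _ hNs
  have hNbound : ‖N‖ ≤ η / 8 := by
    have h1 : ‖N‖ ^ 2 ≤ (η / 8) ^ 2 := by
      rw [hNn]
      have h2 : ∑ d ∈ T, (if d ∈ T then η₁ else 0) ^ 2 = (T.card : ℝ) * η₁ ^ 2 := by
        rw [Finset.sum_congr rfl (fun d hd => by rw [if_pos hd]), Finset.sum_const, nsmul_eq_mul]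
      rw [h2]
      have h3 : η / 8 = ((T.card : ℝ) + 1) * η₁ := by
        rw [hη₁]
        field_simp
      rw [h3]
      have h4 : (0 : ℝ) ≤ (T.card : ℝ) := by positivity
      nlinarith [sq_nonneg η₁, mul_nonneg h4 (sq_nonneg η₁), mul_nonneg (mul_nonneg h4 h4) (sq_nonneg η₁)]
    exact abs_le_of_sq_le_sq' h1 (by positivity) |>.2
  -- coordinatewise estimate
  have hcoord : ∀ d, 2 * Q d ≤ ‖A d‖ + ‖B d‖ + N d := by
    intro d
    rw [hQ, hN]
    by_cases hd : d ∈ T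
    · have h1 := hF' d (y d) (hy' d hd)
      have hAd : A d = x d + a d + y d := by
        simp only [hA, lp.coeFn_add, Pi.add_apply, hxc, hac, if_pos hd]
      have hBd : B d = x d - a d - y d := by
        simp only [hB, lp.coeFn_sub, Pi.sub_apply, hxc, hac, if_pos hd]
      rw [hAd, hBd, if_pos hd, hxc, if_pos hd]
      linarith
    · have hAd : A d = y d := by
        simp only [hA, lp.coeFn_add, Pi.add_apply, hxc, hac, if_neg hd, zero_add]
      have hBd : B d = - y d := by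
        simp only [hB, lp.coeFn_sub, Pi.sub_apply, hxc, hac, if_neg hd, sub_zero, zero_sub]
      rw [hAd, hBd, if_neg hd, hxc, if_neg hd, norm_neg]
      have h1 : √(‖(0 : X d)‖ ^ 2 + ‖y d‖ ^ 2 / 4) = ‖y d‖ / 2 := by
        rw [norm_zero, show (0 : ℝ) ^ 2 + ‖y d‖ ^ 2 / 4 = (‖y d‖ / 2) ^ 2 by ring]
        exact Real.sqrt_sq (by positivity)
      rw [h1]
      have := norm_nonneg (y d)
      linarith
  have hQ0 : ∀ d, 0 ≤ Q d := fun d => by rw [hQ]; exact Real.sqrt_nonneg _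
  have hN0 : ∀ d, 0 ≤ N d := fun d => by
    rw [hN]
    by_cases hd : d ∈ T
    · rw [if_pos hd]; exact hη₁pos.le
    · rw [if_neg hd]
  have hmono : ‖(2 : ℝ) • Q‖ ≤ ‖lp.toNorm A + lp.toNorm B + N‖ := by
    refine lp.norm_mono (by norm_num) fun d => ?_
    have e1 : ((2 : ℝ) • Q) d = 2 * Q d := rfl
    have e2 : (lp.toNorm A + lp.toNorm B + N) d = ‖A d‖ + ‖B d‖ + N d := rfl
    rw [e1, e2, Real.norm_of_nonneg (by have := hQ0 d; positivity), Real.norm_of_nonneg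
      (by have := hN0 d; positivity)]
    exact hcoord d
  have hmain : 2 * ‖Q‖ ≤ ‖A‖ + ‖B‖ + η / 8 := by
    calc 2 * ‖Q‖ = ‖(2 : ℝ) • Q‖ := by
          rw [lp.norm_const_smul (by norm_num)]; simp
      _ ≤ ‖lp.toNorm A + lp.toNorm B + N‖ := hmono
      _ ≤ ‖lp.toNorm A‖ + ‖lp.toNorm B‖ + ‖N‖ := norm_add₃_le
      _ = ‖A‖ + ‖B‖ + ‖N‖ := by rw [lp.norm_toNorm, lp.norm_toNorm]
      _ ≤ ‖A‖ + ‖B‖ + η / 8 := by gcongr
  have hQval : ‖Q‖ = √(‖x'‖ ^ 2 + ‖y‖ ^ 2 / 4) := by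
    rw [← hQn]
    exact (Real.sqrt_sq (norm_nonneg _)).symm
  -- removing the truncation
  have hxx : ‖x - x'‖ < ζ := by rw [norm_sub_rev]; exact hTx
  have haa : ‖a - a'‖ < ζ := by rw [norm_sub_rev]; exact hTa
  have hs1 : √(‖x‖ ^ 2 + ‖y‖ ^ 2 / 4) ≤ √(‖x'‖ ^ 2 + ‖y‖ ^ 2 / 4) + ζ := by
    have := Crest.Agent.Lib.L2Sum.sqrt_sq_add_le' ‖x‖ (‖y‖ / 2) ‖x'‖ (‖y‖ / 2)
    have e1 : (‖y‖ / 2) ^ 2 = ‖y‖ ^ 2 / 4 := by ring
    rw [e1] at this
    have h2 : |‖x‖ - ‖x'‖| ≤ ‖x - x'‖ := abs_norm_sub_norm_le _ _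
    simp only [sub_self, abs_zero, add_zero] at this
    linarith
  have hA1 : ‖A‖ ≤ ‖x + a + y‖ + 2 * ζ := by
    have e : A = (x + a + y) - (x - x') - (a - a') := by
      rw [hA]; abel
    rw [e]
    calc ‖x + a + y - (x - x') - (a - a')‖ ≤ ‖x + a + y‖ + ‖x - x'‖ + ‖a - a'‖ := by
          linarith [norm_sub_le (x + a + y - (x - x')) (a - a'), norm_sub_le (x + a + y) (x - x')]
      _ ≤ ‖x + a + y‖ + 2 * ζ := by linarith
  have hB1 : ‖B‖ ≤ ‖x - a - y‖ + 2 * ζ := by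
    have e : B = (x - a - y) - (x - x') + (a - a') := by
      rw [hB]; abel
    rw [e]
    calc ‖x - a - y - (x - x') + (a - a')‖ ≤ ‖x - a - y‖ + ‖x - x'‖ + ‖a - a'‖ := by
          linarith [norm_add_le (x - a - y - (x - x')) (a - a'), norm_sub_le (x - a - y) (x - x')]
      _ ≤ ‖x - a - y‖ + 2 * ζ := by linarith
  rw [hQval] at hmain
  have hζ' : 16 * ζ = η := by rw [hζ]; field_simp
  linarith

end Lp

section Cluster

variable {Y : Type*} [NormedAddCommGroup Y] [NormedSpace ℝ Y]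

/-- Weak cluster points of bounded sequences in reflexive spaces (along the hyperfilter). -/
theorem exists_weak_cluster
    (hR : Function.Surjective (NormedSpace.inclusionInDoubleDual ℝ Y)) (u : ℕ → Y) {R : ℝ}
    (hu : ∀ i, ‖u i‖ ≤ R) :
    ∃ a : Y, ∀ ψ : Y →L[ℝ] ℝ, Tendsto (fun i => ψ (u i - a)) (hyperfilter ℕ : Filter ℕ) (𝓝 0) := by
  have hR0 : 0 ≤ R := (norm_nonneg _).trans (hu 0)
  have hlim : ∀ ψ : Y →L[ℝ] ℝ, ∃ l : ℝ, |l| ≤ ‖ψ‖ * R ∧
      Tendsto (fun i => ψ (u i)) (hyperfilter ℕ : Filter ℕ) (𝓝 l) := by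
    intro ψ
    have hmem : ∀ i, ψ (u i) ∈ Set.Icc (-(‖ψ‖ * R)) (‖ψ‖ * R) := by
      intro i
      have h1 : |ψ (u i)| ≤ ‖ψ‖ * R := by
        calc |ψ (u i)| = ‖ψ (u i)‖ := rfl
          _ ≤ ‖ψ‖ * ‖u i‖ := ψ.le_opNorm _
          _ ≤ ‖ψ‖ * R := by gcongr; exact hu i
      exact abs_le.1 h1
    obtain ⟨l, hl, hl'⟩ := isCompact_Icc.ultrafilter_le_nhds
      ((hyperfilter ℕ).map fun i => ψ (u i)) (by
        simp only [Ultrafilter.coe_map, le_principal_iff, mem_map]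
        exact Eventually.of_forall hmem)
    exact ⟨l, abs_le.2 hl, hl'⟩
  choose L hL hL' using hlim
  have hadd : ∀ ψ₁ ψ₂, L (ψ₁ + ψ₂) = L ψ₁ + L ψ₂ := fun ψ₁ ψ₂ =>
    tendsto_nhds_unique (hL' _) ((hL' ψ₁).add (hL' ψ₂))
  have hsmul : ∀ (c : ℝ) ψ, L (c • ψ) = c * L ψ := fun c ψ =>
    tendsto_nhds_unique (hL' _) ((hL' ψ).const_mul c)
  let LL : (Y →L[ℝ] ℝ) →ₗ[ℝ] ℝ :=
    { toFun := L, map_add' := hadd, map_smul' := hsmul }
  let LC : (Y →L[ℝ] ℝ) →L[ℝ] ℝ := LL.mkContinuous R (fun ψ => by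
    have := hL ψ
    simp only [Real.norm_eq_abs]
    show |L ψ| ≤ R * ‖ψ‖
    linarith [mul_comm R ‖ψ‖])
  obtain ⟨a, ha⟩ := hR LC
  refine ⟨a, fun ψ => ?_⟩
  have h1 : ψ a = L ψ := by
    have := congrArg (fun G => G ψ) ha
    exact this
  have h2 := (hL' ψ).sub_const (L ψ)
  simp only [sub_self] at h2
  refine h2.congr fun i => ?_
  rw [map_sub, h1]

end Cluster

end Crest.Agent.Lib.L2Sum
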