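import Crest.Prelude.Def_TreePotentials
import Crest.Agent.Lib.AsympBasic

/-!
Analysis of the bounded tree potential norms: combination of tests and the two-centre
inequality (helper library for S0166 and S0168).
-/

set_option autoImplicit false
set_option linter.unusedSectionVars false

open Filter Topology
open Crest.AnalysisR.TreePotential
open Crest.Agent.Lib.AsympBasic

namespace Crest.Agent.Lib.TreeCore

/-- the ambient space of bounded functions on the tests -/
abbrev Amb (m : PotentialModel) : Type := lp (fun _ : PotentialTest m => ℝ) ⊤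

variable {m : PotentialModel}

/-- evaluation at a test -/
noncomputable def ev (f : PotentialTest m) : Amb m →L[ℝ] ℝ :=
  lp.evalCLM ℝ (fun _ : PotentialTest m => ℝ) ⊤ f

lemma ev_apply (f : PotentialTest m) (x : Amb m) : ev f x = x f := rfl

lemma abs_apply_le (x : Amb m) (f : PotentialTest m) : |x f| ≤ ‖x‖ := by
  simpa using lp.norm_apply_le_norm (by simp) x f

lemma norm_le_of_forall {x : Amb m} {C : ℝ} (hC : 0 ≤ C) (h : ∀ f : PotentialTest m, |x f| ≤ C) :
    ‖x‖ ≤ C :=
  lp.norm_le_of_forall_le hC (by simpa using h)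

lemma add_apply' (x y : Amb m) (f : PotentialTest m) : (x + y) f = x f + y f := rfl

lemma sub_apply' (x y : Amb m) (f : PotentialTest m) : (x - y) f = x f - y f := rfl

lemma smul_apply' (a : ℝ) (x : Amb m) (f : PotentialTest m) : (a • x) f = a * x f := rfl

lemma neg_apply' (x : Amb m) (f : PotentialTest m) : (-x) f = - x f := rfl

/-- Kronecker delta -/
def delta (s u : List ℕ) : ℝ := if u = s then 1 else 0

lemma pot_delta (s u : List ℕ) : pathPotential (delta s) u = if s <:+ u then 1 else 0 := by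
  induction u with
  | nil =>
    simp only [pathPotential, delta]
    by_cases h : s = []
    · subst h; simp
    · have h' : ¬ s <:+ [] := by
        intro h2; exact h (List.eq_nil_of_suffix_nil h2)
      rw [if_neg h', if_neg (fun h3 => h h3.symm)]
  | cons n v ih =>
    simp only [pathPotential, delta, ih]
    by_cases h : n :: v = s
    · subst h
      have h' : ¬ (n :: v) <:+ v := by
        intro h2
        have := h2.length_le
        simp at this
      simp [h']
    · have h2 : (s <:+ n :: v) ↔ s <:+ v := by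
        rw [List.suffix_cons_iff]
        constructor
        · rintro (h3 | h3)
          · exact absurd h3.symm h
          · exact h3
        · exact Or.inr
      simp only [h2, if_neg h, add_zero]

lemma sum_delta_sq_le {ι : Type*} (B : Finset ι) {k : ι → List ℕ} (hk : Function.Injective k)
    (s : List ℕ) : ∑ n ∈ B, delta s (k n) ^ 2 ≤ 1 := by
  classical
  by_cases h : ∃ n₀ ∈ B, k n₀ = s
  · obtain ⟨n₀, hn₀, rfl⟩ := h
    rw [Finset.sum_eq_single n₀]
    · simp [delta]
    · intro b _ hb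
      have : k b ≠ k n₀ := fun h2 => hb (hk h2)
      simp [delta, this]
    · intro h2; exact absurd hn₀ h2
  · push Not at h
    rw [Finset.sum_eq_zero]
    · norm_num
    · intro n hn
      simp [delta, h n hn]

lemma isTest_delta_of_ne (m : PotentialModel) {s : List ℕ} (hs : s ≠ []) : IsTest m (delta s) := by
  have hpot : ∀ u, |pathPotential (delta s) u| ≤ 1 := by
    intro u
    rw [pot_delta]
    split_ifs <;> simp
  have hsib : ∀ (r : List ℕ) (A : Finset ℕ), ∑ n ∈ A, delta s (n :: r) ^ 2 ≤ 1 := fun r A =>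
    sum_delta_sq_le A (k := fun n => n :: r) (fun a b h => (List.cons.inj h).1) s
  have hall : ∀ A : Finset (List ℕ), ∑ u ∈ A, delta s u ^ 2 ≤ 1 := fun A =>
    sum_delta_sq_le A (k := id) Function.injective_id s
  refine ⟨hpot, ?_⟩
  cases m with
  | rootlessSibling =>
    refine ⟨?_, hsib⟩
    simp [delta, hs.symm]
  | rootedSibling => exact hsib
  | antichain =>
    refine ⟨?_, fun A _ => hall A⟩
    refine (Set.finite_singleton s).subset ?_
    intro u hu
    by_contra h
    exact hu (by simp [delta, show u ≠ s from h])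
  | global => exact hall

lemma isTest_delta_nil {m : PotentialModel} (hm : m ≠ .rootlessSibling) : IsTest m (delta []) := by
  have hpot : ∀ u, |pathPotential (delta []) u| ≤ 1 := by
    intro u
    rw [pot_delta]
    split_ifs <;> simp
  have hsib : ∀ (r : List ℕ) (A : Finset ℕ), ∑ n ∈ A, delta [] (n :: r) ^ 2 ≤ 1 := fun r A =>
    sum_delta_sq_le A (k := fun n => n :: r) (fun a b h => (List.cons.inj h).1) []
  have hall : ∀ A : Finset (List ℕ), ∑ u ∈ A, delta [] u ^ 2 ≤ 1 := fun A =>
    sum_delta_sq_le A (k := id) Function.injective_id []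
  refine ⟨hpot, ?_⟩
  cases m with
  | rootlessSibling => exact absurd rfl hm
  | rootedSibling => exact hsib
  | antichain =>
    refine ⟨?_, fun A _ => hall A⟩
    refine (Set.finite_singleton ([] : List ℕ)).subset ?_
    intro u hu
    by_contra h
    exact hu (by simp [delta, show u ≠ [] from h])
  | global => exact hall

lemma test_dichotomy (m : PotentialModel) (s : List ℕ) :
    IsTest m (delta s) ∨ ∀ f : PotentialTest m, f.1 s = 0 := by
  by_cases hs : s = []
  · subst hs
    by_cases hm : m = .rootlessSibling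
    · subst hm
      right
      intro f
      exact f.2.2.1
    · left
      exact isTest_delta_nil hm
  · left
    exact isTest_delta_of_ne m hs

instance (m : PotentialModel) : Nonempty (PotentialTest m) :=
  ⟨⟨delta [0], isTest_delta_of_ne m (by simp)⟩⟩

lemma pathPotential_neg (f : List ℕ → ℝ) (s : List ℕ) :
    pathPotential (fun u => -f u) s = -pathPotential f s := by
  induction s with
  | nil => rfl
  | cons n v ih =>
    simp only [pathPotential, ih]
    ring

lemma IsTest.neg {f : List ℕ → ℝ} (hf : IsTest m f) : IsTest m (fun u => -f u) := by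
  refine ⟨fun s => ?_, ?_⟩
  · rw [pathPotential_neg, abs_neg]
    exact hf.1 s
  · have hf2 := hf.2
    cases m with
    | rootlessSibling =>
      refine ⟨by simp [hf2.1], fun r A => ?_⟩
      simpa using hf2.2 r A
    | rootedSibling =>
      intro r A
      simpa using hf2 r A
    | antichain =>
      refine ⟨?_, fun A hA => ?_⟩
      · simpa [Function.support] using hf2.1
      · simpa using hf2.2 A hA
    | global =>
      intro A
      simpa using hf2 A

lemma IsTest.sibling {f : List ℕ → ℝ} (hf : IsTest m f) (r : List ℕ) (B : Finset ℕ) :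
    ∑ n ∈ B, f (n :: r) ^ 2 ≤ 1 := by
  classical
  have hf2 := hf.2
  have hinj : Set.InjOn (fun n : ℕ => n :: r) B := fun a _ b _ h => (List.cons.inj h).1
  cases m with
  | rootlessSibling => exact hf2.2 r B
  | rootedSibling => exact hf2 r B
  | antichain =>
    have := hf2.2 (B.image fun n => n :: r) (by
      intro u hu v hv huv hsuf
      rw [Finset.mem_image] at hu hv
      obtain ⟨a, _, rfl⟩ := hu
      obtain ⟨b, _, rfl⟩ := hv
      exact huv (hsuf.eq_of_length (by simp)))
    rwa [Finset.sum_image hinj] at this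
  | global =>
    have := hf2 (B.image fun n => n :: r)
    rwa [Finset.sum_image hinj] at this

/-! ### Combining two tests -/

/-- `A` contains the root and is closed under taking parents. -/
def AncClosed (A : Finset (List ℕ)) : Prop := [] ∈ A ∧ ∀ (n : ℕ) (v : List ℕ), n :: v ∈ A → v ∈ A

section Combine

variable (f g : List ℕ → ℝ) (A : Finset (List ℕ)) (α β : ℝ)

/-- potential of `f` at the nearest vertex of `A` -/
noncomputable def pA : List ℕ → ℝ
  | [] => pathPotential f []
  | n :: v => if n :: v ∈ A then pathPotential f (n :: v) else pA v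

/-- potential of `g` relative to the nearest vertex of `A` -/
noncomputable def rho : List ℕ → ℝ
  | [] => 0
  | n :: v => if n :: v ∈ A then 0 else rho v + g (n :: v)

/-- two-sided linear function -/
noncomputable def phi (c d r : ℝ) : ℝ := c * max r 0 - d * max (-r) 0

/-- first coefficient -/
noncomputable def c1 (p : ℝ) : ℝ := min β ((1 - p) / 2)

/-- second coefficient -/
noncomputable def c2 (p : ℝ) : ℝ := β - c1 β p

/-- potential of the test for the sum -/
noncomputable def PiP (s : List ℕ) : ℝ :=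
  α * pA f A s + phi (c1 β (α * pA f A s)) (c2 β (α * pA f A s)) (rho g A s)

/-- potential of the test for the difference -/
noncomputable def PiM (s : List ℕ) : ℝ :=
  α * pA f A s - phi (c2 β (α * pA f A s)) (c1 β (α * pA f A s)) (rho g A s)

/-- the family with given potential -/
noncomputable def mk (P : List ℕ → ℝ) : List ℕ → ℝ
  | [] => P []
  | n :: v => P (n :: v) - P v

lemma pathPotential_mk (P : List ℕ → ℝ) (s : List ℕ) : pathPotential (mk P) s = P s := by
  induction s with
  | nil => rfl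
  | cons n v ih =>
    simp only [pathPotential, ih, mk]
    ring

lemma pA_of_mem (hA : AncClosed A) {s : List ℕ} (hs : s ∈ A) : pA f A s = pathPotential f s := by
  cases s with
  | nil => rfl
  | cons n v => simp only [pA, if_pos hs]

lemma pA_cons_not {n : ℕ} {v : List ℕ} (h : n :: v ∉ A) : pA f A (n :: v) = pA f A v := by
  simp only [pA, if_neg h]

lemma pA_abs (hf : ∀ s, |pathPotential f s| ≤ 1) (s : List ℕ) : |pA f A s| ≤ 1 := by
  induction s with
  | nil => exact hf _
  | cons n v ih =>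
    simp only [pA]
    split_ifs
    · exact hf _
    · exact ih

lemma rho_of_mem {s : List ℕ} (hA : AncClosed A) (hs : s ∈ A) : rho g A s = 0 := by
  cases s with
  | nil => rfl
  | cons n v => simp only [rho, if_pos hs]

lemma rho_cons_not {n : ℕ} {v : List ℕ} (h : n :: v ∉ A) :
    rho g A (n :: v) = rho g A v + g (n :: v) := by
  simp only [rho, if_neg h]

lemma rho_eq (s : List ℕ) : ∃ u, rho g A s = pathPotential g s - pathPotential g u := by
  induction s with
  | nil => exact ⟨[], by simp [rho]⟩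
  | cons n v ih =>
    by_cases h : n :: v ∈ A
    · exact ⟨n :: v, by simp [rho, h]⟩
    · obtain ⟨u, hu⟩ := ih
      refine ⟨u, ?_⟩
      rw [rho_cons_not _ _ h, hu]
      simp only [pathPotential]
      ring

lemma rho_abs (hg : ∀ s, |pathPotential g s| ≤ 1) (s : List ℕ) : |rho g A s| ≤ 2 := by
  obtain ⟨u, hu⟩ := rho_eq g A s
  rw [hu]
  have h1 := hg s
  have h2 := hg u
  rw [abs_le] at h1 h2 ⊢
  constructor <;> linarith [h1.1, h1.2, h2.1, h2.2]

lemma phi_zero (c d : ℝ) : phi c d 0 = 0 := by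
  simp [phi]

lemma phi_add (c d r : ℝ) : phi c d r + phi d c r = (c + d) * r := by
  unfold phi
  rcases le_total 0 r with h | h
  · rw [max_eq_left h, max_eq_right (by linarith)]
    ring
  · rw [max_eq_right h, max_eq_left (by linarith)]
    ring

lemma phi_range {c d r : ℝ} (hc : 0 ≤ c) (hd : 0 ≤ d) (hr : |r| ≤ 2) :
    -(2 * d) ≤ phi c d r ∧ phi c d r ≤ 2 * c := by
  unfold phi
  rw [abs_le] at hr
  rcases le_total 0 r with h | h
  · rw [max_eq_left h, max_eq_right (by linarith)]
    constructor <;> nlinarith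
  · rw [max_eq_right h, max_eq_left (by linarith)]
    constructor <;> nlinarith

lemma phi_lip {c d : ℝ} {b : ℝ} (hc : 0 ≤ c) (hd : 0 ≤ d) (hcb : c ≤ b) (hdb : d ≤ b) (r r' : ℝ) :
    |phi c d r - phi c d r'| ≤ b * |r - r'| := by
  unfold phi
  have hb : 0 ≤ b := hc.trans hcb
  rcases le_total 0 r with h | h <;> rcases le_total 0 r' with h' | h'
  · rw [max_eq_left h, max_eq_right (by linarith), max_eq_left h', max_eq_right (by linarith)]
    have : c * r - d * 0 - (c * r' - d * 0) = c * (r - r') := by ring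
    rw [this, abs_mul, abs_of_nonneg hc]
    gcongr
  · rw [max_eq_left h, max_eq_right (by linarith), max_eq_right h', max_eq_left (by linarith)]
    have h1 : r - r' ≥ 0 := by linarith
    rw [abs_of_nonneg h1, abs_le]
    constructor <;> nlinarith
  · rw [max_eq_right h, max_eq_left (by linarith), max_eq_left h', max_eq_right (by linarith)]
    have h1 : r - r' ≤ 0 := by linarith
    rw [abs_of_nonpos h1, abs_le]
    constructor <;> nlinarith
  · rw [max_eq_right h, max_eq_left (by linarith), max_eq_right h', max_eq_left (by linarith)]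
    have : c * 0 - d * -r - (c * 0 - d * -r') = d * (r - r') := by ring
    rw [this, abs_mul, abs_of_nonneg hd]
    gcongr

lemma c_props {p : ℝ} (hp : |p| ≤ 1) (hβ : 0 ≤ β) (hβ1 : β ≤ 1) :
    0 ≤ c1 β p ∧ c1 β p ≤ β ∧ 0 ≤ c2 β p ∧ c2 β p ≤ β ∧ 2 * c1 β p ≤ 1 - p ∧ 2 * c2 β p ≤ 1 + p ∧
      c1 β p + c2 β p = β := by
  rw [abs_le] at hp
  have h1 : c1 β p ≤ β := min_le_left _ _
  have h2 : c1 β p ≤ (1 - p) / 2 := min_le_right _ _
  have h0 : 0 ≤ c1 β p := le_min hβ (by linarith [hp.2])
  have hc2 : c2 β p = β - c1 β p := rfl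
  refine ⟨h0, h1, by linarith, by linarith, by linarith, ?_, by linarith⟩
  rcases min_cases β ((1 - p) / 2) with ⟨h3, _⟩ | ⟨h3, _⟩
  · have : c1 β p = β := h3
    rw [hc2, this]
    linarith [hp.1]
  · have : c1 β p = (1 - p) / 2 := h3
    rw [hc2, this]
    linarith

variable (hA : AncClosed A) (hf : ∀ s, |pathPotential f s| ≤ 1) (hg : ∀ s, |pathPotential g s| ≤ 1)
  (hα : 0 ≤ α) (hβ : 0 ≤ β) (hαβ : α ^ 2 + β ^ 2 ≤ 1)

include hf hα hαβ in
lemma p_abs (s : List ℕ) : |α * pA f A s| ≤ 1 := by
  have hα1 : α ≤ 1 := by nlinarith [sq_nonneg β]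
  rw [abs_mul, abs_of_nonneg hα]
  have := pA_abs f A hf s
  have h0 := abs_nonneg (pA f A s)
  nlinarith

include hβ hαβ in
lemma β_le_one : β ≤ 1 := by nlinarith [sq_nonneg α]

include hf hg hα hβ hαβ in
lemma PiP_abs (s : List ℕ) : |PiP f g A α β s| ≤ 1 := by
  have hp := p_abs f A α hf hα (β := β) hαβ s
  have hr := rho_abs g A hg s
  obtain ⟨h0, _, h3, _, h5, h6, _⟩ := c_props β hp hβ (β_le_one α β hβ hαβ)
  have hφ := phi_range h0 h3 hr
  unfold PiP
  rw [abs_le]
  constructor <;> linarith [hφ.1, hφ.2]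

include hf hg hα hβ hαβ in
lemma PiM_abs (s : List ℕ) : |PiM f g A α β s| ≤ 1 := by
  have hp := p_abs f A α hf hα (β := β) hαβ s
  have hr := rho_abs g A hg s
  obtain ⟨h0, _, h3, _, h5, h6, _⟩ := c_props β hp hβ (β_le_one α β hβ hαβ)
  have hφ := phi_range h3 h0 hr
  unfold PiM
  rw [abs_le]
  constructor <;> linarith [hφ.1, hφ.2]

include hA in
lemma PiP_of_mem {s : List ℕ} (hs : s ∈ A) : PiP f g A α β s = α * pathPotential f s := by
  unfold PiP
  rw [rho_of_mem g A hA hs, phi_zero, pA_of_mem f A hA hs, add_zero]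

include hA in
lemma PiM_of_mem {s : List ℕ} (hs : s ∈ A) : PiM f g A α β s = α * pathPotential f s := by
  unfold PiM
  rw [rho_of_mem g A hA hs, phi_zero, pA_of_mem f A hA hs, sub_zero]

include hA in
lemma mk_of_mem {P : List ℕ → ℝ} (hP : ∀ s ∈ A, P s = α * pathPotential f s) {s : List ℕ}
    (hs : s ∈ A) : mk P s = α * f s := by
  cases s with
  | nil =>
    simp only [mk]
    rw [hP _ hs]
    rfl
  | cons n v =>
    simp only [mk]
    rw [hP _ hs, hP _ (hA.2 n v hs)]
    simp only [pathPotential]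
    ring

include hA hf hα hβ hαβ in
lemma mkP_not_mem {s : List ℕ} (hs : s ∉ A) : |mk (PiP f g A α β) s| ≤ β * |g s| := by
  cases s with
  | nil => exact absurd hA.1 hs
  | cons n v =>
    have hp := p_abs f A α hf hα (β := β) hαβ v
    obtain ⟨h0, h1, h3, h4, _, _, _⟩ := c_props β hp hβ (β_le_one α β hβ hαβ)
    simp only [mk, PiP]
    rw [pA_cons_not f A hs, rho_cons_not g A hs]
    have := phi_lip h0 h3 h1 h4 (rho g A v + g (n :: v)) (rho g A v)
    simpa using this

include hA hf hα hβ hαβ in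
lemma mkM_not_mem {s : List ℕ} (hs : s ∉ A) : |mk (PiM f g A α β) s| ≤ β * |g s| := by
  cases s with
  | nil => exact absurd hA.1 hs
  | cons n v =>
    have hp := p_abs f A α hf hα (β := β) hαβ v
    obtain ⟨h0, h1, h3, h4, _, _, _⟩ := c_props β hp hβ (β_le_one α β hβ hαβ)
    simp only [mk, PiM]
    rw [pA_cons_not f A hs, rho_cons_not g A hs]
    have := phi_lip h3 h0 h4 h1 (rho g A v + g (n :: v)) (rho g A v)
    have h2 : α * pA f A v - phi (c2 β (α * pA f A v)) (c1 β (α * pA f A v))
          (rho g A v + g (n :: v)) -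
        (α * pA f A v - phi (c2 β (α * pA f A v)) (c1 β (α * pA f A v)) (rho g A v)) =
        -(phi (c2 β (α * pA f A v)) (c1 β (α * pA f A v)) (rho g A v + g (n :: v)) -
        phi (c2 β (α * pA f A v)) (c1 β (α * pA f A v)) (rho g A v)) := by ring
    rw [h2, abs_neg]
    simpa using this

include hf hα hβ hαβ in
lemma Pi_diff (s : List ℕ) : PiP f g A α β s - PiM f g A α β s = β * rho g A s := by
  have hp := p_abs f A α hf hα (β := β) hαβ s
  obtain ⟨_, _, _, _, _, _, h7⟩ := c_props β hp hβ (β_le_one α β hβ hαβ)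
  unfold PiP PiM
  have := phi_add (c1 β (α * pA f A s)) (c2 β (α * pA f A s)) (rho g A s)
  rw [h7] at this
  linarith

include hA hf hα hβ hαβ in
lemma mk_diff_not_mem {s : List ℕ} (hs : s ∉ A) :
    mk (PiP f g A α β) s - mk (PiM f g A α β) s = β * g s := by
  cases s with
  | nil => exact absurd hA.1 hs
  | cons n v =>
    simp only [mk]
    have h1 := Pi_diff f g A α β hf hα hβ hαβ (n :: v)
    have h2 := Pi_diff f g A α β hf hα hβ hαβ v
    rw [rho_cons_not g A hs] at h1
    linarith

end Combine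

/-- Conditions under which a family is a test. -/
lemma isTest_of {f g h : List ℕ → ℝ} {A : Finset (List ℕ)} {α β : ℝ} (hfT : IsTest m f)
    (hgT : IsTest m g) (hroot : [] ∈ A) (hα : 0 ≤ α) (hβ : 0 ≤ β) (hαβ : α ^ 2 + β ^ 2 ≤ 1)
    (hpot : ∀ s, |pathPotential h s| ≤ 1)
    (hin : ∀ s ∈ A, h s = α * f s) (hout : ∀ s, s ∉ A → |h s| ≤ β * |g s|) : IsTest m h := by
  classical
  -- the basic split
  have hsplit : ∀ {ι : Type} (B : Finset ι) (k : ι → List ℕ),
      ∑ n ∈ B with k n ∈ A, f (k n) ^ 2 ≤ 1 → ∑ n ∈ B with k n ∉ A, g (k n) ^ 2 ≤ 1 →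
      ∑ n ∈ B, h (k n) ^ 2 ≤ 1 := by
    intro ι B k h1 h2
    rw [← Finset.sum_filter_add_sum_filter_not B (fun n => k n ∈ A)]
    have h3 : ∑ n ∈ B with k n ∈ A, h (k n) ^ 2 = α ^ 2 * ∑ n ∈ B with k n ∈ A, f (k n) ^ 2 := by
      rw [Finset.mul_sum]
      refine Finset.sum_congr rfl fun n hn => ?_
      rw [hin _ (Finset.mem_filter.1 hn).2, mul_pow]
    have h4 : ∑ n ∈ B with k n ∉ A, h (k n) ^ 2 ≤ β ^ 2 * ∑ n ∈ B with k n ∉ A, g (k n) ^ 2 := by
      rw [Finset.mul_sum]
      refine Finset.sum_le_sum fun n hn => ?_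
      have h5 := hout _ (Finset.mem_filter.1 hn).2
      have h6 : h (k n) ^ 2 = |h (k n)| ^ 2 := (sq_abs _).symm
      have h7 : g (k n) ^ 2 = |g (k n)| ^ 2 := (sq_abs _).symm
      rw [h6, h7, ← mul_pow]
      gcongr
    rw [h3]
    have h8 : 0 ≤ α ^ 2 := by positivity
    have h9 : 0 ≤ β ^ 2 := by positivity
    nlinarith
  refine ⟨hpot, ?_⟩
  have hfE := hfT.2
  have hgE := hgT.2
  cases m with
  | rootlessSibling =>
    refine ⟨by rw [hin _ hroot, hfE.1, mul_zero], fun r B => ?_⟩
    exact hsplit B (fun n => n :: r) (hfE.2 r _) (hgE.2 r _)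
  | rootedSibling =>
    intro r B
    exact hsplit B (fun n => n :: r) (hfE r _) (hgE r _)
  | antichain =>
    constructor
    · refine (hfE.1.union hgE.1).subset ?_
      intro s hs
      by_cases hsA : s ∈ A
      · left
        intro h0
        apply hs
        rw [hin s hsA, h0, mul_zero]
      · right
        intro h0
        apply hs
        have := hout s hsA
        rw [h0, abs_zero, mul_zero] at this
        exact abs_nonpos_iff.1 this
    · intro U hU
      have hsub : ∀ p : List ℕ → Prop, ∀ [DecidablePred p], IsTreeAntichain (U.filter p) :=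
        fun p _ u hu v hv => hU u (Finset.mem_filter.1 hu).1 v (Finset.mem_filter.1 hv).1
      exact hsplit U id (hfE.2 _ (hsub _)) (hgE.2 _ (hsub _))
  | global =>
    intro U
    exact hsplit U id (hfE _) (hgE _)

/-! ### Finite combinations of coordinates -/

/-- the finite combination of coordinate vectors -/
noncomputable def vec (m : PotentialModel) (c : List ℕ →₀ ℝ) : Amb m :=
  c.sum fun s a => a • coordVector m s

/-- the pairing of a finite array with a coefficient family -/
noncomputable def pair (c : List ℕ →₀ ℝ) (h : List ℕ → ℝ) : ℝ := c.sum fun s a => a * h s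

lemma vec_apply (c : List ℕ →₀ ℝ) (f : PotentialTest m) : vec m c f = pair c f.1 := by
  have : ev f (vec m c) = pair c f.1 := by
    unfold vec pair
    rw [map_finsuppSum]
    refine Finset.sum_congr rfl fun s _ => ?_
    show ev f ((c s) • coordVector m s) = c s * f.1 s
    rw [map_smul]
    rfl
  exact this

lemma pair_neg (c : List ℕ →₀ ℝ) (h : List ℕ → ℝ) : pair c (fun u => -h u) = -pair c h := by
  unfold pair Finsupp.sum
  rw [← Finset.sum_neg_distrib]
  refine Finset.sum_congr rfl fun s _ => ?_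
  show c s * (- h s) = - (c s * h s)
  ring

lemma pair_congr_of_mem {c : List ℕ →₀ ℝ} {A : Finset (List ℕ)} {h f : List ℕ → ℝ} {α : ℝ}
    (hc : ∀ s ∈ c.support, s ∈ A) (hh : ∀ s ∈ A, h s = α * f s) : pair c h = α * pair c f := by
  unfold pair Finsupp.sum
  rw [Finset.mul_sum]
  refine Finset.sum_congr rfl fun s hs => ?_
  show c s * h s = α * (c s * f s)
  rw [hh s (hc s hs)]
  ring

lemma pair_sub_of_not_mem {c : List ℕ →₀ ℝ} {A : Finset (List ℕ)} {h₁ h₂ g : List ℕ → ℝ} {β : ℝ}
    (hc : ∀ s ∈ c.support, s ∉ A) (hh : ∀ s, s ∉ A → h₁ s - h₂ s = β * g s) :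
    pair c h₁ - pair c h₂ = β * pair c g := by
  unfold pair Finsupp.sum
  rw [Finset.mul_sum, ← Finset.sum_sub_distrib]
  refine Finset.sum_congr rfl fun s hs => ?_
  have := hh s (hc s hs)
  show c s * h₁ s - c s * h₂ s = β * (c s * g s)
  calc c s * h₁ s - c s * h₂ s = c s * (h₁ s - h₂ s) := by ring
    _ = c s * (β * g s) := by rw [this]
    _ = β * (c s * g s) := by ring

/-- there are tests almost norming a finite array -/
lemma exists_test_near (c : List ℕ →₀ ℝ) {ε : ℝ} (hε : 0 < ε) :
    ∃ f : PotentialTest m, ‖vec m c‖ - ε < pair c f.1 := by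
  obtain ⟨_, ⟨f, rfl⟩, hf, _⟩ := (lp.isLUB_norm (vec m c)).exists_between
    (by linarith : ‖vec m c‖ - ε < ‖vec m c‖)
  simp only [Real.norm_eq_abs] at hf
  rw [vec_apply] at hf
  rcases lt_abs.1 hf with h | h
  · exact ⟨f, h⟩
  · refine ⟨⟨fun u => -f.1 u, IsTest.neg f.2⟩, ?_⟩
    rw [pair_neg]
    exact h

/-- The two-centre inequality for finite arrays. -/
theorem key_finite (cx ca cy : List ℕ →₀ ℝ) {A : Finset (List ℕ)} (hA : AncClosed A)
    (hx : ∀ s ∈ cx.support, s ∈ A) (ha : ∀ s ∈ ca.support, s ∈ A)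
    (hy : ∀ s ∈ cy.support, s ∉ A) :
    2 * Real.sqrt (‖vec m cx‖ ^ 2 + ‖vec m cy‖ ^ 2 / 4) ≤
      ‖vec m cx + vec m ca + vec m cy‖ + ‖vec m cx - vec m ca - vec m cy‖ := by
  set u := ‖vec m cx‖ with hu
  set v := ‖vec m cy‖ with hv
  set w := Real.sqrt (u ^ 2 + v ^ 2 / 4) with hw
  have hu0 : 0 ≤ u := norm_nonneg _
  have hv0 : 0 ≤ v := norm_nonneg _
  have hw0 : 0 ≤ w := Real.sqrt_nonneg _
  rcases hw0.eq_or_lt with hw00 | hwpos
  · rw [← hw00, mul_zero]
    positivity
  have hwsq : w ^ 2 = u ^ 2 + v ^ 2 / 4 := Real.sq_sqrt (by positivity)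
  set α : ℝ := u / w with hα
  set β : ℝ := (v / 2) / w with hβ
  have hα0 : 0 ≤ α := by positivity
  have hβ0 : 0 ≤ β := by positivity
  have hαβ : α ^ 2 + β ^ 2 ≤ 1 := by
    rw [hα, hβ, div_pow, div_pow, ← add_div, div_le_one (by positivity), hwsq]
    nlinarith
  have hαle : α ≤ 1 := by nlinarith [sq_nonneg β]
  have hβle : β ≤ 1 := by nlinarith [sq_nonneg α]
  have hidentity : 2 * α * u + β * v = 2 * w := by
    rw [hα, hβ]
    field_simp
    nlinarith
  refine le_of_forall_pos_lt_add fun ε hε => ?_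
  set ε₁ := ε / 4 with hε₁
  have hε₁pos : 0 < ε₁ := by positivity
  obtain ⟨f, hf⟩ := exists_test_near (m := m) cx hε₁pos
  obtain ⟨g, hg⟩ := exists_test_near (m := m) cy hε₁pos
  have hpotf := f.2.1
  have hpotg := g.2.1
  -- the two combined tests
  have hP : IsTest m (mk (PiP f.1 g.1 A α β)) := by
    refine isTest_of f.2 g.2 hA.1 hα0 hβ0 hαβ ?_ ?_ ?_
    · intro s
      rw [pathPotential_mk]
      exact PiP_abs _ _ _ _ _ hpotf hpotg hα0 hβ0 hαβ s
    · intro s hs
      exact mk_of_mem f.1 A α hA (fun s hs => PiP_of_mem f.1 g.1 A α β hA hs) hs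
    · intro s hs
      exact mkP_not_mem f.1 g.1 A α β hA hpotf hα0 hβ0 hαβ hs
  have hM : IsTest m (mk (PiM f.1 g.1 A α β)) := by
    refine isTest_of f.2 g.2 hA.1 hα0 hβ0 hαβ ?_ ?_ ?_
    · intro s
      rw [pathPotential_mk]
      exact PiM_abs _ _ _ _ _ hpotf hpotg hα0 hβ0 hαβ s
    · intro s hs
      exact mk_of_mem f.1 A α hA (fun s hs => PiM_of_mem f.1 g.1 A α β hA hs) hs
    · intro s hs
      exact mkM_not_mem f.1 g.1 A α β hA hpotf hα0 hβ0 hαβ hs
  set hp : List ℕ → ℝ := mk (PiP f.1 g.1 A α β) with hhp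
  set hm : List ℕ → ℝ := mk (PiM f.1 g.1 A α β) with hhm
  have hpA : ∀ s ∈ A, hp s = α * f.1 s := fun s hs =>
    mk_of_mem f.1 A α hA (fun s hs => PiP_of_mem f.1 g.1 A α β hA hs) hs
  have hmA : ∀ s ∈ A, hm s = α * f.1 s := fun s hs =>
    mk_of_mem f.1 A α hA (fun s hs => PiM_of_mem f.1 g.1 A α β hA hs) hs
  have hdiff : ∀ s, s ∉ A → hp s - hm s = β * g.1 s := fun s hs =>
    mk_diff_not_mem f.1 g.1 A α β hA hpotf hα0 hβ0 hαβ hs
  -- evaluate
  obtain ⟨tp, htp⟩ : ∃ t : PotentialTest m, t.1 = hp := ⟨⟨hp, hP⟩, rfl⟩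
  obtain ⟨tm, htm⟩ : ∃ t : PotentialTest m, t.1 = hm := ⟨⟨hm, hM⟩, rfl⟩
  have h1 : (vec m cx + vec m ca + vec m cy) tp ≤ ‖vec m cx + vec m ca + vec m cy‖ :=
    (le_abs_self _).trans (abs_apply_le _ _)
  have h2 : (vec m cx - vec m ca - vec m cy) tm ≤ ‖vec m cx - vec m ca - vec m cy‖ :=
    (le_abs_self _).trans (abs_apply_le _ _)
  have h3 : (vec m cx + vec m ca + vec m cy) tp =
      pair cx hp + pair ca hp + pair cy hp := by
    rw [add_apply', add_apply', vec_apply, vec_apply, vec_apply, htp]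
  have h4 : (vec m cx - vec m ca - vec m cy) tm =
      pair cx hm - pair ca hm - pair cy hm := by
    rw [sub_apply', sub_apply', vec_apply, vec_apply, vec_apply, htm]
  rw [h3] at h1
  rw [h4] at h2
  have h5 := pair_congr_of_mem hx hpA
  have h6 := pair_congr_of_mem ha hpA
  have h7 := pair_congr_of_mem hx hmA
  have h8 := pair_congr_of_mem ha hmA
  have h9 := pair_sub_of_not_mem hy hdiff
  have hsum : 2 * α * pair cx f.1 + β * pair cy g.1 ≤
      ‖vec m cx + vec m ca + vec m cy‖ + ‖vec m cx - vec m ca - vec m cy‖ := by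
    rw [h5, h6] at h1
    rw [h7, h8] at h2
    linarith
  have h10 : 2 * α * (u - ε₁) ≤ 2 * α * pair cx f.1 := by
    gcongr
  have h11 : β * (v - ε₁) ≤ β * pair cy g.1 := by
    gcongr
  have h12 : (2 * α + β) * ε₁ ≤ 3 * ε₁ := by
    gcongr
    linarith
  have h13 : 2 * α * (u - ε₁) + β * (v - ε₁) = 2 * w - (2 * α + β) * ε₁ := by
    rw [← hidentity]; ring
  linarith

/-! ### The model space -/

/-- the model space as a type -/
abbrev Mod (m : PotentialModel) : Type := ↥(modelSpace m)

lemma coord_mem (m : PotentialModel) (s : List ℕ) : coordVector m s ∈ modelSpace m :=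
  Submodule.le_topologicalClosure _ (Submodule.subset_span ⟨s, rfl⟩)

/-- coordinate vectors in the model space -/
noncomputable def e (m : PotentialModel) (s : List ℕ) : Mod m := ⟨coordVector m s, coord_mem m s⟩

lemma e_apply (s : List ℕ) (f : PotentialTest m) : (e m s : Amb m) f = f.1 s := rfl

lemma vec_mem (c : List ℕ →₀ ℝ) : vec m c ∈ modelSpace m :=
  Submodule.sum_mem _ fun s _ => Submodule.smul_mem _ _ (coord_mem m s)

lemma exists_vec_near {x : Amb m} (hx : x ∈ modelSpace m) {ε : ℝ} (hε : 0 < ε) :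
    ∃ c : List ℕ →₀ ℝ, ‖x - vec m c‖ < ε := by
  have h1 : x ∈ closure ((Submodule.span ℝ (Set.range (coordVector m)) : Submodule ℝ (Amb m)) :
      Set (Amb m)) := by
    rw [← Submodule.topologicalClosure_coe]
    exact hx
  obtain ⟨y, hy, hd⟩ := Metric.mem_closure_iff.1 h1 ε hε
  obtain ⟨c, rfl⟩ := Finsupp.mem_span_range_iff_exists_finsupp.1 hy
  exact ⟨c, by rwa [dist_eq_norm] at hd⟩

lemma abs_test_le_two (f : PotentialTest m) (s : List ℕ) : |f.1 s| ≤ 2 := by
  have hpot := f.2.1
  cases s with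
  | nil =>
    have := hpot []
    simp only [pathPotential] at this
    linarith
  | cons n v =>
    have h1 := hpot (n :: v)
    have h2 := hpot v
    simp only [pathPotential] at h1
    rw [abs_le] at h1 h2 ⊢
    constructor <;> linarith [h1.1, h1.2, h2.1, h2.2]

lemma norm_coord_le (s : List ℕ) : ‖coordVector m s‖ ≤ 2 :=
  norm_le_of_forall (by norm_num) fun f => abs_test_le_two f s

lemma pair_delta (c : List ℕ →₀ ℝ) (s : List ℕ) : pair c (delta s) = c s := by
  classical
  unfold pair Finsupp.sum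
  by_cases hs : s ∈ c.support
  · rw [Finset.sum_eq_single s]
    · simp [delta]
    · intro b _ hb
      simp [delta, hb]
    · intro h; exact absurd hs h
  · rw [Finset.sum_eq_zero, Finsupp.notMem_support_iff.1 hs]
    intro b hb
    have : b ≠ s := fun h => hs (h ▸ hb)
    simp [delta, this]

/-- the test given by a delta -/
def dTest {s : List ℕ} (h : IsTest m (delta s)) : PotentialTest m := ⟨delta s, h⟩

/-- a coordinate functional on the model space (zero if the delta is not a test) -/
noncomputable def psi (m : PotentialModel) (s : List ℕ) : Mod m →L[ℝ] ℝ := by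
  classical
  exact if h : IsTest m (delta s) then (ev (dTest h)).comp (modelSpace m).subtypeL else 0

lemma psi_of_test {s : List ℕ} (h : IsTest m (delta s)) (y : Mod m) :
    psi m s y = (y : Amb m) (dTest h) := by
  classical
  unfold psi
  rw [dif_pos h]
  rfl

/-- removing coordinates on a finite set -/
lemma norm_vec_sub_filter (A : Finset (List ℕ)) (y : Mod m) (hy : ∀ s ∈ A, psi m s y = 0)
    (c : List ℕ →₀ ℝ) :
    ‖vec m c - vec m (c.filter (· ∉ A))‖ ≤ 2 * A.card * ‖(y : Amb m) - vec m c‖ := by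
  classical
  set δ := ‖(y : Amb m) - vec m c‖ with hδ
  have h1 : vec m c - vec m (c.filter (· ∉ A)) =
      ∑ s ∈ c.support.filter (· ∈ A), c s • coordVector m s := by
    have h2 : vec m (c.filter (· ∉ A)) = ∑ s ∈ c.support.filter (· ∉ A), c s • coordVector m s := by
      unfold vec Finsupp.sum
      rw [Finsupp.support_filter]
      refine Finset.sum_congr rfl fun s hs => ?_
      show (c.filter (· ∉ A)) s • coordVector m s = c s • coordVector m s
      rw [Finsupp.filter_apply_pos (· ∉ A) c (Finset.mem_filter.1 hs).2]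
    have h3 : vec m c = ∑ s ∈ c.support, c s • coordVector m s := rfl
    rw [h2, h3, ← Finset.sum_filter_add_sum_filter_not c.support (· ∈ A)]
    simp
  rw [h1]
  have h4 : ∀ s ∈ c.support.filter (· ∈ A), ‖c s • coordVector m s‖ ≤ 2 * δ := by
    intro s hs
    have hsA := (Finset.mem_filter.1 hs).2
    rw [norm_smul, Real.norm_eq_abs]
    rcases test_dichotomy m s with ht | ht
    · have h5 : (vec m c) (dTest ht) = c s := by
        rw [vec_apply]; exact pair_delta c s
      have h6 : (y : Amb m) (dTest ht) = 0 := by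
        rw [← psi_of_test ht]; exact hy s hsA
      have h7 : |c s| ≤ δ := by
        have h8 := abs_apply_le ((y : Amb m) - vec m c) (dTest ht)
        rw [sub_apply', h6, h5, zero_sub, abs_neg] at h8
        exact h8
      have h9 := norm_coord_le (m := m) s
      have h0 : 0 ≤ δ := norm_nonneg _
      nlinarith [abs_nonneg (c s), norm_nonneg (coordVector m s)]
    · have h5 : coordVector m s = 0 := by
        apply lp.ext
        funext f
        exact ht f
      rw [h5, norm_zero, mul_zero]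
      have h0 : 0 ≤ δ := norm_nonneg _
      positivity
  refine (norm_sum_le _ _).trans ((Finset.sum_le_sum h4).trans ?_)
  rw [Finset.sum_const, nsmul_eq_mul]
  have h0 : 0 ≤ δ := norm_nonneg _
  have hcard : ((c.support.filter (· ∈ A)).card : ℝ) ≤ A.card := by
    exact_mod_cast Finset.card_le_card (fun s hs => (Finset.mem_filter.1 hs).2)
  nlinarith

lemma sqrt_sq_add_le (a b c d : ℝ) :
    Real.sqrt (a ^ 2 + b ^ 2) ≤ Real.sqrt (c ^ 2 + d ^ 2) + |a - c| + |b - d| := by
  set r := Real.sqrt (c ^ 2 + d ^ 2) with hr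
  set p := |a - c| with hp
  set q := |b - d| with hq
  have hr0 : 0 ≤ r := Real.sqrt_nonneg _
  have hp0 : 0 ≤ p := abs_nonneg _
  have hq0 : 0 ≤ q := abs_nonneg _
  have hrsq : r ^ 2 = c ^ 2 + d ^ 2 := Real.sq_sqrt (by positivity)
  have hc : |c| ≤ r := Real.abs_le_sqrt (by nlinarith [sq_nonneg d])
  have hd : |d| ≤ r := Real.abs_le_sqrt (by nlinarith [sq_nonneg c])
  have ha : |a| ≤ |c| + p := by
    have : a = c + (a - c) := by ring
    calc |a| = |c + (a - c)| := by rw [← this]
      _ ≤ |c| + |a - c| := abs_add_le _ _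
  have hb : |b| ≤ |d| + q := by
    have : b = d + (b - d) := by ring
    calc |b| = |d + (b - d)| := by rw [← this]
      _ ≤ |d| + |b - d| := abs_add_le _ _
  apply Real.sqrt_le_iff.2
  refine ⟨by positivity, ?_⟩
  have h1 : a ^ 2 ≤ (|c| + p) ^ 2 := by
    rw [← sq_abs a]; gcongr
  have h2 : b ^ 2 ≤ (|d| + q) ^ 2 := by
    rw [← sq_abs b]; gcongr
  have h3 : |c| ^ 2 = c ^ 2 := sq_abs c
  have h4 : |d| ^ 2 = d ^ 2 := sq_abs d
  have h5 : |c| * p ≤ r * p := by gcongr
  have h6 : |d| * q ≤ r * q := by gcongr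
  nlinarith [mul_nonneg hp0 hq0]

/-- The two-centre inequality in the model space. -/
theorem twoCentre (x a : Mod m) {η : ℝ} (hη : 0 < η) :
    ∃ F : Set (Mod m), Cof F ∧ ∀ y ∈ F,
      2 * Real.sqrt (‖x‖ ^ 2 + ‖y‖ ^ 2 / 4) - η ≤ ‖x + a + y‖ + ‖x - a - y‖ := by
  classical
  set ζ : ℝ := η / 12 with hζ
  have hζpos : 0 < ζ := by positivity
  obtain ⟨cx, hcx⟩ := exists_vec_near (m := m) x.2 hζpos
  obtain ⟨ca, hca⟩ := exists_vec_near (m := m) a.2 hζpos
  set A : Finset (List ℕ) := insert [] ((cx.support ∪ ca.support).biUnion fun s => s.tails.toFinset)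
    with hAdef
  have hA : AncClosed A := by
    refine ⟨Finset.mem_insert_self _ _, fun n v hnv => ?_⟩
    rw [hAdef, Finset.mem_insert] at hnv ⊢
    rcases hnv with h | h
    · simp at h
    · right
      rw [Finset.mem_biUnion] at h ⊢
      obtain ⟨s, hs, hsuf⟩ := h
      refine ⟨s, hs, ?_⟩
      rw [List.mem_toFinset, List.mem_tails] at hsuf ⊢
      exact (List.suffix_cons n v).trans hsuf
  have hsub : ∀ s ∈ cx.support ∪ ca.support, s ∈ A := by
    intro s hs
    rw [hAdef, Finset.mem_insert]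
    right
    rw [Finset.mem_biUnion]
    refine ⟨s, hs, ?_⟩
    rw [List.mem_toFinset, List.mem_tails]
  refine ⟨{y | ∀ s ∈ A, psi m s y = 0}, cof_biInter_ker A (psi m), fun y hy => ?_⟩
  set ζ' : ℝ := ζ / (1 + 2 * A.card) with hζ'
  have hdenom : 0 < 1 + 2 * (A.card : ℝ) := by positivity
  have hζ'pos : 0 < ζ' := by positivity
  obtain ⟨c₀, hc₀⟩ := exists_vec_near (m := m) y.2 hζ'pos
  set cy : List ℕ →₀ ℝ := c₀.filter (· ∉ A) with hcy
  have hcyA : ∀ s ∈ cy.support, s ∉ A := by
    intro s hs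
    rw [hcy, Finsupp.support_filter, Finset.mem_filter] at hs
    exact hs.2
  have hy₁ := norm_vec_sub_filter A y hy c₀
  have hynear : ‖(y : Amb m) - vec m cy‖ ≤ ζ := by
    have h1 : ‖(y : Amb m) - vec m cy‖ ≤ ‖(y : Amb m) - vec m c₀‖ + ‖vec m c₀ - vec m cy‖ :=
      norm_sub_le_norm_sub_add_norm_sub _ _ _
    have h2 : ‖vec m c₀ - vec m cy‖ ≤ 2 * A.card * ζ' := by
      refine hy₁.trans ?_
      gcongr
    have h3 : (1 + 2 * (A.card : ℝ)) * ζ' = ζ := by
      rw [hζ']; field_simp
    nlinarith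
  have hkey := key_finite (m := m) cx ca cy hA
    (fun s hs => hsub s (Finset.mem_union_left _ hs))
    (fun s hs => hsub s (Finset.mem_union_right _ hs)) hcyA
  have hx' : ‖(x : Amb m) - vec m cx‖ ≤ ζ := hcx.le
  have ha' : ‖(a : Amb m) - vec m ca‖ ≤ ζ := hca.le
  -- compare the big norms
  have hP : ‖vec m cx + vec m ca + vec m cy‖ ≤ ‖x + a + y‖ + 3 * ζ := by
    have h1 : vec m cx + vec m ca + vec m cy = ((x + a + y : Mod m) : Amb m) -
        (((x : Amb m) - vec m cx) + ((a : Amb m) - vec m ca) + ((y : Amb m) - vec m cy)) := by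
      simp only [Submodule.coe_add]
      abel
    rw [h1]
    refine (norm_sub_le _ _).trans ?_
    have h2 : ‖((x : Amb m) - vec m cx) + ((a : Amb m) - vec m ca) + ((y : Amb m) - vec m cy)‖ ≤
        ζ + ζ + ζ :=
      (norm_add_le _ _).trans (add_le_add ((norm_add_le _ _).trans (add_le_add hx' ha')) hynear)
    have h3 : ‖((x + a + y : Mod m) : Amb m)‖ = ‖x + a + y‖ := rfl
    rw [h3]
    linarith
  have hM : ‖vec m cx - vec m ca - vec m cy‖ ≤ ‖x - a - y‖ + 3 * ζ := by
    have h1 : vec m cx - vec m ca - vec m cy = ((x - a - y : Mod m) : Amb m) -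
        (((x : Amb m) - vec m cx) - ((a : Amb m) - vec m ca) - ((y : Amb m) - vec m cy)) := by
      simp only [Submodule.coe_sub]
      abel
    rw [h1]
    refine (norm_sub_le _ _).trans ?_
    have h2 : ‖((x : Amb m) - vec m cx) - ((a : Amb m) - vec m ca) - ((y : Amb m) - vec m cy)‖ ≤
        ζ + ζ + ζ :=
      (norm_sub_le _ _).trans (add_le_add ((norm_sub_le _ _).trans (add_le_add hx' ha')) hynear)
    have h3 : ‖((x - a - y : Mod m) : Amb m)‖ = ‖x - a - y‖ := rfl
    rw [h3]
    linarith
  -- compare the square roots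
  have hsq := sqrt_sq_add_le ‖x‖ (‖y‖ / 2) ‖vec m cx‖ (‖vec m cy‖ / 2)
  have hu : |‖x‖ - ‖vec m cx‖| ≤ ζ := (abs_norm_sub_norm_le (x : Amb m) (vec m cx)).trans hx'
  have hv : |‖y‖ / 2 - ‖vec m cy‖ / 2| ≤ ζ / 2 := by
    have h1 : ‖y‖ / 2 - ‖vec m cy‖ / 2 = (‖y‖ - ‖vec m cy‖) / 2 := by ring
    rw [h1, abs_div, abs_of_pos (by norm_num : (0 : ℝ) < 2)]
    have := (abs_norm_sub_norm_le (y : Amb m) (vec m cy)).trans hynear
    exact div_le_div_of_nonneg_right this (by norm_num)
  have h1 : ∀ u v : ℝ, u ^ 2 + (v / 2) ^ 2 = u ^ 2 + v ^ 2 / 4 := fun u v => by ring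
  rw [h1, h1] at hsq
  have hη' : η = 12 * ζ := by rw [hζ]; ring
  linarith

/-! ### Vectors along the tree -/

/-- the potential vector at a vertex -/
noncomputable def potV (m : PotentialModel) : List ℕ → Mod m
  | [] => e m []
  | n :: v => potV m v + e m (n :: v)

lemma potV_apply (s : List ℕ) (f : PotentialTest m) :
    (potV m s : Amb m) f = pathPotential f.1 s := by
  induction s with
  | nil => rfl
  | cons n v ih =>
    have : ((potV m (n :: v) : Mod m) : Amb m) = (potV m v : Amb m) + (e m (n :: v) : Amb m) := rfl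
    rw [this, add_apply', ih, e_apply]
    rfl

lemma norm_potV_le (s : List ℕ) : ‖potV m s‖ ≤ 1 := by
  refine norm_le_of_forall (x := (potV m s : Amb m)) zero_le_one fun f => ?_
  rw [potV_apply]
  exact f.2.1 s

lemma one_le_norm_potV {s : List ℕ} (hs : s ≠ []) : 1 ≤ ‖potV m s‖ := by
  have h := abs_apply_le (potV m s : Amb m) (dTest (isTest_delta_of_ne m hs))
  rw [potV_apply] at h
  have h2 : pathPotential (dTest (isTest_delta_of_ne m hs)).1 s = 1 := by
    show pathPotential (delta s) s = 1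
    rw [pot_delta, if_pos (List.suffix_refl s)]
  rw [h2, abs_one] at h
  exact h

lemma norm_potV {s : List ℕ} (hs : s ≠ []) : ‖potV m s‖ = 1 :=
  le_antisymm (norm_potV_le s) (one_le_norm_potV hs)

lemma one_le_norm_e {s : List ℕ} (hs : s ≠ []) : 1 ≤ ‖e m s‖ := by
  have h := abs_apply_le (e m s : Amb m) (dTest (isTest_delta_of_ne m hs))
  rw [e_apply] at h
  have h2 : (dTest (isTest_delta_of_ne m hs)).1 s = 1 := by
    show delta s s = 1
    simp [delta]
  rw [h2, abs_one] at h
  exact h

lemma potV_cons (n : ℕ) (v : List ℕ) : potV m (n :: v) = potV m v + e m (n :: v) := rfl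

/-- the `ℓ²` upper estimate on siblings -/
lemma norm_sum_sibling_le (r : List ℕ) (B : Finset ℕ) (a : ℕ → ℝ) :
    ‖∑ n ∈ B, a n • e m (n :: r)‖ ≤ 1 * Real.sqrt (∑ n ∈ B, a n ^ 2) := by
  rw [one_mul]
  have hval : ∀ f : PotentialTest m, ((∑ n ∈ B, a n • e m (n :: r) : Mod m) : Amb m) f =
      ∑ n ∈ B, a n * f.1 (n :: r) := by
    intro f
    have h1 : ((∑ n ∈ B, a n • e m (n :: r) : Mod m) : Amb m) =
        ∑ n ∈ B, a n • (e m (n :: r) : Amb m) := by
      simp
    have h2 : ev f ((∑ n ∈ B, a n • e m (n :: r) : Mod m) : Amb m) =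
        ∑ n ∈ B, a n * f.1 (n :: r) := by
      rw [h1, map_sum]
      refine Finset.sum_congr rfl fun n _ => ?_
      rw [map_smul]
      rfl
    exact h2
  refine norm_le_of_forall (x := ((∑ n ∈ B, a n • e m (n :: r) : Mod m) : Amb m))
    (Real.sqrt_nonneg _) fun f => ?_
  rw [hval]
  refine Real.abs_le_sqrt ?_
  have h1 := Finset.sum_mul_sq_le_sq_mul_sq B a (fun n => f.1 (n :: r))
  have h2 := IsTest.sibling f.2 r B
  have h3 : 0 ≤ ∑ n ∈ B, a n ^ 2 := Finset.sum_nonneg fun n _ => sq_nonneg _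
  nlinarith

/-- weak nullity of the sibling sequence -/
lemma weak_null_sibling (r : List ℕ) (ψ : Mod m →L[ℝ] ℝ) :
    Tendsto (fun n => ψ (e m (n :: r))) atTop (𝓝 0) :=
  tendsto_zero_of_l2_upper (fun n => e m (n :: r)) 1 (fun B a => norm_sum_sibling_le r B a) ψ

/-- separability of the model space -/
theorem separable_mod (m : PotentialModel) : TopologicalSpace.SeparableSpace (Mod m) := by
  have h : TopologicalSpace.IsSeparable ((modelSpace m : Submodule ℝ (Amb m)) : Set (Amb m)) := by
    unfold modelSpace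
    rw [Submodule.topologicalClosure_coe]
    exact ((Set.countable_range _).isSeparable.span).closure
  exact h.separableSpace

end Crest.Agent.Lib.TreeCore
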