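import Mathlib
import Crest.Prelude.Def_TreePotentials
import Crest.Agent.Lib.TreeCore
import Crest.Agent.Lib.L2Sum

/-!
Finite-depth pieces of the global bounded-potential model: each is a closed subspace of the model
space, linearly homeomorphic to a Hilbert space (helper library for S0166).
-/

set_option autoImplicit false

open Filter Topology
open scoped ENNReal
open Crest.AnalysisR Crest.AnalysisR.TreePotential

namespace Crest.Agent.Lib.DepthSpaces

open Crest.Agent.Lib.AsympBasic Crest.Agent.Lib.TreeCore Crest.Agent.Lib.L2Sum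

/-- Vertices of depth at most `d`. -/
abbrev V (d : ℕ) : Type := {s : List ℕ // s.length ≤ d}

/-- The Hilbert space on these vertices. -/
abbrev H (d : ℕ) : Type := lp (fun _ : V d => ℝ) 2

/-- Tests in the model. -/
abbrev Tst : Type := PotentialTest PotentialModel.global

/-- The ambient space. -/
abbrev A : Type := Amb PotentialModel.global

lemma sum_sq_le_one (f : Tst) {d : ℕ} (T : Finset (V d)) : ∑ s ∈ T, f.1 s.1 ^ 2 ≤ 1 := by
  have h := f.2.2 (T.map (Function.Embedding.subtype _))
  simpa [Finset.sum_map] using h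

/-- Restriction of a test to bounded depth, a vector in the unit ball of the Hilbert space. -/
noncomputable def restr (d : ℕ) (f : Tst) : H d :=
  ⟨fun s => f.1 s.1, memℓp_gen' (C := 1) fun T => by
    simpa [two_toReal] using sum_sq_le_one f T⟩

lemma restr_apply (d : ℕ) (f : Tst) (s : V d) : restr d f s = f.1 s.1 := rfl

lemma norm_restr_le (d : ℕ) (f : Tst) : ‖restr d f‖ ≤ 1 := by
  refine lp.norm_le_of_forall_sum_le two_pos' zero_le_one fun T => ?_
  simpa [two_toReal, restr_apply] using sum_sq_le_one f T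

/-- The pairing of a square-summable family with the tests. -/
noncomputable def Jfun (d : ℕ) (c : H d) : A :=
  ⟨fun f => inner ℝ (restr d f) c, memℓp_infty ⟨‖c‖, by
    rintro _ ⟨f, rfl⟩
    calc ‖inner ℝ (restr d f) c‖ ≤ ‖restr d f‖ * ‖c‖ := norm_inner_le_norm _ _
      _ ≤ 1 * ‖c‖ := by gcongr; exact norm_restr_le d f
      _ = ‖c‖ := one_mul _⟩⟩

lemma Jfun_apply (d : ℕ) (c : H d) (f : Tst) : Jfun d c f = inner ℝ (restr d f) c := rfl

/-- The pairing as a continuous linear map. -/
noncomputable def JA (d : ℕ) : H d →L[ℝ] A :=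
  LinearMap.mkContinuous
    { toFun := Jfun d
      map_add' := fun c₁ c₂ => by
        ext f
        simp only [add_apply', Jfun_apply, inner_add_right]
      map_smul' := fun a c => by
        ext f
        simp only [RingHom.id_apply, smul_apply', Jfun_apply, inner_smul_right] }
    1 (fun c => by
      rw [one_mul]
      refine TreeCore.norm_le_of_forall (norm_nonneg c) fun f => ?_
      calc |Jfun d c f| = ‖inner ℝ (restr d f) c‖ := rfl
        _ ≤ ‖restr d f‖ * ‖c‖ := norm_inner_le_norm _ _
        _ ≤ 1 * ‖c‖ := by gcongr; exact norm_restr_le d f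
        _ = ‖c‖ := one_mul _)

lemma JA_apply (d : ℕ) (c : H d) (f : Tst) : JA d c f = inner ℝ (restr d f) c := rfl

lemma norm_JA_le (d : ℕ) (c : H d) : ‖JA d c‖ ≤ ‖c‖ := by
  refine TreeCore.norm_le_of_forall (norm_nonneg c) fun f => ?_
  calc |JA d c f| = ‖inner ℝ (restr d f) c‖ := rfl
    _ ≤ ‖restr d f‖ * ‖c‖ := norm_inner_le_norm _ _
    _ ≤ 1 * ‖c‖ := by gcongr; exact norm_restr_le d f
    _ = ‖c‖ := one_mul _

/-- The basis vectors go to multiples of coordinate vectors. -/
lemma JA_single (d : ℕ) (s : V d) (a : ℝ) :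
    JA d (lp.single 2 s a) = a • coordVector PotentialModel.global s.1 := by
  ext f
  rw [JA_apply, lp.inner_single_right, smul_apply']
  simp only [restr_apply]
  rw [RCLike.inner_apply, conj_trivial]
  rfl

lemma JA_mem (d : ℕ) (c : H d) : JA d c ∈ modelSpace PotentialModel.global := by
  have h := (lp.hasSum_single (E := fun _ : V d => ℝ) (p := 2) (by norm_num) c).mapL (JA d)
  rw [HasSum, SummationFilter.unconditional_filter] at h
  refine (Submodule.isClosed_topologicalClosure _).mem_of_tendsto h
    (Eventually.of_forall fun T => ?_)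
  refine Submodule.sum_mem _ fun s _ => ?_
  rw [JA_single]
  exact Submodule.smul_mem _ _ (coord_mem _ _)

/-- The pairing with values in the model space. -/
noncomputable def J (d : ℕ) : H d →L[ℝ] Mod PotentialModel.global :=
  (JA d).codRestrict (modelSpace PotentialModel.global) (JA_mem d)

lemma coe_J (d : ℕ) (c : H d) : ((J d c : Mod PotentialModel.global) : A) = JA d c := rfl

lemma J_single (d : ℕ) (s : V d) (a : ℝ) :
    J d (lp.single 2 s a) = a • e PotentialModel.global s.1 := by
  apply Subtype.ext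
  rw [coe_J, JA_single]
  rfl

lemma norm_J_le (d : ℕ) (c : H d) : ‖J d c‖ ≤ ‖c‖ := norm_JA_le d c

lemma pot_bound {g : List ℕ → ℝ} {K : ℝ} {d : ℕ} (hK : 0 ≤ K) (h1 : ∀ u, |g u| ≤ K)
    (h0 : ∀ u : List ℕ, d < u.length → g u = 0) (s : List ℕ) :
    |pathPotential g s| ≤ ((min s.length d : ℕ) + 1 : ℝ) * K := by
  induction s with
  | nil =>
    simp only [List.length_nil, Nat.zero_min, Nat.cast_zero, zero_add, one_mul]
    exact h1 []
  | cons a v ih =>
    have e1 : pathPotential g (a :: v) = pathPotential g v + g (a :: v) := rfl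
    rw [e1]
    by_cases hlen : (a :: v).length ≤ d
    · have hv : v.length + 1 ≤ d := by simpa using hlen
      have h2 : min (a :: v).length d = v.length + 1 := by
        rw [min_eq_left hlen]; simp
      have h3 : min v.length d = v.length := min_eq_left (by omega)
      rw [h3] at ih
      rw [h2]
      push_cast
      calc |pathPotential g v + g (a :: v)| ≤ |pathPotential g v| + |g (a :: v)| := abs_add_le _ _
        _ ≤ ((v.length : ℝ) + 1) * K + K := add_le_add ih (h1 _)
        _ = _ := by ring
    · have hz : g (a :: v) = 0 := h0 _ (by omega)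
      rw [hz, add_zero]
      refine ih.trans ?_
      gcongr
      simp

/-- The extension by zero of a scaled square-summable family. -/
noncomputable def gExt (d : ℕ) (κ : ℝ) (c : H d) (u : List ℕ) : ℝ :=
  if h : u.length ≤ d then κ * c ⟨u, h⟩ else 0

lemma gExt_of_le {d : ℕ} (κ : ℝ) (c : H d) {u : List ℕ} (h : u.length ≤ d) :
    gExt d κ c u = κ * c ⟨u, h⟩ := dif_pos h

lemma gExt_of_lt {d : ℕ} (κ : ℝ) (c : H d) {u : List ℕ} (h : d < u.length) :
    gExt d κ c u = 0 := dif_neg (by omega)

lemma sum_sq_c_le {d : ℕ} (c : H d) (T : Finset (V d)) : ∑ s ∈ T, c s ^ 2 ≤ ‖c‖ ^ 2 := by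
  have := lp.sum_rpow_le_norm_rpow two_pos' c T
  simpa [two_toReal] using this

lemma sum_gExt_sq_le {d : ℕ} (κ : ℝ) (c : H d) (A' : Finset (List ℕ)) :
    ∑ u ∈ A', gExt d κ c u ^ 2 ≤ κ ^ 2 * ‖c‖ ^ 2 := by
  classical
  have h1 : ∑ u ∈ A', gExt d κ c u ^ 2 =
      ∑ u ∈ A'.filter (fun u => u.length ≤ d), gExt d κ c u ^ 2 := by
    refine (Finset.sum_filter_of_ne ?_).symm
    intro u _ hu
    by_contra hlen
    apply hu
    rw [gExt_of_lt κ c (by omega)]
    simp
  rw [h1, ← Finset.sum_subtype_eq_sum_filter]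
  have h2 : ∀ s ∈ A'.subtype (fun u : List ℕ => u.length ≤ d),
      gExt d κ c s.1 ^ 2 = κ ^ 2 * c s ^ 2 := by
    intro s _
    rw [gExt_of_le κ c s.2, mul_pow]
  rw [Finset.sum_congr rfl h2, ← Finset.mul_sum]
  gcongr
  exact sum_sq_c_le c _

lemma abs_c_le {d : ℕ} (c : H d) (s : V d) : |c s| ≤ ‖c‖ :=
  lp.norm_apply_le_norm (by norm_num) c s

/-- The lower bound for the pairing. -/
theorem le_norm_J (d : ℕ) (c : H d) : ‖c‖ ≤ (d + 1) * ‖J d c‖ := by
  by_cases hc : c = 0
  · subst hc
    simp
  have hcpos : 0 < ‖c‖ := norm_pos_iff.2 hc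
  have hd : (0 : ℝ) < (d : ℝ) + 1 := by positivity
  set κ : ℝ := 1 / (((d : ℝ) + 1) * ‖c‖) with hκ
  have hκpos : 0 < κ := by positivity
  have hκc : κ * ‖c‖ = 1 / ((d : ℝ) + 1) := by
    rw [hκ]; field_simp
  have hG : IsTest PotentialModel.global (gExt d κ c) := by
    refine ⟨fun s => ?_, fun A' => ?_⟩
    · have hb : ∀ u, |gExt d κ c u| ≤ 1 / ((d : ℝ) + 1) := by
        intro u
        by_cases hu : u.length ≤ d
        · rw [gExt_of_le κ c hu, abs_mul, abs_of_pos hκpos, ← hκc]
          gcongr
          exact abs_c_le c _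
        · rw [gExt_of_lt κ c (by omega), abs_zero]
          positivity
      have h3 := pot_bound (K := 1 / ((d : ℝ) + 1)) (d := d) (by positivity) hb
        (fun u hu => gExt_of_lt κ c hu) s
      refine h3.trans ?_
      have h4 : ((min s.length d : ℕ) : ℝ) ≤ d := by
        exact_mod_cast min_le_right _ _
      calc ((min s.length d : ℕ) + 1 : ℝ) * (1 / ((d : ℝ) + 1))
          ≤ ((d : ℝ) + 1) * (1 / ((d : ℝ) + 1)) := by gcongr
        _ = 1 := by field_simp
    · refine (sum_gExt_sq_le κ c A').trans ?_
      have h5 : κ ^ 2 * ‖c‖ ^ 2 = (1 / ((d : ℝ) + 1)) ^ 2 := by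
        rw [← hκc, mul_pow]
      rw [h5]
      have h6 : 1 / ((d : ℝ) + 1) ≤ 1 := by
        rw [div_le_one hd]
        have : (0 : ℝ) ≤ d := by positivity
        linarith
      have h7 : 0 ≤ 1 / ((d : ℝ) + 1) := by positivity
      nlinarith
  let G : Tst := ⟨gExt d κ c, hG⟩
  have hres : restr d G = κ • c := by
    ext s
    show gExt d κ c s.1 = κ * c s
    rw [gExt_of_le κ c s.2]
  have hval : JA d c G = ‖c‖ / ((d : ℝ) + 1) := by
    rw [JA_apply, hres, inner_smul_left, real_inner_self_eq_norm_sq, conj_trivial]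
    rw [pow_two, ← mul_assoc, hκc]
    field_simp
  have hle : |JA d c G| ≤ ‖JA d c‖ := TreeCore.abs_apply_le _ _
  rw [hval, abs_of_nonneg (by positivity)] at hle
  have : ‖J d c‖ = ‖JA d c‖ := rfl
  rw [this]
  rw [div_le_iff₀ hd] at hle
  linarith

lemma J_injective (d : ℕ) : Function.Injective (J d) := by
  rw [injective_iff_map_eq_zero]
  intro c hc
  have := le_norm_J d c
  rw [hc, norm_zero, mul_zero] at this
  exact norm_le_zero_iff.1 this

noncomputable instance instNACGMod : NormedAddCommGroup (Mod PotentialModel.global) :=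
  inferInstance

noncomputable instance instNSMod : NormedSpace ℝ (Mod PotentialModel.global) :=
  inferInstance

/-- The depth-`d` space. -/
noncomputable def XX (d : ℕ) : Submodule ℝ (Mod PotentialModel.global) :=
  LinearMap.range (J d : H d →ₗ[ℝ] Mod PotentialModel.global)

noncomputable instance instNACGXX (d : ℕ) : NormedAddCommGroup (XX d) := inferInstance

noncomputable instance instNSXX (d : ℕ) : NormedSpace ℝ (XX d) := inferInstance

instance (d : ℕ) : CompleteSpace (H d) := inferInstance

lemma isClosed_XX (d : ℕ) : IsClosed (XX d : Set (Mod PotentialModel.global)) := by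
  have hanti : AntilipschitzWith (Real.toNNReal ((d : ℝ) + 1)) (J d) := by
    refine AddMonoidHomClass.antilipschitz_of_bound (J d) fun c => ?_
    rw [Real.coe_toNNReal _ (by positivity)]
    exact le_norm_J d c
  have := hanti.isClosed_range (J d).uniformContinuous
  have e : (XX d : Set (Mod PotentialModel.global)) = Set.range (J d) := LinearMap.coe_range _
  rw [e]
  exact this

instance instCompleteXX (d : ℕ) : CompleteSpace (XX d) :=
  haveI : CompleteSpace (Mod PotentialModel.global) := by
    exact (Submodule.isClosed_topologicalClosure _).completeSpace_coe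
  (isClosed_XX d).completeSpace_coe

/-- The Hilbert space structure of the depth-`d` space. -/
noncomputable def LXX (d : ℕ) : H d ≃L[ℝ] XX d :=
  (LinearEquiv.ofInjective (J d : H d →ₗ[ℝ] Mod PotentialModel.global)
    (J_injective d)).toContinuousLinearEquivOfBounds 1 ((d : ℝ) + 1)
    (fun c => by
      rw [one_mul]
      exact norm_J_le d c)
    (fun x => by
      obtain ⟨c, hc⟩ := x.2
      have hx : x = LinearEquiv.ofInjective (J d : H d →ₗ[ℝ] Mod PotentialModel.global)
          (J_injective d) c := Subtype.ext hc.symm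
      rw [hx, LinearEquiv.symm_apply_apply]
      exact le_norm_J d c)

theorem reflexive_XX (d : ℕ) :
    Function.Surjective (NormedSpace.inclusionInDoubleDual ℝ (XX d)) :=
  reflexive_of_equiv (LXX d)

theorem separable_XX (d : ℕ) : TopologicalSpace.SeparableSpace (XX d) := by
  haveI := separable_mod PotentialModel.global
  have h : TopologicalSpace.IsSeparable (XX d : Set (Mod PotentialModel.global)) :=
    TopologicalSpace.IsSeparable.of_separableSpace _
  exact h.separableSpace

theorem TC_XX (d : ℕ) : TC (XX d) := by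
  intro x a η hη
  obtain ⟨F, hF, hF'⟩ := twoCentre (x : Mod PotentialModel.global) a hη
  refine ⟨(XX d).subtypeL ⁻¹' F, hF.preimage _, fun y hy => ?_⟩
  exact hF' y hy

lemma e_mem (d : ℕ) {s : List ℕ} (hs : s.length ≤ d) : e PotentialModel.global s ∈ XX d := by
  refine ⟨lp.single 2 (⟨s, hs⟩ : V d) (1 : ℝ), ?_⟩
  have := J_single d ⟨s, hs⟩ 1
  simpa using this

lemma potV_mem (d : ℕ) {s : List ℕ} (hs : s.length ≤ d) : potV PotentialModel.global s ∈ XX d := by
  induction s with
  | nil => exact e_mem d hs
  | cons a v ih =>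
    rw [potV_cons]
    exact (XX d).add_mem (ih (by simp at hs; omega)) (e_mem d hs)

end Crest.Agent.Lib.DepthSpaces
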