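import Mathlib
import Crest.Prelude.Def_Diamond
import Crest.Agent.Lib.L2Sum

/-!
Distortion of countably branching diamond graphs in spaces with the "two-centre" property
(helper library for S0166).
-/

set_option autoImplicit false

open Filter Topology
open Crest.AnalysisR

namespace Crest.Agent.Lib.DiamondGen

open Crest.Agent.Lib.AsympBasic Crest.Agent.Lib.L2Sum

section Step

variable {Y : Type*} [NormedAddCommGroup Y] [NormedSpace ℝ Y]

/-- The fundamental one-step estimate for a bunch of separated midpoints. -/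
theorem diamond_step
    (hR : Function.Surjective (NormedSpace.inclusionInDoubleDual ℝ Y)) (hTC : TC Y)
    (u v : Y) (m : ℕ → Y) {s T : ℝ} (hs : 0 < s)
    (hsep : ∀ i j, i ≠ j → 2 * s ≤ ‖m i - m j‖)
    (hT : T < √(‖(1 / 2 : ℝ) • (v - u)‖ ^ 2 + s ^ 2 / 4)) :
    ∃ i, T ≤ ‖m i - u‖ ∨ T ≤ ‖v - m i‖ := by
  by_contra hcon
  push Not at hcon
  set x : Y := (1 / 2 : ℝ) • (v - u) with hx
  set c : Y := (1 / 2 : ℝ) • (u + v) with hc
  set A : ℕ → Y := fun i => m i - c with hA
  have e1 : ∀ i, x + A i = m i - u := fun i => by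
    simp only [hx, hc, hA, smul_add, smul_sub]
    have : u = (1 / 2 : ℝ) • u + (1 / 2 : ℝ) • u := by
      rw [← add_smul]; norm_num
    nth_rw 3 [this]
    abel
  have e2 : ∀ i, x - A i = v - m i := fun i => by
    simp only [hx, hc, hA, smul_add, smul_sub]
    have : v = (1 / 2 : ℝ) • v + (1 / 2 : ℝ) • v := by
      rw [← add_smul]; norm_num
    nth_rw 3 [this]
    abel
  have hbd : ∀ i, ‖A i‖ ≤ T + ‖x‖ := fun i => by
    have h1 : A i = (x + A i) - x := by abel
    rw [h1, e1]
    calc ‖m i - u - x‖ ≤ ‖m i - u‖ + ‖x‖ := norm_sub_le _ _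
      _ ≤ T + ‖x‖ := by linarith [(hcon i).1]
  obtain ⟨a, ha⟩ := exists_weak_cluster hR A hbd
  set gap : ℝ := √(‖x‖ ^ 2 + s ^ 2 / 4) - T with hgap
  have hgap0 : 0 < gap := by rw [hgap]; linarith
  obtain ⟨F, hF, hF'⟩ := hTC x a (gap / 2) (by positivity)
  set ε : ℝ := min (gap / 4) (s / 2) with hε
  have hεpos : 0 < ε := lt_min (by positivity) (by positivity)
  have hε1 : ε ≤ gap / 4 := min_le_left _ _
  have hε2 : ε ≤ s / 2 := min_le_right _ _
  have hnear := hF.eventually_near (fun i => A i - a) ha hεpos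
  -- at most one index is close to `a`
  have hfar : ∀ᶠ i in (hyperfilter ℕ : Filter ℕ), s ≤ ‖A i - a‖ := by
    have hfin : ({i | ‖A i - a‖ < s} : Set ℕ).Finite := by
      refine Set.Subsingleton.finite ?_
      intro i hi j hj
      by_contra hij
      have h1 := hsep i j hij
      have h2 : m i - m j = (A i - a) - (A j - a) := by
        simp only [hA]; abel
      rw [h2] at h1
      have h3 := norm_sub_le (A i - a) (A j - a)
      have hi' : ‖A i - a‖ < s := hi
      have hj' : ‖A j - a‖ < s := hj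
      linarith
    have := (Filter.hyperfilter_le_cofinite (α := ℕ)) hfin.compl_mem_cofinite
    filter_upwards [this] with i hi
    simpa using hi
  obtain ⟨i, ⟨y, hy, hyi⟩, hi⟩ := (hnear.and hfar).exists
  have hmain := hF' y hy
  have e3 : x + a + y = (x + A i) - (A i - a - y) := by abel
  have e4 : x - a - y = (x - A i) + (A i - a - y) := by abel
  have hy1 : ‖x + a + y‖ + ‖x - a - y‖ < 2 * T + 2 * ε := by
    rw [e3, e4, e1, e2]
    have h1 := norm_sub_le (m i - u) (A i - a - y)
    have h2 := norm_add_le (v - m i) (A i - a - y)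
    linarith [(hcon i).1, (hcon i).2]
  have hy2 : s - ε ≤ ‖y‖ := by
    have h1 : A i - a = (A i - a - y) + y := by abel
    have h2 := norm_add_le (A i - a - y) y
    rw [← h1] at h2
    linarith
  have hs' : 0 ≤ s - ε := by linarith
  have hy3 : √(‖x‖ ^ 2 + ((s - ε) / 2) ^ 2) ≤ √(‖x‖ ^ 2 + ‖y‖ ^ 2 / 4) := by
    apply Real.sqrt_le_sqrt
    have : (s - ε) ^ 2 ≤ ‖y‖ ^ 2 := by gcongr
    nlinarith
  have hy4 : √(‖x‖ ^ 2 + s ^ 2 / 4) ≤ √(‖x‖ ^ 2 + ((s - ε) / 2) ^ 2) + ε / 2 := by
    have := sqrt_sq_add_le' ‖x‖ (s / 2) ‖x‖ ((s - ε) / 2)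
    have e5 : (s / 2) ^ 2 = s ^ 2 / 4 := by ring
    have e6 : s / 2 - (s - ε) / 2 = ε / 2 := by ring
    rw [e5, e6, sub_self, abs_zero, add_zero, abs_of_pos (by positivity)] at this
    exact this
  have hgap' : √(‖x‖ ^ 2 + s ^ 2 / 4) = T + gap := by rw [hgap]; ring
  rw [hgap'] at hy4
  linarith

end Step

section Graph

lemma src_ne_tgt : ∀ (k : ℕ) (e : DiamondEdge k), diamondSrc k e ≠ diamondTgt k e
  | 0, _ => by
    show (false : Bool) ≠ true
    decide
  | k + 1, (e, i, b) => by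
    cases b
    · show (Sum.inl (diamondSrc k e) : DiamondVertex k ⊕ (DiamondEdge k × ℕ)) ≠ Sum.inr (e, i)
      simp
    · show (Sum.inr (e, i) : DiamondVertex k ⊕ (DiamondEdge k × ℕ)) ≠ Sum.inl (diamondTgt k e)
      simp

lemma adj_edge (k : ℕ) (e : DiamondEdge k) : (diamondGraph k).Adj (diamondSrc k e) (diamondTgt k e) :=
  (SimpleGraph.fromRel_adj _ _ _).2 ⟨src_ne_tgt k e, Or.inl ⟨e, rfl, rfl⟩⟩

lemma dist_edge (k : ℕ) (e : DiamondEdge k) :
    (diamondGraph k).dist (diamondSrc k e) (diamondTgt k e) = 1 :=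
  SimpleGraph.dist_eq_one_iff_adj.2 (adj_edge k e)

/-- Left vertices of the next level. -/
def vL {k : ℕ} (w : DiamondVertex k) : DiamondVertex (k + 1) := Sum.inl w

/-- Middle vertices of the next level. -/
def vM {k : ℕ} (e : DiamondEdge k) (i : ℕ) : DiamondVertex (k + 1) := Sum.inr (e, i)

/-- First half of the two-edge path. -/
def eF {k : ℕ} (e : DiamondEdge k) (i : ℕ) : DiamondEdge (k + 1) := (e, i, false)

/-- Second half of the two-edge path. -/
def eT {k : ℕ} (e : DiamondEdge k) (i : ℕ) : DiamondEdge (k + 1) := (e, i, true)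

lemma src_eF {k : ℕ} (e : DiamondEdge k) (i : ℕ) :
    diamondSrc (k + 1) (eF e i) = vL (diamondSrc k e) := rfl

lemma tgt_eF {k : ℕ} (e : DiamondEdge k) (i : ℕ) :
    diamondTgt (k + 1) (eF e i) = vM e i := rfl

lemma src_eT {k : ℕ} (e : DiamondEdge k) (i : ℕ) :
    diamondSrc (k + 1) (eT e i) = vM e i := rfl

lemma tgt_eT {k : ℕ} (e : DiamondEdge k) (i : ℕ) :
    diamondTgt (k + 1) (eT e i) = vL (diamondTgt k e) := rfl

lemma reach_vL {k : ℕ} {u v : DiamondVertex k} (h : (diamondGraph k).Reachable u v) :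
    (diamondGraph (k + 1)).Reachable (vL u) (vL v) := by
  obtain ⟨p⟩ := h
  induction p with
  | nil => exact SimpleGraph.Reachable.refl _
  | cons hadj _ ih =>
    refine SimpleGraph.Reachable.trans ?_ ih
    obtain ⟨-, ⟨e, rfl, rfl⟩ | ⟨e, rfl, rfl⟩⟩ := (SimpleGraph.fromRel_adj _ _ _).1 hadj
    · have h1 := (adj_edge (k + 1) (eF e 0)).reachable
      have h2 := (adj_edge (k + 1) (eT e 0)).reachable
      exact h1.trans h2
    · have h1 := (adj_edge (k + 1) (eF e 0)).reachable
      have h2 := (adj_edge (k + 1) (eT e 0)).reachable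
      exact (h1.trans h2).symm

theorem diamond_reachable : ∀ (k : ℕ) (u v : DiamondVertex k), (diamondGraph k).Reachable u v
  | 0, u, v => by
    have hadj : (diamondGraph 0).Adj (false : Bool) (true : Bool) := adj_edge 0 ()
    have key : (diamondGraph 0).Reachable (false : Bool) (true : Bool) := hadj.reachable
    change Bool at u v
    cases u <;> cases v
    · exact SimpleGraph.Reachable.refl _
    · exact key
    · exact key.symm
    · exact SimpleGraph.Reachable.refl _
  | k + 1, u, v => by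
    have hk := diamond_reachable k
    have hmid : ∀ (e : DiamondEdge k) (i : ℕ) (w : DiamondVertex k),
        (diamondGraph (k + 1)).Reachable (vM e i) (vL w) := fun e i w => by
      have h1 := (adj_edge (k + 1) (eF e i)).reachable
      exact h1.symm.trans (reach_vL (hk _ _))
    rcases (u : DiamondVertex k ⊕ (DiamondEdge k × ℕ)) with u | ⟨e, i⟩ <;>
    rcases (v : DiamondVertex k ⊕ (DiamondEdge k × ℕ)) with v | ⟨e', i'⟩
    · exact reach_vL (hk _ _)
    · exact (hmid e' i' u).symm
    · exact hmid e i v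
    · exact (hmid e i (diamondSrc k e)).trans (hmid e' i' (diamondSrc k e)).symm

lemma nonempty_vertex (k : ℕ) : Nonempty (DiamondVertex k) := by
  induction k with
  | zero => exact ⟨(false : Bool)⟩
  | succ k ih =>
    obtain ⟨w⟩ := ih
    exact ⟨vL w⟩

theorem diamond_connected (k : ℕ) : (diamondGraph k).Connected :=
  haveI := nonempty_vertex k
  ⟨diamond_reachable k⟩

lemma lip_dist (k : ℕ) (H : DiamondVertex k → ℝ)
    (hH : ∀ e, |H (diamondSrc k e) - H (diamondTgt k e)| ≤ 1) (u v : DiamondVertex k) :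
    |H u - H v| ≤ ((diamondGraph k).dist u v : ℝ) := by
  obtain ⟨p, hp⟩ := (diamond_reachable k u v).exists_walk_length_eq_dist
  rw [← hp]
  clear hp
  induction p with
  | nil => simp
  | cons hadj _ ih =>
    rename_i a b c p
    rw [SimpleGraph.Walk.length_cons]
    push_cast
    have h1 : |H a - H b| ≤ 1 := by
      obtain ⟨-, ⟨e, rfl, rfl⟩ | ⟨e, rfl, rfl⟩⟩ := (SimpleGraph.fromRel_adj _ _ _).1 hadj
      · exact hH e
      · rw [abs_sub_comm]; exact hH e
    calc |H a - H c| = |(H a - H b) + (H b - H c)| := by ring_nf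
      _ ≤ |H a - H b| + |H b - H c| := abs_add_le _ _
      _ ≤ _ := by linarith

lemma dist_diff_le (k : ℕ) (u : DiamondVertex k) (e : DiamondEdge k) :
    |((diamondGraph k).dist u (diamondSrc k e) : ℝ) - ((diamondGraph k).dist u (diamondTgt k e) : ℝ)| ≤ 1 := by
  have hc := diamond_connected k
  have h1 : (diamondGraph k).dist u (diamondTgt k e) ≤
      (diamondGraph k).dist u (diamondSrc k e) + (diamondGraph k).dist (diamondSrc k e) (diamondTgt k e) :=
    hc.dist_triangle
  have h2 : (diamondGraph k).dist u (diamondSrc k e) ≤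
      (diamondGraph k).dist u (diamondTgt k e) + (diamondGraph k).dist (diamondTgt k e) (diamondSrc k e) :=
    hc.dist_triangle
  rw [dist_edge] at h1
  rw [SimpleGraph.dist_comm (u := diamondTgt k e), dist_edge] at h2
  have h1' : ((diamondGraph k).dist u (diamondTgt k e) : ℝ) ≤
      (diamondGraph k).dist u (diamondSrc k e) + 1 := by exact_mod_cast h1
  have h2' : ((diamondGraph k).dist u (diamondSrc k e) : ℝ) ≤
      (diamondGraph k).dist u (diamondTgt k e) + 1 := by exact_mod_cast h2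
  rw [abs_le]
  constructor <;> linarith

/-- The left embedding doubles distances (lower bound). -/
theorem two_dist_le (k : ℕ) (u v : DiamondVertex k) :
    2 * ((diamondGraph k).dist u v : ℝ) ≤ ((diamondGraph (k + 1)).dist (vL u) (vL v) : ℝ) := by
  let H : DiamondVertex (k + 1) → ℝ := Sum.elim
    (fun w => 2 * ((diamondGraph k).dist u w : ℝ))
    (fun p => ((diamondGraph k).dist u (diamondSrc k p.1) : ℝ) +
      ((diamondGraph k).dist u (diamondTgt k p.1) : ℝ))
  have hH : ∀ e, |H (diamondSrc (k + 1) e) - H (diamondTgt (k + 1) e)| ≤ 1 := by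
    rintro ⟨e, i, b⟩
    have h0 := dist_diff_le k u e
    cases b
    · show |2 * ((diamondGraph k).dist u (diamondSrc k e) : ℝ) -
        (((diamondGraph k).dist u (diamondSrc k e) : ℝ) +
          ((diamondGraph k).dist u (diamondTgt k e) : ℝ))| ≤ 1
      rw [show ∀ a b : ℝ, 2 * a - (a + b) = a - b from fun a b => by ring]
      exact h0
    · show |(((diamondGraph k).dist u (diamondSrc k e) : ℝ) +
          ((diamondGraph k).dist u (diamondTgt k e) : ℝ)) -
          2 * ((diamondGraph k).dist u (diamondTgt k e) : ℝ)| ≤ 1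
      rw [show ∀ a b : ℝ, (a + b) - 2 * b = a - b from fun a b => by ring]
      exact h0
  have := lip_dist (k + 1) H hH (vL u) (vL v)
  have e1 : H (vL u) = 0 := by
    show 2 * ((diamondGraph k).dist u u : ℝ) = 0
    simp
  have e2 : H (vL v) = 2 * ((diamondGraph k).dist u v : ℝ) := rfl
  rw [e1, e2, zero_sub, abs_neg] at this
  exact (le_abs_self _).trans this

/-- Different midpoints of one edge are at distance at least two. -/
theorem two_le_dist_mid {k : ℕ} (e : DiamondEdge k) {i j : ℕ} (hij : i ≠ j) :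
    2 ≤ (diamondGraph (k + 1)).dist (vM e i) (vM e j) := by
  have hne : vM e i ≠ vM e j := by
    intro h
    have h' : (Sum.inr (e, i) : DiamondVertex k ⊕ (DiamondEdge k × ℕ)) = Sum.inr (e, j) := h
    simp only [Sum.inr.injEq, Prod.mk.injEq, true_and] at h'
    exact hij h'
  have hnadj : ¬ (diamondGraph (k + 1)).Adj (vM e i) (vM e j) := by
    intro hadj
    obtain ⟨-, ⟨⟨e', i', b⟩, h1, h2⟩ | ⟨⟨e', i', b⟩, h1, h2⟩⟩ := (SimpleGraph.fromRel_adj _ _ _).1 hadj
    · cases b
      · have h1' : (Sum.inl (diamondSrc k e') : DiamondVertex k ⊕ (DiamondEdge k × ℕ)) = Sum.inr (e, i) := h1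
        simp at h1'
      · have h2' : (Sum.inl (diamondTgt k e') : DiamondVertex k ⊕ (DiamondEdge k × ℕ)) = Sum.inr (e, j) := h2
        simp at h2'
    · cases b
      · have h1' : (Sum.inl (diamondSrc k e') : DiamondVertex k ⊕ (DiamondEdge k × ℕ)) = Sum.inr (e, j) := h1
        simp at h1'
      · have h2' : (Sum.inl (diamondTgt k e') : DiamondVertex k ⊕ (DiamondEdge k × ℕ)) = Sum.inr (e, i) := h2
        simp at h2'
  exact (diamond_reachable (k + 1) _ _).one_lt_dist_of_ne_of_not_adj hne hnadj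

end Graph

section Main

variable {Y : Type*} [NormedAddCommGroup Y] [NormedSpace ℝ Y]

/-- Some edge of a diamond with a lower distance estimate is long. -/
theorem diamond_claim
    (hR : Function.Surjective (NormedSpace.inclusionInDoubleDual ℝ Y)) (hTC : TC Y) :
    ∀ (k : ℕ) (g : DiamondVertex k → Y) (s : ℝ), 0 < s →
      (∀ u v, s * ((diamondGraph k).dist u v : ℝ) ≤ ‖g u - g v‖) →
      ∀ T : ℝ, T < s * √(1 + (k : ℝ) / 4) →
        ∃ e, T ≤ ‖g (diamondSrc k e) - g (diamondTgt k e)‖ := by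
  intro k
  induction k with
  | zero =>
    intro g s hs hg T hT
    refine ⟨(), ?_⟩
    have h1 := hg (diamondSrc 0 ()) (diamondTgt 0 ())
    have h0 := dist_edge 0 ()
    rw [h0] at h1
    simp only [Nat.cast_zero, zero_div, add_zero, Real.sqrt_one, mul_one, Nat.cast_one] at hT h1
    linarith
  | succ k ih =>
    intro g s hs hg T hT
    set A : ℝ := s * √(1 + (k : ℝ) / 4) with hA
    have hk0 : (0 : ℝ) ≤ 1 + (k : ℝ) / 4 := by positivity
    have hApos : 0 < A := by
      rw [hA]; exact mul_pos hs (Real.sqrt_pos.2 (by positivity))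
    have hAsq : A ^ 2 = s ^ 2 * (1 + (k : ℝ) / 4) := by
      rw [hA, mul_pow, Real.sq_sqrt hk0]
    have hRHS : s * √(1 + ((k + 1 : ℕ) : ℝ) / 4) = √(A ^ 2 + s ^ 2 / 4) := by
      rw [hAsq, show s ^ 2 * (1 + (k : ℝ) / 4) + s ^ 2 / 4 = s ^ 2 * (1 + ((k + 1 : ℕ) : ℝ) / 4) by
        push_cast; ring]
      rw [Real.sqrt_mul (by positivity), Real.sqrt_sq hs.le]
    rw [hRHS] at hT
    -- pass to a nonnegative level
    set T' : ℝ := max T 0 with hT'
    have hTT' : T ≤ T' := le_max_left _ _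
    have hT'0 : 0 ≤ T' := le_max_right _ _
    have hsqrtpos : 0 < √(A ^ 2 + s ^ 2 / 4) := Real.sqrt_pos.2 (by positivity)
    have hT'lt : T' < √(A ^ 2 + s ^ 2 / 4) := max_lt hT hsqrtpos
    have hT'sq : T' ^ 2 < A ^ 2 + s ^ 2 / 4 :=
      (Real.lt_sqrt hT'0).1 hT'lt
    -- the level for the previous graph
    set δ : ℝ := (A ^ 2 + s ^ 2 / 4 - T' ^ 2) / 2 with hδ
    have hδpos : 0 < δ := by rw [hδ]; linarith
    set T₁ : ℝ := √(max 0 (A ^ 2 - δ)) with hT₁
    have hT₁0 : 0 ≤ T₁ := Real.sqrt_nonneg _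
    have hT₁sq : T₁ ^ 2 = max 0 (A ^ 2 - δ) := Real.sq_sqrt (le_max_left _ _)
    have hT₁lt : T₁ < A := by
      rw [hT₁, Real.sqrt_lt' hApos]
      refine max_lt (by positivity) (by linarith)
    have hT₁big : A ^ 2 - δ ≤ T₁ ^ 2 := by rw [hT₁sq]; exact le_max_right _ _
    -- apply the induction hypothesis to the left vertices with doubled scale
    obtain ⟨e₀, he₀⟩ := ih (fun w => g (vL w)) (2 * s) (by positivity) (fun u v => by
        have h1 := hg (vL u) (vL v)
        have h2 := two_dist_le k u v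
        calc 2 * s * ((diamondGraph k).dist u v : ℝ)
            = s * (2 * ((diamondGraph k).dist u v : ℝ)) := by ring
          _ ≤ s * ((diamondGraph (k + 1)).dist (vL u) (vL v) : ℝ) := by gcongr
          _ ≤ _ := h1) (2 * T₁) (by
        have : 2 * s * √(1 + (k : ℝ) / 4) = 2 * A := by rw [hA]; ring
        rw [this]
        linarith)
    set u : Y := g (vL (diamondSrc k e₀)) with hu
    set v : Y := g (vL (diamondTgt k e₀)) with hv
    have hx : T₁ ≤ ‖(1 / 2 : ℝ) • (v - u)‖ := by
      rw [norm_smul, norm_sub_rev v u]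
      simp only [Real.norm_eq_abs, abs_of_pos (by norm_num : (0 : ℝ) < 1 / 2)]
      linarith
    have hlt : T' < √(‖(1 / 2 : ℝ) • (v - u)‖ ^ 2 + s ^ 2 / 4) := by
      rw [Real.lt_sqrt hT'0]
      have : T₁ ^ 2 ≤ ‖(1 / 2 : ℝ) • (v - u)‖ ^ 2 := by gcongr
      nlinarith
    obtain ⟨i, hi⟩ := diamond_step hR hTC u v (fun i => g (vM e₀ i)) hs (fun i j hij => by
        have h1 := hg (vM e₀ i) (vM e₀ j)
        have h2 : (2 : ℝ) ≤ ((diamondGraph (k + 1)).dist (vM e₀ i) (vM e₀ j) : ℝ) := by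
          exact_mod_cast two_le_dist_mid e₀ hij
        calc 2 * s = s * 2 := by ring
          _ ≤ s * ((diamondGraph (k + 1)).dist (vM e₀ i) (vM e₀ j) : ℝ) := by gcongr
          _ ≤ _ := h1) hlt
    rcases hi with hi | hi
    · refine ⟨eF e₀ i, ?_⟩
      rw [src_eF, tgt_eF, norm_sub_rev]
      exact hTT'.trans hi
    · refine ⟨eT e₀ i, ?_⟩
      rw [src_eT, tgt_eT, norm_sub_rev]
      exact hTT'.trans hi

/-- The distortion lower bound. -/
theorem distortion_bound
    (hR : Function.Surjective (NormedSpace.inclusionInDoubleDual ℝ Y)) (hTC : TC Y)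
    (k : ℕ) (f : DiamondVertex k → Y) (D s : ℝ) (hs : 0 < s)
    (hf : ∀ u v, s * ((diamondGraph k).dist u v : ℝ) ≤ ‖f u - f v‖ ∧
      ‖f u - f v‖ ≤ D * s * ((diamondGraph k).dist u v : ℝ)) :
    1 + (k : ℝ) / 4 ≤ D ^ 2 := by
  have hkey : s * √(1 + (k : ℝ) / 4) ≤ D * s := by
    refine le_of_forall_lt_imp_le_of_dense fun T hT => ?_
    obtain ⟨e, he⟩ := diamond_claim hR hTC k f s hs (fun u v => (hf u v).1) T hT
    have h1 := (hf (diamondSrc k e) (diamondTgt k e)).2
    rw [dist_edge] at h1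
    simp only [Nat.cast_one, mul_one] at h1
    linarith
  have hk0 : (0 : ℝ) ≤ 1 + (k : ℝ) / 4 := by positivity
  have h2 : √(1 + (k : ℝ) / 4) ≤ D := by
    have : √(1 + (k : ℝ) / 4) * s ≤ D * s := by linarith [mul_comm s (√(1 + (k : ℝ) / 4))]
    exact le_of_mul_le_mul_right this hs
  have h3 : 0 ≤ D := (Real.sqrt_nonneg _).trans h2
  exact (Real.sqrt_le_left h3).1 h2

end Main

end Crest.Agent.Lib.DiamondGen
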