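import Crest.Agent.Lib.QuadricFlow

/-!
# A Hamiltonian flow on the quadric threefold: the cut-off field, its flow, and fixed points
-/

set_option autoImplicit false

namespace Crest.Agent.Lib.QuadricDyn

open Crest.GeometryTopology.Quadric Crest.Agent.Lib.SmoothFlow Crest.Agent.Lib.QuadricFlow
open Complex ComplexConjugate Set Filter Topology
open scoped NNReal ContDiff

/-- The squared Hermitian norm. -/
noncomputable def nsq (z : V) : ℝ := ∑ j, normSq (z j)

theorem herm_self (z : V) : herm z z = (nsq z : ℂ) := by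
  simp only [herm, nsq]
  push_cast
  refine Finset.sum_congr rfl fun j _ => ?_
  rw [Complex.normSq_eq_conj_mul_self]

/-- The profile of the cut-off. -/
noncomputable def ψb : ContDiffBump (0 : ℝ) := ⟨2, 3, by norm_num, by norm_num⟩

/-- The cut-off function. -/
noncomputable def χf (z : V) : ℝ := ψb (nsq z)

/-- The cut-off Hamiltonian vector field. -/
noncomputable def XF (z : V) : V := χf z • X0 z

theorem contDiff_coord (j : Fin 5) : ContDiff ℝ ∞ (fun z : V => z j) :=
  contDiff_apply ℝ ℂ j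

theorem contDiff_conjc (j : Fin 5) : ContDiff ℝ ∞ (fun z : V => conj (z j)) :=
  Complex.conjCLE.contDiff.comp (contDiff_coord j)

theorem contDiff_nsq : ContDiff ℝ ∞ nsq := by
  unfold nsq
  refine ContDiff.sum fun j _ => ?_
  simp only [Complex.normSq_apply]
  have h1 : ContDiff ℝ ∞ (fun z : V => (z j).re) := Complex.reCLM.contDiff.comp (contDiff_coord j)
  have h2 : ContDiff ℝ ∞ (fun z : V => (z j).im) := Complex.imCLM.contDiff.comp (contDiff_coord j)
  exact (h1.mul h1).add (h2.mul h2)

theorem contDiff_Hf : ContDiff ℝ ∞ Hf := by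
  have h : ContDiff ℝ ∞ (fun z : V => conj (z 2) * (z 1 - I * z 0)) :=
    (contDiff_conjc 2).mul ((contDiff_coord 1).sub (contDiff_const.mul (contDiff_coord 0)))
  exact Complex.reCLM.contDiff.comp h

theorem contDiff_Bz : ContDiff ℝ ∞ Bz := by
  rw [contDiff_pi]
  intro j
  fin_cases j
  · show ContDiff ℝ ∞ (fun z : V => I * z 2 / 2)
    exact (contDiff_const.mul (contDiff_coord 2)).div_const _
  · show ContDiff ℝ ∞ (fun z : V => z 2 / 2)
    exact (contDiff_coord 2).div_const _
  · show ContDiff ℝ ∞ (fun z : V => (z 1 - I * z 0) / 2)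
    exact ((contDiff_coord 1).sub (contDiff_const.mul (contDiff_coord 0))).div_const _
  · exact contDiff_const
  · exact contDiff_const

theorem contDiff_ofReal' {E : Type*} [NormedAddCommGroup E] [NormedSpace ℝ E] {f : E → ℝ}
    (hf : ContDiff ℝ ∞ f) : ContDiff ℝ ∞ (fun x => (f x : ℂ)) :=
  Complex.ofRealCLM.contDiff.comp hf

theorem contDiff_X0 : ContDiff ℝ ∞ X0 := by
  rw [contDiff_pi]
  intro j
  unfold X0
  refine contDiff_const.mul ?_
  have h1 : ContDiff ℝ ∞ (fun z : V => Bz z j) := (contDiff_pi.mp contDiff_Bz) j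
  exact (h1.sub ((contDiff_ofReal' contDiff_Hf).mul (contDiff_coord j))).sub
    (((contDiff_coord 1).mul (contDiff_coord 2)).mul (contDiff_conjc j))

theorem contDiff_χf : ContDiff ℝ ∞ χf :=
  ψb.contDiff.comp contDiff_nsq

theorem contDiff_XF : ContDiff ℝ ∞ XF :=
  contDiff_χf.smul contDiff_X0

theorem normSq_coord_le_nsq (z : V) (j : Fin 5) : normSq (z j) ≤ nsq z :=
  Finset.single_le_sum (f := fun j => normSq (z j)) (fun _ _ => normSq_nonneg _) (Finset.mem_univ j)

theorem norm_sq_le_nsq (z : V) : ‖z‖ ^ 2 ≤ nsq z := by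
  have h0 : 0 ≤ nsq z := Finset.sum_nonneg fun _ _ => normSq_nonneg _
  have : ‖z‖ ≤ Real.sqrt (nsq z) := by
    rw [pi_norm_le_iff_of_nonneg (Real.sqrt_nonneg _)]
    intro j
    apply Real.le_sqrt_of_sq_le
    rw [← Complex.normSq_eq_norm_sq]
    exact normSq_coord_le_nsq z j
  calc ‖z‖ ^ 2 ≤ Real.sqrt (nsq z) ^ 2 := by
        exact pow_le_pow_left₀ (norm_nonneg _) this 2
    _ = nsq z := Real.sq_sqrt h0

theorem χf_eq_zero {z : V} (hz : 3 ≤ nsq z) : χf z = 0 := by
  apply ψb.zero_of_le_dist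
  rw [Real.dist_eq, sub_zero]
  exact hz.trans (le_abs_self _)

theorem χf_eq_one {z : V} (hz : nsq z ≤ 2) : χf z = 1 := by
  have h0 : 0 ≤ nsq z := Finset.sum_nonneg fun _ _ => normSq_nonneg _
  apply ψb.one_of_mem_closedBall
  rw [Metric.mem_closedBall, Real.dist_eq, sub_zero, abs_of_nonneg h0]
  exact hz

theorem χf_nonneg (z : V) : 0 ≤ χf z := ψb.nonneg

theorem χf_le_one (z : V) : χf z ≤ 1 := ψb.le_one

theorem hasCompactSupport_χf : HasCompactSupport χf := by
  refine HasCompactSupport.intro (isCompact_closedBall (0 : V) 2) fun z hz => ?_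
  apply χf_eq_zero
  rw [Metric.mem_closedBall, dist_zero_right, not_le] at hz
  have := pow_lt_pow_left₀ hz (by norm_num) (n := 2) (by norm_num)
  have h2 := norm_sq_le_nsq z
  linarith

theorem hasCompactSupport_XF : HasCompactSupport XF := by
  have : XF = (fun z => χf z • X0 z) := rfl
  rw [this]
  exact hasCompactSupport_χf.smul_right

theorem XF_eq_X0_of_mem {z : V} (hz : z ∈ unitCone) : XF z = X0 z := by
  have h1 : nsq z = 1 := by
    have := hz.1
    rw [herm_self] at this
    exact_mod_cast this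
  simp [XF, χf_eq_one (z := z) (by rw [h1]; norm_num)]

theorem nsq_smul {c : ℂ} (hc : ‖c‖ = 1) (z : V) : nsq (c • z) = nsq z := by
  have hc' : normSq c = 1 := by rw [Complex.normSq_eq_norm_sq, hc]; norm_num
  simp only [nsq, Pi.smul_apply, smul_eq_mul, map_mul, hc', one_mul]

theorem Hf_smul {c : ℂ} (hc : ‖c‖ = 1) (z : V) : Hf (c • z) = Hf z := by
  have hc' : conj c * c = 1 := by
    rw [Complex.conj_mul']
    simp [hc]
  simp only [Hf, Pi.smul_apply, smul_eq_mul, map_mul]
  have : conj c * conj (z 2) * (c * z 1 - I * (c * z 0)) =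
      (conj c * c) * (conj (z 2) * (z 1 - I * z 0)) := by ring
  rw [this, hc', one_mul]

theorem X0_smul {c : ℂ} (hc : ‖c‖ = 1) (z : V) : X0 (c • z) = c • X0 z := by
  have hc' : conj c * c = 1 := by
    rw [Complex.conj_mul']
    simp [hc]
  funext j
  simp only [X0, Pi.smul_apply, smul_eq_mul, Hf_smul hc, map_mul]
  have hB : Bz (c • z) j = c * Bz z j := by
    fin_cases j <;> simp [Bz] <;> ring
  rw [hB]
  linear_combination (I * (z 1 * z 2) * c * conj (z j)) * hc'

theorem XF_smul {c : ℂ} (hc : ‖c‖ = 1) (z : V) : XF (c • z) = c • XF z := by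
  simp only [XF, χf, nsq_smul hc, X0_smul hc]
  funext j
  simp only [Pi.smul_apply, Complex.real_smul, smul_eq_mul]
  ring

/-- The reflection in the last coordinate. -/
def Aflip (z : V) : V := ![z 0, z 1, z 2, z 3, -z 4]

theorem Aflip_Aflip (z : V) : Aflip (Aflip z) = z := by
  funext j
  fin_cases j <;> simp [Aflip]

theorem nsq_Aflip (z : V) : nsq (Aflip z) = nsq z := by
  simp [nsq, Aflip, Fin.sum_univ_five]

theorem Hf_Aflip (z : V) : Hf (Aflip z) = Hf z := by
  simp [Hf, Aflip]

theorem X0_Aflip (z : V) : X0 (Aflip z) = Aflip (X0 z) := by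
  have hH := Hf_Aflip z
  funext j
  simp only [X0, hH]
  fin_cases j <;> simp [Aflip, Bz, X0] <;> ring

theorem XF_Aflip (z : V) : XF (Aflip z) = Aflip (XF z) := by
  simp only [XF, χf, nsq_Aflip, X0_Aflip]
  funext j
  fin_cases j <;> simp [Aflip]

section Flow

variable {K M : ℝ≥0} (hK : LipschitzWith K XF) (hM : ∀ x, ‖XF x‖ ≤ M)

include hK hM

theorem flow_smul {c : ℂ} (hc : ‖c‖ = 1) (t : ℝ) (z : V) :
    flow XF t (c • z) = c • flow XF t z := by
  have hγ : ∀ u, HasDerivAt (fun u => c • flow XF u z) (XF (c • flow XF u z)) u := by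
    intro u
    rw [XF_smul hc]
    exact (hasDerivAt_flow hK hM u z).const_smul c
  have := flow_unique hK hM hγ 0 t
  simp only [sub_zero, flow_zero hK hM] at this
  exact this.symm

theorem flow_Aflip (t : ℝ) (z : V) :
    flow XF t (Aflip z) = Aflip (flow XF t z) := by
  have hγ : ∀ u, HasDerivAt (fun u => Aflip (flow XF u z)) (XF (Aflip (flow XF u z))) u := by
    intro u
    rw [XF_Aflip]
    rw [hasDerivAt_pi]
    have h := hasDerivAt_pi.mp (hasDerivAt_flow hK hM u z)
    intro j
    fin_cases j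
    · exact h 0
    · exact h 1
    · exact h 2
    · exact h 3
    · exact (h 4).neg
  have := flow_unique hK hM hγ 0 t
  simp only [sub_zero, flow_zero hK hM] at this
  exact this.symm

theorem flow_of_zero {z : V} (hz : XF z = 0) (t : ℝ) : flow XF t z = z := by
  have hγ : ∀ u : ℝ, HasDerivAt (fun _ : ℝ => z) (XF z) u := by
    intro u
    rw [hz]
    exact hasDerivAt_const u z
  have := flow_unique hK hM hγ 0 t
  simpa using this.symm

omit hK hM in
theorem hasDerivAt_herm {γ : ℝ → V} {v : V} {t : ℝ} (h : HasDerivAt γ v t) :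
    HasDerivAt (fun t => herm (γ t) (γ t)) (herm v (γ t) + herm (γ t) v) t := by
  have hc := hasDerivAt_pi.mp h
  have : ∀ j ∈ (Finset.univ : Finset (Fin 5)),
      HasDerivAt (fun t => conj (γ t j) * γ t j) (conj (v j) * γ t j + conj (γ t j) * v j) t := by
    intro j _
    have h1 : HasDerivAt (fun t => conj (γ t j)) (conj (v j)) t := (hc j).star
    exact h1.mul (hc j)
  have := HasDerivAt.fun_sum this
  simp only [herm]
  rw [← Finset.sum_add_distrib]
  exact this

omit hK hM in
theorem hasDerivAt_Gq {γ : ℝ → V} {v : V} {t : ℝ} (h : HasDerivAt γ v t) :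
    HasDerivAt (fun t => Gq (γ t)) (2 * ∑ j, γ t j * v j) t := by
  have hc := hasDerivAt_pi.mp h
  have : ∀ j ∈ (Finset.univ : Finset (Fin 5)),
      HasDerivAt (fun t => (γ t j) ^ 2) (2 * (γ t j * v j)) t := by
    intro j _
    have h1 := (hc j).fun_pow 2
    simpa [mul_assoc] using h1
  have := HasDerivAt.fun_sum this
  simp only [Gq]
  rw [Finset.mul_sum]
  exact this

omit hK hM in
theorem herm_smul_right (c : ℝ) (u v : V) : herm u (c • v) = (c : ℂ) * herm u v := by
  simp only [herm, Finset.mul_sum, Pi.smul_apply, Complex.real_smul]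
  refine Finset.sum_congr rfl fun j _ => ?_
  ring

omit hK hM in
theorem bil_smul_right (c : ℝ) (u v : V) :
    ∑ j, u j * (c • v) j = (c : ℂ) * ∑ j, u j * v j := by
  simp only [Finset.mul_sum, Pi.smul_apply, Complex.real_smul]
  refine Finset.sum_congr rfl fun j _ => ?_
  ring

omit hK hM in
theorem conj_herm (u v : V) : conj (herm u v) = herm v u := by
  simp only [herm, map_sum, map_mul, Complex.conj_conj]
  refine Finset.sum_congr rfl fun j _ => ?_
  ring

/-- The flow preserves the unit isotropic cone. -/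
theorem flow_mem_cone {z : V} (hz : z ∈ unitCone) (t : ℝ) : flow XF t z ∈ unitCone := by
  -- bounds for the coefficients
  obtain ⟨C, hC⟩ : ∃ C : ℝ, ∀ x : V, ‖χf x • ((Hf x : ℂ), x 1 * x 2)‖ ≤ C := by
    have hc : HasCompactSupport (fun x : V => χf x • ((Hf x : ℂ), x 1 * x 2)) :=
      hasCompactSupport_χf.smul_right
    have hcont : Continuous (fun x : V => χf x • ((Hf x : ℂ), x 1 * x 2)) := by
      refine contDiff_χf.continuous.smul ?_
      exact (contDiff_ofReal' contDiff_Hf).continuous.prodMk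
        ((contDiff_coord 1).continuous.mul (contDiff_coord 2).continuous)
    exact hc.exists_bound_of_continuous hcont
  have hC0 : 0 ≤ C := (norm_nonneg _).trans (hC 0)
  set γ : ℝ → V := fun t => flow XF t z with hγ
  have hγd : ∀ u, HasDerivAt γ (XF (γ u)) u := fun u => hasDerivAt_flow hK hM u z
  let e : ℝ → ℂ × ℂ := fun u => (herm (γ u) (γ u) - 1, Gq (γ u))
  have he : ∀ u, HasDerivAt e (herm (XF (γ u)) (γ u) + herm (γ u) (XF (γ u)),
      2 * ∑ j, γ u j * XF (γ u) j) u := by
    intro u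
    exact ((hasDerivAt_herm (hγd u)).sub_const 1).prodMk (hasDerivAt_Gq (hγd u))
  have hb : ∀ u, ‖((herm (XF (γ u)) (γ u) + herm (γ u) (XF (γ u)),
      2 * ∑ j, γ u j * XF (γ u) j) : ℂ × ℂ)‖ ≤ (4 * C) * ‖e u‖ + 0 := by
    intro u
    set x := γ u
    have hχ : ‖(χf x : ℂ) * (Hf x : ℂ)‖ ≤ C ∧ ‖(χf x : ℂ) * (x 1 * x 2)‖ ≤ C := by
      have h := hC x
      rw [Prod.smul_mk, Prod.norm_def] at h
      have h1 := (le_max_left _ _).trans h
      have h2 := (le_max_right _ _).trans h
      simp only [Complex.real_smul] at h1 h2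
      exact ⟨h1, h2⟩
    have e1 : ‖e u‖ = max ‖herm x x - 1‖ ‖Gq x‖ := rfl
    have hr1 : ‖herm x x - 1‖ ≤ ‖e u‖ := by rw [e1]; exact le_max_left _ _
    have hr2 : ‖Gq x‖ ≤ ‖e u‖ := by rw [e1]; exact le_max_right _ _
    have hcg : ‖conj (Gq x)‖ = ‖Gq x‖ := Complex.norm_conj _
    have hh : herm x (XF x) = I * (((χf x : ℂ) * (Hf x : ℂ)) * (herm x x - 1)
        + ((χf x : ℂ) * (x 1 * x 2)) * conj (Gq x)) := by
      simp only [XF]
      rw [herm_smul_right, herm_z_X0]
      ring
    have hn1 : ‖herm x (XF x)‖ ≤ 2 * C * ‖e u‖ := by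
      rw [hh, norm_mul, Complex.norm_I, one_mul]
      refine (norm_add_le _ _).trans ?_
      rw [norm_mul (_ * _) (herm x x - 1), norm_mul (_ * _) (conj (Gq x)), hcg]
      have e2 := mul_le_mul hχ.1 hr1 (norm_nonneg _) hC0
      have e3 := mul_le_mul hχ.2 hr2 (norm_nonneg _) hC0
      linarith
    have hb2 : ∑ j, x j * XF x j = I * (((χf x : ℂ) * (x 1 * x 2)) * (herm x x - 1)
        + ((χf x : ℂ) * (Hf x : ℂ)) * Gq x) := by
      simp only [XF]
      rw [bil_smul_right, bil_z_X0]
      ring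
    have hn2 : ‖∑ j, x j * XF x j‖ ≤ 2 * C * ‖e u‖ := by
      rw [hb2, norm_mul, Complex.norm_I, one_mul]
      refine (norm_add_le _ _).trans ?_
      rw [norm_mul (_ * _) (herm x x - 1), norm_mul (_ * _) (Gq x)]
      have e2 := mul_le_mul hχ.2 hr1 (norm_nonneg _) hC0
      have e3 := mul_le_mul hχ.1 hr2 (norm_nonneg _) hC0
      linarith
    rw [Prod.norm_def, add_zero]
    apply max_le
    · show ‖herm (XF x) x + herm x (XF x)‖ ≤ _
      refine (norm_add_le _ _).trans ?_
      have : ‖herm (XF x) x‖ = ‖herm x (XF x)‖ := by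
        rw [← conj_herm, Complex.norm_conj]
      rw [this]
      linarith
    · show ‖2 * ∑ j, x j * XF x j‖ ≤ _
      rw [norm_mul]
      simp only [Complex.norm_ofNat]
      linarith
  have he0 : e 0 = 0 := by
    have h0 : γ 0 = z := flow_zero hK hM z
    have h1 : herm z z = 1 := hz.1
    have h2 : Gq z = 0 := hz.2
    simp [e, h0, h1, h2]
  have hmain := norm_le_gronwall_two_sided (E := ℂ × ℂ) (f := e) (K := 4 * C) (ε := 0) (δ := 0)
    (T := |t|) (fun u _ => he u) (by rw [he0]; simp) (fun u _ => hb u) t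
    ⟨neg_abs_le t, le_abs_self t⟩
  rw [gronwallBound_ε0, zero_mul] at hmain
  have hzero : e t = 0 := norm_le_zero_iff.mp hmain
  have h1 : herm (γ t) (γ t) - 1 = 0 := congrArg Prod.fst hzero
  have h2 : Gq (γ t) = 0 := congrArg Prod.snd hzero
  exact ⟨sub_eq_zero.mp h1, h2⟩

omit hK hM in
theorem norm_herm_le (u v : V) : ‖herm u v‖ ≤ 5 * ‖u‖ * ‖v‖ := by
  simp only [herm]
  refine (norm_sum_le _ _).trans ?_
  have : ∀ j ∈ (Finset.univ : Finset (Fin 5)), ‖conj (u j) * v j‖ ≤ ‖u‖ * ‖v‖ := by
    intro j _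
    rw [norm_mul, Complex.norm_conj]
    exact mul_le_mul (norm_le_pi_norm u j) (norm_le_pi_norm v j) (norm_nonneg _) (norm_nonneg _)
  refine (Finset.sum_le_sum this).trans ?_
  simp
  linarith

/-- A Yorke-type estimate: a short orbit that closes up to a phase is a rest point. -/
theorem X0_eq_zero_of_closing {z : V} (hz : z ∈ unitCone) {T : ℝ} (hT : 0 < T)
    (hsmall : 5 * T * K * Real.exp (K * T) < 1) {c : ℂ} (hc : flow XF T z = c • z) :
    X0 z = 0 := by
  have hXz : XF z = X0 z := XF_eq_X0_of_mem hz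
  set v : V := XF z with hv
  have hG : Gq z = 0 := hz.2
  have h1 : herm z z = 1 := hz.1
  have hzv : herm z v = 0 := by
    rw [hXz, herm_z_X0, h1, hG]
    simp
  have hvz : herm v z = 0 := by
    rw [← conj_herm, hzv]
    simp
  have hflowd : ∀ u, HasDerivAt (fun u => flow XF u z) (XF (flow XF u z)) u :=
    fun u => hasDerivAt_flow hK hM u z
  have hf0 : flow XF 0 z = z := flow_zero hK hM z
  -- first estimate
  have hf : ∀ t ∈ Icc (-T) T, ‖flow XF t z - z‖ ≤ ‖v‖ * T * Real.exp (K * T) := by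
    intro t ht
    have habs : |t| ≤ T := abs_le.mpr ht
    have := norm_le_gronwall_two_sided (E := V) (f := fun u => flow XF u z - z)
      (f' := fun u => XF (flow XF u z)) (K := K) (ε := ‖v‖) (δ := 0) (T := T)
      (fun u _ => (hflowd u).sub_const z) (by simp [hf0])
      (fun u _ => by
        have h2 := hK.dist_le_mul (flow XF u z) z
        rw [dist_eq_norm, dist_eq_norm] at h2
        have h3 : ‖XF (flow XF u z)‖ ≤ ‖XF (flow XF u z) - v‖ + ‖v‖ := by
          have := norm_add_le (XF (flow XF u z) - v) v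
          rwa [sub_add_cancel] at this
        linarith) t ht
    refine this.trans ((gronwallBound_zero_le K.2 (norm_nonneg _) (abs_nonneg t)).trans ?_)
    have he : Real.exp (K * |t|) ≤ Real.exp (K * T) :=
      Real.exp_le_exp.mpr (mul_le_mul_of_nonneg_left habs K.2)
    have : ‖v‖ * |t| ≤ ‖v‖ * T := mul_le_mul_of_nonneg_left habs (norm_nonneg _)
    exact mul_le_mul this he (Real.exp_pos _).le (by positivity)
  -- second estimate
  set ε : ℝ := K * (‖v‖ * T * Real.exp (K * T)) with hε
  have hg : ‖flow XF T z - z - T • v‖ ≤ ε * T := by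
    have := norm_le_gronwall_two_sided (E := V) (f := fun u => flow XF u z - z - u • v)
      (f' := fun u => XF (flow XF u z) - v) (K := 0) (ε := ε) (δ := 0) (T := T)
      (fun u _ => by
        have h2 := ((hflowd u).sub_const z).fun_sub ((hasDerivAt_id u).smul_const v)
        simpa using h2)
      (by simp [hf0])
      (fun u hu => by
        have h2 := hK.dist_le_mul (flow XF u z) z
        rw [dist_eq_norm, dist_eq_norm] at h2
        have h3 := hf u hu
        have h4 : (K : ℝ) * ‖flow XF u z - z‖ ≤ ε :=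
          mul_le_mul_of_nonneg_left h3 K.2
        simp only [zero_mul, zero_add]
        linarith) T ⟨by linarith, le_rfl⟩
    rw [gronwallBound_K0] at this
    simpa [abs_of_pos hT] using this
  -- pairing with `v`
  have hpair : herm v (flow XF T z - z - T • v) = -((T : ℂ) * herm v v) := by
    rw [hc]
    simp only [herm, Finset.mul_sum, Pi.sub_apply, Pi.smul_apply, smul_eq_mul, Complex.real_smul]
    have h2 : ∀ j, conj (v j) * (c * z j - z j - (T : ℂ) * v j)
        = (c - 1) * (conj (v j) * z j) - (T : ℂ) * (conj (v j) * v j) := by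
      intro j; ring
    simp only [h2]
    rw [Finset.sum_sub_distrib, ← Finset.mul_sum]
    have : ∑ j, conj (v j) * z j = 0 := hvz
    rw [this]
    simp
  have hn : (T : ℝ) * nsq v ≤ 5 * ‖v‖ * (ε * T) := by
    have h2 := norm_herm_le v (flow XF T z - z - T • v)
    rw [hpair, norm_neg, norm_mul, herm_self] at h2
    have hnsq0 : 0 ≤ nsq v := Finset.sum_nonneg fun _ _ => normSq_nonneg _
    simp only [Complex.norm_real, Real.norm_eq_abs, abs_of_pos hT, abs_of_nonneg hnsq0] at h2
    refine h2.trans ?_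
    exact mul_le_mul_of_nonneg_left hg (by positivity)
  have hv2 := norm_sq_le_nsq v
  have hv0 : ‖v‖ ^ 2 * (T * (1 - 5 * T * K * Real.exp (K * T))) ≤ 0 := by
    have e1 : (T : ℝ) * ‖v‖ ^ 2 ≤ T * nsq v := mul_le_mul_of_nonneg_left hv2 hT.le
    have e2 : 5 * ‖v‖ * (ε * T) = ‖v‖ ^ 2 * (T * (5 * T * K * Real.exp (K * T))) := by
      rw [hε]; ring
    nlinarith
  have hpos : 0 < T * (1 - 5 * T * K * Real.exp (K * T)) := mul_pos hT (by linarith)
  have hvn : ‖v‖ ^ 2 ≤ 0 := by
    by_contra hne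
    push Not at hne
    have := mul_pos hne hpos
    linarith
  have hv00 : ‖v‖ = 0 := by
    have h2 := sq_nonneg ‖v‖
    exact pow_eq_zero_iff (n := 2) (by norm_num) |>.mp (le_antisymm hvn h2)
  rw [← hXz]
  exact norm_eq_zero.mp hv00

end Flow

end Crest.Agent.Lib.QuadricDyn
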