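import Crest.Agent.Lib.SmoothFlow
import Crest.Prelude.Def_QuadricHamiltonian

/-!
# A Hamiltonian flow on the quadric threefold with exactly three fixed points: pointwise algebra
-/

set_option autoImplicit false

namespace Crest.Agent.Lib.QuadricFlow

open Crest.GeometryTopology.Quadric Crest.Agent.Lib.SmoothFlow
open Complex ComplexConjugate Set Filter Topology
open scoped NNReal ContDiff

/-- Complex five-space. -/
abbrev V := Fin 5 → ℂ

/-- The sum of squares. -/
def Gq (z : V) : ℂ := ∑ j, z j ^ 2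

/-- The Hermitian matrix of the Hamiltonian applied to `z`. -/
noncomputable def Bz (z : V) : V := ![I * z 2 / 2, z 2 / 2, (z 1 - I * z 0) / 2, 0, 0]

/-- The Hamiltonian. -/
noncomputable def Hf (z : V) : ℝ := (conj (z 2) * (z 1 - I * z 0)).re

/-- The Hamiltonian vector field (uncut). -/
noncomputable def X0 (z : V) : V :=
  fun j => -I * (Bz z j - (Hf z : ℂ) * z j - (z 1 * z 2) * conj (z j))

theorem Hf_eq (z : V) : ((Hf z : ℝ) : ℂ) =
    (conj (z 2) * (z 1 - I * z 0) + conj (conj (z 2) * (z 1 - I * z 0))) / 2 := by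
  rw [Complex.add_conj]
  simp [Hf]

theorem herm_z_Bz (z : V) : herm z (Bz z) = (Hf z : ℂ) := by
  rw [Hf_eq]
  simp only [herm, Bz, Fin.sum_univ_five]
  simp
  ring

theorem bil_z_Bz (z : V) : ∑ j, z j * Bz z j = z 1 * z 2 := by
  simp only [Bz, Fin.sum_univ_five]
  simp
  ring

theorem conj_Gq (z : V) : conj (Gq z) = ∑ j, (conj (z j)) ^ 2 := by
  simp [Gq, map_sum, map_pow]

theorem herm_z_X0 (z : V) :
    herm z (X0 z) = I * ((Hf z : ℂ) * (herm z z - 1) + (z 1 * z 2) * conj (Gq z)) := by
  have h := herm_z_Bz z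
  rw [conj_Gq, ← sub_eq_zero]
  have e : herm z (X0 z) = -I * (herm z (Bz z) - (Hf z : ℂ) * herm z z
      - (z 1 * z 2) * ∑ j, (conj (z j)) ^ 2) := by
    simp only [herm, X0, Fin.sum_univ_five]
    ring
  rw [e, h]
  ring

theorem bil_z_X0 (z : V) :
    ∑ j, z j * X0 z j = I * ((z 1 * z 2) * (herm z z - 1) + (Hf z : ℂ) * Gq z) := by
  have h := bil_z_Bz z
  have e : ∑ j, z j * X0 z j = -I * (∑ j, z j * Bz z j - (Hf z : ℂ) * Gq z
      - (z 1 * z 2) * herm z z) := by
    simp only [herm, Gq, X0, Fin.sum_univ_five]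
    ring
  rw [e, h]
  ring

/-- Hamilton's equation for `X0`, on the cone. -/
theorem hamilton_X0 {y w : V} (hw : w ∈ coneTangent y) :
    2 * (herm (X0 y) w).im =
      (conj (w 2) * (y 1 - I * y 0)).re + (conj (y 2) * (w 1 - I * w 0)).re := by
  have e : herm (X0 y) w = I * (herm (Bz y) w - (Hf y : ℂ) * herm y w
      - conj (y 1 * y 2) * ∑ j, y j * w j) := by
    simp only [herm, X0, Fin.sum_univ_five]
    simp only [map_mul, map_sub, map_neg, conj_I, conj_ofReal, Complex.conj_conj]
    ring
  rw [e, hw.2]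
  have h1 : herm (Bz y) w =
      (conj (y 2) * (w 1 - I * w 0) + conj (y 1 - I * y 0) * w 2) / 2 := by
    simp only [herm, Bz, Fin.sum_univ_five]
    simp [Complex.conj_ofNat]
    ring
  rw [h1]
  have hw1 : (herm y w).re = 0 := hw.1
  have h2 : (conj (y 1 - I * y 0) * w 2).re = (conj (w 2) * (y 1 - I * y 0)).re := by
    simp only [Complex.mul_re, Complex.conj_re, Complex.conj_im]
    ring
  have h3 : ((conj (y 2) * (w 1 - I * w 0) + conj (y 1 - I * y 0) * w 2) / 2).re =
      ((conj (y 2) * (w 1 - I * w 0)).re + (conj (y 1 - I * y 0) * w 2).re) / 2 := by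
    rw [Complex.div_ofNat_re, Complex.add_re]
  rw [Complex.I_mul_im, mul_zero, sub_zero, Complex.sub_re, h3, h2, Complex.re_ofReal_mul, hw1]
  ring

/-- `1/√2` as a complex number. -/
noncomputable def σc : ℂ := ((Real.sqrt 2)⁻¹ : ℝ)

/-- `√3` as a complex number. -/
noncomputable def τc : ℂ := (Real.sqrt 3 : ℝ)

theorem σc_sq : σc ^ 2 = 1 / 2 := by
  rw [σc, ← Complex.ofReal_pow, inv_pow, Real.sq_sqrt (by norm_num)]
  push_cast
  norm_num

theorem τc_sq : τc ^ 2 = 3 := by
  rw [τc, ← Complex.ofReal_pow, Real.sq_sqrt (by norm_num)]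
  norm_num

theorem conj_σc : conj σc = σc := by simp [σc]

theorem conj_τc : conj τc = τc := by simp [τc]

theorem σc_ne : σc ≠ 0 := by
  intro h
  have := σc_sq
  rw [h] at this
  norm_num at this

/-- The degenerate fixed point. -/
noncomputable def zb : V := ![σc, σc * I, 0, 0, 0]

/-- The first nondegenerate fixed point. -/
noncomputable def zp : V := ![σc, -I * σc / 2, I * τc * σc / 2, 0, 0]

/-- The second nondegenerate fixed point. -/
noncomputable def zm : V := ![σc, -I * σc / 2, -I * τc * σc / 2, 0, 0]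

theorem classification {z : V} (hz : z ∈ unitCone) (h4 : z 4 = 0) (hX : X0 z = 0) :
    ∃ a : ℂ, a ≠ 0 ∧ (z = a • zb ∨ z = a • zp ∨ z = a • zm) := by
  obtain ⟨hn, hG⟩ := hz
  simp only [Fin.sum_univ_five] at hG
  set l : ℝ := Hf z with hl
  set μ : ℂ := z 1 * z 2 with hμ
  have key : ∀ j, Bz z j = (l : ℂ) * z j + μ * conj (z j) := by
    intro j
    have := congrFun hX j
    simp only [X0, Pi.zero_apply] at this
    have h2 := (mul_eq_zero.mp this).resolve_left (by simp [I_ne_zero])
    linear_combination h2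
  have E0 : I * z 2 / 2 = (l : ℂ) * z 0 + μ * conj (z 0) := key 0
  have E1 : z 2 / 2 = (l : ℂ) * z 1 + μ * conj (z 1) := key 1
  have E2 : (z 1 - I * z 0) / 2 = (l : ℂ) * z 2 + μ * conj (z 2) := key 2
  have E3 : (0 : ℂ) = (l : ℂ) * z 3 + μ * conj (z 3) := key 3
  set p : ℂ := z 0 + I * z 1 with hp
  set q : ℂ := z 0 - I * z 1 with hq
  clear_value p q
  have hpc : conj p = conj (z 0) - I * conj (z 1) := by
    simp only [hp, map_add, map_mul, conj_I]; ring
  have hqc : conj q = conj (z 0) + I * conj (z 1) := by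
    simp only [hq, map_sub, map_mul, conj_I]; ring
  have Q : (l : ℂ) * q + μ * conj p = 0 := by
    rw [hpc, hq]
    linear_combination -E0 + I * E1
  have P : I * z 2 = (l : ℂ) * p + μ * conj q := by
    rw [hqc, hp]
    linear_combination E0 + I * E1
  have E2' : -I * p / 2 = (l : ℂ) * z 2 + μ * conj (z 2) := by
    rw [hp]
    linear_combination E2 + (z 1 / 2) * (-I_sq)
  have G' : p * q + z 2 ^ 2 + z 3 ^ 2 = 0 := by
    rw [hp, hq]
    linear_combination hG - (z 1) ^ 2 * I_sq - z 4 * h4
  have hz0 : z 0 = (p + q) / 2 := by rw [hp, hq]; ring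
  have hz1 : z 1 = -I * (p - q) / 2 := by
    rw [hp, hq]
    linear_combination (z 1) * I_sq
  have hne : ¬ (z 0 = 0 ∧ z 1 = 0 ∧ z 2 = 0 ∧ z 3 = 0) := by
    rintro ⟨h0, h1, h2, h3⟩
    simp [herm, Fin.sum_univ_five, h0, h1, h2, h3, h4] at hn
  by_cases hp0 : p = 0
  · -- the degenerate line
    have hq0 : q ≠ 0 := by
      intro hq0
      have h0 : z 0 = 0 := by rw [hz0, hp0, hq0]; simp
      have h1 : z 1 = 0 := by rw [hz1, hp0, hq0]; simp
      have hμ0 : μ = 0 := by rw [hμ, h1]; simp
      have hl0 : (l : ℂ) = 0 := by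
        have : l = 0 := by
          simp [hl, Hf, h0, h1]
        simp [this]
      have h2 : z 2 = 0 := by
        have := P
        rw [hμ0, hl0] at this
        simpa [I_ne_zero] using this
      have h3 : z 3 = 0 := by
        have := G'
        rw [hp0, h2] at this
        simpa using this
      exact hne ⟨h0, h1, h2, h3⟩
    have hl0 : (l : ℂ) = 0 := by
      have := Q
      rw [hp0] at this
      simpa [hq0] using this
    have h2 : z 2 = 0 := by
      by_cases hμ0 : μ = 0
      · have := P
        rw [hμ0, hl0] at this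
        simpa [I_ne_zero] using this
      · have := E2'
        rw [hp0, hl0] at this
        simp [hμ0] at this
        simpa using this
    have h3 : z 3 = 0 := by
      have := G'
      rw [hp0, h2] at this
      simpa using this
    refine ⟨q * σc, mul_ne_zero hq0 σc_ne, Or.inl ?_⟩
    funext j
    fin_cases j
    · show z 0 = q * σc * σc
      rw [hz0, hp0]
      linear_combination (-q) * σc_sq
    · show z 1 = q * σc * (σc * I)
      rw [hz1, hp0]
      linear_combination (-q * I) * σc_sq
    · show z 2 = q * σc * 0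
      simp [h2]
    · show z 3 = q * σc * 0
      simp [h3]
    · show z 4 = q * σc * 0
      simp [h4]
  · -- the nondegenerate lines
    have hl0 : (l : ℂ) ≠ 0 := by
      intro hl0
      have hμ0 : μ = 0 := by
        have := Q
        rw [hl0] at this
        have h3 : conj p ≠ 0 := by simpa using hp0
        simpa [h3] using this
      have := E2'
      rw [hl0, hμ0] at this
      apply hp0
      have h5 : -I * p / 2 = 0 := by simpa using this
      simpa [I_ne_zero] using h5
    have hlr : l ≠ 0 := by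
      intro h
      exact hl0 (by simp [h])
    set κ : ℂ := μ / (l : ℂ) with hκ
    have hμκ : μ = (l : ℂ) * κ := by rw [hκ]; field_simp
    set n : ℝ := normSq κ with hn'
    have hκκ : κ * conj κ = (n : ℂ) := Complex.mul_conj κ
    clear_value κ n
    have Q' : q = -κ * conj p := by
      have : (l : ℂ) * (q + κ * conj p) = 0 := by
        rw [← Q, hμκ]; ring
      have h3 := (mul_eq_zero.mp this).resolve_left hl0
      linear_combination h3
    have Qc : conj q = -conj κ * p := by
      rw [Q']
      simp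
    have h2a : z 2 = -I * (l : ℂ) * (1 - (n : ℂ)) * p := by
      have : I * z 2 = (l : ℂ) * (1 - (n : ℂ)) * p := by
        rw [P, hμκ, Qc, ← hκκ]
        ring
      linear_combination (-I) * this + (z 2) * I_sq
    have h2c : conj (z 2) = I * (l : ℂ) * (1 - (n : ℂ)) * conj p := by
      rw [h2a]
      simp
    have h3 : z 3 = 0 := by
      by_contra h3
      have e3 : z 3 = -κ * conj (z 3) := by
        have : (l : ℂ) * (z 3 + κ * conj (z 3)) = 0 := by
          rw [hμκ] at E3
          linear_combination -E3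
        have h5 := (mul_eq_zero.mp this).resolve_left hl0
        linear_combination h5
      have e4 : normSq (z 3) = n * normSq (z 3) := by
        have h5 := congrArg normSq e3
        simpa [map_mul, normSq_conj, hn'] using h5
      have hns : normSq (z 3) ≠ 0 := by simpa [normSq_eq_zero] using h3
      have hn1 : n = 1 := by
        have : (n - 1) * normSq (z 3) = 0 := by linarith
        have := (mul_eq_zero.mp this).resolve_right hns
        linarith
      have h20 : z 2 = 0 := by
        rw [h2a, hn1]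
        simp
      have := E2'
      rw [h20] at this
      apply hp0
      have h5 : -I * p / 2 = 0 := by simpa using this
      simpa [I_ne_zero] using h5
    -- the two real relations
    set A : ℝ := l ^ 2 * (1 - n) with hA
    set B : ℝ := l ^ 2 * (1 - n) ^ 2 with hB
    have hAc : ((A : ℝ) : ℂ) = (l : ℂ) ^ 2 * (1 - (n : ℂ)) := by
      simp [hA]
    have hBc : ((B : ℝ) : ℂ) = (l : ℂ) ^ 2 * (1 - (n : ℂ)) ^ 2 := by
      simp [hB]
    have hq' : q = (B : ℂ) * p := by
      have h5 : p * q = p * ((B : ℂ) * p) := by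
        rw [hBc]
        have : p * q = - z 2 ^ 2 := by
          rw [h3] at G'
          linear_combination G'
        rw [this, h2a]
        linear_combination (-((l : ℂ) ^ 2 * (1 - (n : ℂ)) ^ 2 * p ^ 2)) * I_sq
      exact mul_left_cancel₀ hp0 h5
    have hκp : κ * conj p = -q := by rw [Q']; ring
    have hp2 : p / 2 = (A : ℂ) * (p + q) := by
      have h5 : -I * (p / 2) = -I * ((A : ℂ) * (p + q)) := by
        have : -I * p / 2 = (l : ℂ) * z 2 + μ * conj (z 2) := E2'
        rw [h2c, h2a, hμκ] at this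
        rw [hAc]
        linear_combination this + (I * (l : ℂ) ^ 2 * (1 - (n : ℂ))) * hκp
      exact mul_left_cancel₀ (by simp [I_ne_zero]) h5
    have hAB : A * (1 + B) = 1 / 2 := by
      have : ((A * (1 + B) : ℝ) : ℂ) = ((1 / 2 : ℝ) : ℂ) := by
        push_cast
        apply mul_right_cancel₀ hp0
        rw [hq'] at hp2
        linear_combination -hp2
      exact_mod_cast this
    have hBn : B ^ 2 = n := by
      have h5 : normSq q = n * normSq p := by
        rw [Q', map_mul, normSq_neg, normSq_conj, hn']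
      have h6 : normSq q = B ^ 2 * normSq p := by
        rw [hq', map_mul, normSq_ofReal]
        ring
      have hns : normSq p ≠ 0 := by simpa [normSq_eq_zero] using hp0
      exact mul_right_cancel₀ hns (h6.symm.trans h5)
    have hB0 : 0 ≤ B := by positivity
    have hBA : B = A * (1 - n) := by rw [hA, hB]; ring
    have hB3 : B = 1 / 3 := by
      rw [← hBn] at hBA
      have e : A * (1 - B ^ 2) = (A * (1 + B)) * (1 - B) := by ring
      rw [e, hAB] at hBA
      linarith
    have hn9 : n = 1 / 9 := by rw [← hBn, hB3]; norm_num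
    have hA8 : A = 3 / 8 := by
      rw [hB3] at hAB
      linarith
    have hl2 : l ^ 2 = 27 / 64 := by
      have : l ^ 2 * (1 - n) = 3 / 8 := by rw [← hA8]
      rw [hn9] at this
      linarith
    have ht2 : Real.sqrt 3 ^ 2 = 3 := Real.sq_sqrt (by norm_num)
    have hfac : (l - 3 * Real.sqrt 3 / 8) * (l + 3 * Real.sqrt 3 / 8) = 0 := by
      nlinarith
    have hqp : q = p / 3 := by
      rw [hq', hB3]
      push_cast
      ring
    have hnc : (n : ℂ) = 1 / 9 := by rw [hn9]; push_cast; ring
    have hz00 : z 0 = 2 / 3 * p := by rw [hz0, hqp]; ring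
    have hz11 : z 1 = -I * p / 3 := by rw [hz1, hqp]; ring
    rcases mul_eq_zero.mp hfac with h | h
    · -- `l > 0`
      have hlc : (l : ℂ) = 3 * τc / 8 := by
        have : l = 3 * Real.sqrt 3 / 8 := by linarith
        rw [this, τc]
        push_cast
        ring
      refine ⟨4 / 3 * p * σc, mul_ne_zero (mul_ne_zero (by norm_num) hp0) σc_ne, Or.inr (Or.inr ?_)⟩
      funext j
      fin_cases j
      · show z 0 = 4 / 3 * p * σc * σc
        rw [hz00]
        linear_combination (-(4 / 3) * p) * σc_sq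
      · show z 1 = 4 / 3 * p * σc * (-I * σc / 2)
        rw [hz11]
        linear_combination (2 / 3 * p * I) * σc_sq
      · show z 2 = 4 / 3 * p * σc * (-I * τc * σc / 2)
        rw [h2a, hlc, hnc]
        linear_combination (2 / 3 * p * I * τc) * σc_sq
      · show z 3 = 4 / 3 * p * σc * 0
        simp [h3]
      · show z 4 = 4 / 3 * p * σc * 0
        simp [h4]
    · have hlc : (l : ℂ) = -(3 * τc / 8) := by
        have : l = -(3 * Real.sqrt 3 / 8) := by linarith
        rw [this, τc]
        push_cast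
        ring
      refine ⟨4 / 3 * p * σc, mul_ne_zero (mul_ne_zero (by norm_num) hp0) σc_ne, Or.inr (Or.inl ?_)⟩
      funext j
      fin_cases j
      · show z 0 = 4 / 3 * p * σc * σc
        rw [hz00]
        linear_combination (-(4 / 3) * p) * σc_sq
      · show z 1 = 4 / 3 * p * σc * (-I * σc / 2)
        rw [hz11]
        linear_combination (2 / 3 * p * I) * σc_sq
      · show z 2 = 4 / 3 * p * σc * (I * τc * σc / 2)
        rw [h2a, hlc, hnc]
        linear_combination (-(2 / 3) * p * I * τc) * σc_sq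
      · show z 3 = 4 / 3 * p * σc * 0
        simp [h3]
      · show z 4 = 4 / 3 * p * σc * 0
        simp [h4]

theorem Hf_zb : Hf zb = 0 := by
  simp [Hf, zb]

theorem Hf_zp : ((Hf zp : ℝ) : ℂ) = -(3 * τc / 8) := by
  rw [Hf_eq]
  simp only [zp, map_div₀, map_mul, map_sub, map_neg, conj_I, conj_σc, conj_τc, Complex.conj_ofNat]
  simp only [Matrix.cons_val]
  simp only [map_div₀, map_mul, map_sub, map_neg, conj_I, conj_σc, conj_τc, Complex.conj_ofNat]
  linear_combination (-(3 / 4 : ℂ) * τc) * σc_sq + (3 / 8 * τc * σc ^ 2 * 2) * I_sq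

theorem Hf_zm : ((Hf zm : ℝ) : ℂ) = 3 * τc / 8 := by
  rw [Hf_eq]
  simp only [zm, Matrix.cons_val]
  simp only [map_div₀, map_mul, map_sub, map_neg, conj_I, conj_σc, conj_τc, Complex.conj_ofNat]
  linear_combination ((3 / 4 : ℂ) * τc) * σc_sq - (3 / 8 * τc * σc ^ 2 * 2) * I_sq

theorem X0_eq_zero_of {z : V} (h : ∀ j, Bz z j = (Hf z : ℂ) * z j + (z 1 * z 2) * conj (z j)) :
    X0 z = 0 := by
  funext j
  simp only [X0, Pi.zero_apply]
  rw [h j]
  ring

theorem X0_zb : X0 zb = 0 := by
  apply X0_eq_zero_of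
  intro j
  rw [Hf_zb]
  fin_cases j <;> simp [Bz, zb] <;> ring

theorem X0_zp : X0 zp = 0 := by
  apply X0_eq_zero_of
  rw [Hf_zp]
  have hμ : zp 1 * zp 2 = τc / 8 := by
    show (-I * σc / 2) * (I * τc * σc / 2) = τc / 8
    linear_combination (-τc * σc ^ 2 / 4) * I_sq + (τc / 4) * σc_sq
  rw [hμ]
  intro j
  fin_cases j
  · show I * (I * τc * σc / 2) / 2 = -(3 * τc / 8) * σc + τc / 8 * conj σc
    rw [conj_σc]
    linear_combination (τc * σc / 4) * I_sq
  · show (I * τc * σc / 2) / 2 = -(3 * τc / 8) * (-I * σc / 2) + τc / 8 * conj (-I * σc / 2)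
    simp only [map_div₀, map_mul, map_neg, conj_I, conj_σc, Complex.conj_ofNat]
    ring
  · show ((-I * σc / 2) - I * σc) / 2 = -(3 * τc / 8) * (I * τc * σc / 2)
        + τc / 8 * conj (I * τc * σc / 2)
    simp only [map_div₀, map_mul, conj_I, conj_σc, conj_τc, Complex.conj_ofNat]
    linear_combination (I * σc / 4) * τc_sq
  · show (0 : ℂ) = -(3 * τc / 8) * 0 + τc / 8 * conj 0
    simp
  · show (0 : ℂ) = -(3 * τc / 8) * 0 + τc / 8 * conj 0
    simp

theorem X0_zm : X0 zm = 0 := by
  apply X0_eq_zero_of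
  rw [Hf_zm]
  have hμ : zm 1 * zm 2 = -(τc / 8) := by
    show (-I * σc / 2) * (-I * τc * σc / 2) = -(τc / 8)
    linear_combination (τc * σc ^ 2 / 4) * I_sq - (τc / 4) * σc_sq
  rw [hμ]
  intro j
  fin_cases j
  · show I * (-I * τc * σc / 2) / 2 = (3 * τc / 8) * σc + -(τc / 8) * conj σc
    rw [conj_σc]
    linear_combination (-τc * σc / 4) * I_sq
  · show (-I * τc * σc / 2) / 2 = (3 * τc / 8) * (-I * σc / 2) + -(τc / 8) * conj (-I * σc / 2)
    simp only [map_div₀, map_mul, map_neg, conj_I, conj_σc, Complex.conj_ofNat]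
    ring
  · show ((-I * σc / 2) - I * σc) / 2 = (3 * τc / 8) * (-I * τc * σc / 2)
        + -(τc / 8) * conj (-I * τc * σc / 2)
    simp only [map_div₀, map_mul, map_neg, conj_I, conj_σc, conj_τc, Complex.conj_ofNat]
    linear_combination (I * σc / 4) * τc_sq
  · show (0 : ℂ) = (3 * τc / 8) * 0 + -(τc / 8) * conj 0
    simp
  · show (0 : ℂ) = (3 * τc / 8) * 0 + -(τc / 8) * conj 0
    simp

theorem zb_mem : zb ∈ unitCone := by
  constructor
  · simp only [herm, Fin.sum_univ_five, zb]
    simp only [Matrix.cons_val]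
    simp only [map_mul, conj_I, conj_σc, map_zero]
    linear_combination 2 * σc_sq - (σc ^ 2) * I_sq
  · simp only [Fin.sum_univ_five, zb]
    simp only [Matrix.cons_val]
    linear_combination (σc ^ 2) * I_sq

theorem zp_mem : zp ∈ unitCone := by
  constructor
  · simp only [herm, Fin.sum_univ_five, zp]
    simp only [Matrix.cons_val]
    simp only [map_div₀, map_mul, map_neg, conj_I, conj_σc, conj_τc, map_zero, Complex.conj_ofNat]
    linear_combination 2 * σc_sq
      + (σc ^ 2 / 4) * τc_sq - (σc ^ 2 / 4 + τc ^ 2 * σc ^ 2 / 4) * I_sq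
  · simp only [Fin.sum_univ_five, zp]
    simp only [Matrix.cons_val]
    linear_combination (σc ^ 2 / 4 + τc ^ 2 * σc ^ 2 / 4) * I_sq + (-σc ^ 2 / 4) * τc_sq

theorem zm_mem : zm ∈ unitCone := by
  constructor
  · simp only [herm, Fin.sum_univ_five, zm]
    simp only [Matrix.cons_val]
    simp only [map_div₀, map_mul, map_neg, conj_I, conj_σc, conj_τc, map_zero, Complex.conj_ofNat]
    linear_combination 2 * σc_sq
      + (σc ^ 2 / 4) * τc_sq - (σc ^ 2 / 4 + τc ^ 2 * σc ^ 2 / 4) * I_sq
  · simp only [Fin.sum_univ_five, zm]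
    simp only [Matrix.cons_val]
    linear_combination (σc ^ 2 / 4 + τc ^ 2 * σc ^ 2 / 4) * I_sq + (-σc ^ 2 / 4) * τc_sq

end Crest.Agent.Lib.QuadricFlow
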