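import Crest.Agent.Lib.QuadricDyn

/-!
# A Hamiltonian diffeomorphism of the quadric threefold with exactly three fixed points

We compose a small multiple of the cut-off Hamiltonian flow `flow XF` with the rotation
`Rot (π t)`, a loop of unitaries at `t = 0` which ends at `-Aflip` at `t = 1`.
-/

set_option autoImplicit false

namespace Crest.Agent.Lib.QuadricLift

open Crest.GeometryTopology.Quadric Crest.Agent.Lib.SmoothFlow Crest.Agent.Lib.QuadricFlow
open Crest.Agent.Lib.QuadricDyn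
open Complex ComplexConjugate Set Filter Topology
open scoped NNReal ContDiff

/-- The rotation. -/
noncomputable def Rot (θ : ℝ) (z : V) : V :=
  ![(Real.cos θ : ℂ) * z 0 - (Real.sin θ : ℂ) * z 1,
    (Real.sin θ : ℂ) * z 0 + (Real.cos θ : ℂ) * z 1,
    (Real.cos θ : ℂ) * z 2 - (Real.sin θ : ℂ) * z 3,
    (Real.sin θ : ℂ) * z 2 + (Real.cos θ : ℂ) * z 3,
    z 4]

theorem Rot_zero (z : V) : Rot 0 z = z := by
  funext j
  fin_cases j <;> simp [Rot]

theorem Rot_pi (z : V) : Rot Real.pi z = (-1 : ℂ) • Aflip z := by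
  funext j
  fin_cases j <;> simp [Rot, Aflip]

theorem Rot_neg_pi (z : V) : Rot (-Real.pi) z = (-1 : ℂ) • Aflip z := by
  funext j
  fin_cases j <;> simp [Rot, Aflip]

theorem cos_sq_add_sin_sq_c (θ : ℝ) :
    (Real.cos θ : ℂ) * (Real.cos θ : ℂ) + (Real.sin θ : ℂ) * (Real.sin θ : ℂ) = 1 := by
  have := Real.cos_sq_add_sin_sq θ
  rw [← Complex.ofReal_mul, ← Complex.ofReal_mul, ← Complex.ofReal_add, ← sq, ← sq, this,
    Complex.ofReal_one]

theorem Rot_neg_Rot (θ : ℝ) (z : V) : Rot (-θ) (Rot θ z) = z := by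
  have h := cos_sq_add_sin_sq_c θ
  funext j
  fin_cases j <;> simp [Rot, -Complex.ofReal_cos, -Complex.ofReal_sin]
  · linear_combination (z 0) * h
  · linear_combination (z 1) * h
  · linear_combination (z 2) * h
  · linear_combination (z 3) * h

theorem Rot_Rot_neg (θ : ℝ) (z : V) : Rot θ (Rot (-θ) z) = z := by
  have := Rot_neg_Rot (-θ) z
  rwa [neg_neg] at this

theorem herm_Rot (θ : ℝ) (u w : V) : herm (Rot θ u) w = herm u (Rot (-θ) w) := by
  simp only [herm, Fin.sum_univ_five]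
  simp [Rot, -Complex.ofReal_cos, -Complex.ofReal_sin]
  ring

theorem bil_Rot (θ : ℝ) (u w : V) : ∑ j, Rot θ u j * w j = ∑ j, u j * Rot (-θ) w j := by
  simp only [Fin.sum_univ_five]
  simp [Rot, -Complex.ofReal_cos, -Complex.ofReal_sin]
  ring

theorem Rot_smul (θ : ℝ) (c : ℂ) (z : V) : Rot θ (c • z) = c • Rot θ z := by
  funext j
  fin_cases j <;> simp [Rot] <;> ring

theorem Rot_add (θ : ℝ) (u w : V) : Rot θ (u + w) = Rot θ u + Rot θ w := by
  funext j
  fin_cases j <;> simp [Rot] <;> ring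

theorem Rot_rsmul (θ : ℝ) (c : ℝ) (z : V) : Rot θ (c • z) = c • Rot θ z := by
  funext j
  fin_cases j <;> simp [Rot] <;> ring

theorem Rot_line (θ : ℝ) (y w : V) (τ : ℝ) : Rot θ (y + τ • w) = Rot θ y + τ • Rot θ w := by
  rw [Rot_add, Rot_rsmul]

theorem Rot_mem_cone (θ : ℝ) {z : V} (hz : z ∈ unitCone) : Rot θ z ∈ unitCone := by
  constructor
  · rw [herm_Rot, Rot_neg_Rot]
    exact hz.1
  · have h2 : ∑ j, z j ^ 2 = 0 := hz.2
    have e : ∑ j, Rot θ z j ^ 2 = ∑ j, Rot θ z j * Rot θ z j := by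
      simp only [sq]
    rw [e, bil_Rot, Rot_neg_Rot]
    simpa only [sq] using h2

theorem Rot_tangent (θ : ℝ) {y w : V} (hw : w ∈ coneTangent (Rot θ y)) :
    Rot (-θ) w ∈ coneTangent y := by
  constructor
  · rw [← herm_Rot]
    exact hw.1
  · rw [← bil_Rot]
    exact hw.2

theorem contDiff_Rot : ContDiff ℝ ∞ (fun p : ℝ × V => Rot p.1 p.2) := by
  have hc : ContDiff ℝ ∞ (fun p : ℝ × V => ((Real.cos p.1 : ℝ) : ℂ)) :=
    contDiff_ofReal' (Real.contDiff_cos.comp contDiff_fst)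
  have hs : ContDiff ℝ ∞ (fun p : ℝ × V => ((Real.sin p.1 : ℝ) : ℂ)) :=
    contDiff_ofReal' (Real.contDiff_sin.comp contDiff_fst)
  have hz : ∀ j : Fin 5, ContDiff ℝ ∞ (fun p : ℝ × V => p.2 j) := fun j =>
    (contDiff_coord j).comp contDiff_snd
  rw [contDiff_pi]
  intro j
  fin_cases j
  · exact (hc.mul (hz 0)).sub (hs.mul (hz 1))
  · exact (hs.mul (hz 0)).add (hc.mul (hz 1))
  · exact (hc.mul (hz 2)).sub (hs.mul (hz 3))
  · exact (hs.mul (hz 2)).add (hc.mul (hz 3))
  · exact hz 4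

/-- The infinitesimal rotation. -/
def Jr (x : V) : V := ![-x 1, x 0, -x 3, x 2, 0]

theorem hasDerivAt_Rot {y : ℝ → V} {y' : V} {t : ℝ} (hy : HasDerivAt y y' t) :
    HasDerivAt (fun t => Rot (Real.pi * t) (y t))
      ((Real.pi : ℝ) • Jr (Rot (Real.pi * t) (y t)) + Rot (Real.pi * t) y') t := by
  have hθ : HasDerivAt (fun t : ℝ => Real.pi * t) Real.pi t := by
    simpa using (hasDerivAt_id t).const_mul Real.pi
  have hc : HasDerivAt (fun t : ℝ => ((Real.cos (Real.pi * t) : ℝ) : ℂ))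
      ((-Real.sin (Real.pi * t) * Real.pi : ℝ) : ℂ) t :=
    ((Real.hasDerivAt_cos _).comp t hθ).ofReal_comp
  have hs : HasDerivAt (fun t : ℝ => ((Real.sin (Real.pi * t) : ℝ) : ℂ))
      ((Real.cos (Real.pi * t) * Real.pi : ℝ) : ℂ) t :=
    ((Real.hasDerivAt_sin _).comp t hθ).ofReal_comp
  have hz := hasDerivAt_pi.mp hy
  rw [hasDerivAt_pi]
  intro j
  fin_cases j
  · refine ((hc.mul (hz 0)).sub (hs.mul (hz 1))).congr_deriv ?_
    simp [Rot, Jr]
    ring
  · refine ((hs.mul (hz 0)).add (hc.mul (hz 1))).congr_deriv ?_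
    simp [Rot, Jr]
    ring
  · refine ((hc.mul (hz 2)).sub (hs.mul (hz 3))).congr_deriv ?_
    simp [Rot, Jr]
    ring
  · refine ((hs.mul (hz 2)).add (hc.mul (hz 3))).congr_deriv ?_
    simp [Rot, Jr]
    ring
  · refine (hz 4).congr_deriv ?_
    simp [Rot, Jr]

/-- The Hamiltonian of the rotation. -/
noncomputable def H0 (x : V) : ℝ :=
  -(2 * Real.pi) * ((conj (x 1) * x 0).im + (conj (x 3) * x 2).im)

theorem contDiff_H0 : ContDiff ℝ ∞ H0 := by
  have h1 : ContDiff ℝ ∞ (fun x : V => (conj (x 1) * x 0).im) :=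
    Complex.imCLM.contDiff.comp ((contDiff_conjc 1).mul (contDiff_coord 0))
  have h2 : ContDiff ℝ ∞ (fun x : V => (conj (x 3) * x 2).im) :=
    Complex.imCLM.contDiff.comp ((contDiff_conjc 3).mul (contDiff_coord 2))
  exact contDiff_const.mul (h1.add h2)

theorem H0_smul {c : ℂ} (hc : ‖c‖ = 1) (z : V) : H0 (c • z) = H0 z := by
  have hc' : conj c * c = 1 := by
    rw [Complex.conj_mul']
    simp [hc]
  simp only [H0, Pi.smul_apply, smul_eq_mul, map_mul]
  have e1 : conj c * conj (z 1) * (c * z 0) = (conj c * c) * (conj (z 1) * z 0) := by ring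
  have e2 : conj c * conj (z 3) * (c * z 2) = (conj c * c) * (conj (z 3) * z 2) := by ring
  rw [e1, e2, hc', one_mul, one_mul]

/-- Derivatives along lines. -/
theorem fderiv_apply_of_line {F : Type*} [NormedAddCommGroup F] [NormedSpace ℝ F] {f : V → F}
    {y w : V} {d : F} (hf : DifferentiableAt ℝ f y)
    (h : HasDerivAt (fun τ : ℝ => f (y + τ • w)) d 0) : fderiv ℝ f y w = d := by
  have h1 : HasDerivAt (fun τ : ℝ => y + τ • w) w 0 := by
    simpa using ((hasDerivAt_id (0 : ℝ)).smul_const w).const_add y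
  have h2 : HasFDerivAt f (fderiv ℝ f y) (y + (0 : ℝ) • w) := by simpa using hf.hasFDerivAt
  have h3 := h2.comp_hasDerivAt (0 : ℝ) h1
  exact h3.unique h

theorem hasDerivAt_line (y w : V) (j : Fin 5) :
    HasDerivAt (fun τ : ℝ => (y + τ • w) j) (w j) 0 := by
  have h1 : HasDerivAt (fun τ : ℝ => y + τ • w) w 0 := by
    simpa using ((hasDerivAt_id (0 : ℝ)).smul_const w).const_add y
  exact (hasDerivAt_pi.mp h1) j

theorem line_zero (y w : V) (j : Fin 5) : (y + (0 : ℝ) • w) j = y j := by simp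

theorem Hf_line (y w : V) :
    HasDerivAt (fun τ : ℝ => Hf (y + τ • w))
      ((conj (w 2) * (y 1 - I * y 0)).re + (conj (y 2) * (w 1 - I * w 0)).re) 0 := by
  have h2 : HasDerivAt (fun τ : ℝ => conj ((y + τ • w) 2)) (conj (w 2)) 0 :=
    (hasDerivAt_line y w 2).star
  have h3 : HasDerivAt (fun τ : ℝ => (y + τ • w) 1 - I * (y + τ • w) 0) (w 1 - I * w 0) 0 :=
    (hasDerivAt_line y w 1).sub ((hasDerivAt_line y w 0).const_mul I)
  have h4 := h2.mul h3
  have h5 := Complex.reCLM.hasFDerivAt.comp_hasDerivAt (0 : ℝ) h4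
  refine h5.congr_deriv ?_
  simp

theorem H0_line (y w : V) :
    HasDerivAt (fun τ : ℝ => H0 (y + τ • w))
      (2 * Real.pi * (herm (Jr y) w).im) 0 := by
  have h10 : HasDerivAt (fun τ : ℝ => conj ((y + τ • w) 1) * (y + τ • w) 0)
      (conj (w 1) * y 0 + conj (y 1) * w 0) 0 := by
    have := (hasDerivAt_line y w 1).star.mul (hasDerivAt_line y w 0)
    refine this.congr_deriv ?_
    simp
  have h32 : HasDerivAt (fun τ : ℝ => conj ((y + τ • w) 3) * (y + τ • w) 2)
      (conj (w 3) * y 2 + conj (y 3) * w 2) 0 := by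
    have := (hasDerivAt_line y w 3).star.mul (hasDerivAt_line y w 2)
    refine this.congr_deriv ?_
    simp
  have h1 := Complex.imCLM.hasFDerivAt.comp_hasDerivAt (0 : ℝ) h10
  have h2 := Complex.imCLM.hasFDerivAt.comp_hasDerivAt (0 : ℝ) h32
  have h3 := (h1.add h2).const_mul (-(2 * Real.pi))
  refine h3.congr_deriv ?_
  simp [herm, Jr, Fin.sum_univ_five]
  ring

/-- The lifted isotopy. -/
noncomputable def Psi (s : ℝ) (p : ℝ × V) : V := Rot (Real.pi * p.1) (flow XF (s * p.1) p.2)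

/-- The lifted Hamiltonian. -/
noncomputable def Hl (s : ℝ) (p : ℝ × V) : ℝ :=
  H0 p.2 + s * Hf (Rot (-(Real.pi * p.1)) p.2)

theorem smooth_Psi (s : ℝ) : ContDiff ℝ ∞ (Psi s) := by
  have h0 : ContDiff ℝ ∞ (fun p : ℝ × V => s * p.1) := contDiff_const.mul contDiff_fst
  have h1 : ContDiff ℝ ∞ (fun p : ℝ × V => (s * p.1, p.2)) := h0.prodMk contDiff_snd
  have h2 : ContDiff ℝ ∞ (fun p : ℝ × V => flow XF (s * p.1) p.2) :=
    (contDiff_flow XF contDiff_XF hasCompactSupport_XF).comp h1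
  have h3' : ContDiff ℝ ∞ (fun p : ℝ × V => Real.pi * p.1) := contDiff_const.mul contDiff_fst
  have h3 : ContDiff ℝ ∞ (fun p : ℝ × V => (Real.pi * p.1, flow XF (s * p.1) p.2)) :=
    h3'.prodMk h2
  have h4 := contDiff_Rot.comp h3
  exact h4

theorem smooth_Hl (s : ℝ) : ContDiff ℝ ∞ (Hl s) := by
  have h3' : ContDiff ℝ ∞ (fun p : ℝ × V => -(Real.pi * p.1)) :=
    (contDiff_const.mul contDiff_fst).neg
  have h1 : ContDiff ℝ ∞ (fun p : ℝ × V => (-(Real.pi * p.1), p.2)) := h3'.prodMk contDiff_snd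
  have h1'' := contDiff_Rot.comp h1
  have h1' : ContDiff ℝ ∞ (fun p : ℝ × V => Rot (-(Real.pi * p.1)) p.2) := h1''
  have h2 : ContDiff ℝ ∞ (fun p : ℝ × V => Hf (Rot (-(Real.pi * p.1)) p.2)) :=
    contDiff_Hf.comp h1'
  have h4 : ContDiff ℝ ∞ (fun p : ℝ × V => H0 p.2) := contDiff_H0.comp contDiff_snd
  have h5 : ContDiff ℝ ∞ (fun p : ℝ × V => s * Hf (Rot (-(Real.pi * p.1)) p.2)) :=
    contDiff_const.mul h2
  have h6 : ContDiff ℝ ∞ (fun p : ℝ × V => H0 p.2 + s * Hf (Rot (-(Real.pi * p.1)) p.2)) :=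
    h4.add h5
  exact h6

section Flow

variable {K M : ℝ≥0} (hK : LipschitzWith K XF) (hM : ∀ x, ‖XF x‖ ≤ M)

include hK hM

theorem hamilton_main (s t : ℝ) {z : V} (hz : z ∈ unitCone) {w : V}
    (hw : w ∈ coneTangent (Psi s (t, z))) :
    2 * (herm (deriv (fun u : ℝ => Psi s (u, z)) t) w).im =
      fderiv ℝ (fun x : V => Hl s (t, x)) (Psi s (t, z)) w := by
  set θ : ℝ := Real.pi * t with hθ
  set y : V := flow XF (s * t) z with hy
  have hycone : y ∈ unitCone := flow_mem_cone hK hM hz _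
  have hΨ : Psi s (t, z) = Rot θ y := rfl
  -- the time derivative
  have hs : HasDerivAt (fun u : ℝ => s * u) s t := by
    simpa using (hasDerivAt_id t).const_mul s
  have hfl : HasDerivAt (fun u : ℝ => flow XF (s * u) z) (s • XF y) t :=
    (hasDerivAt_flow hK hM (s * t) z).scomp t hs
  have hd : HasDerivAt (fun u : ℝ => Psi s (u, z))
      ((Real.pi : ℝ) • Jr (Rot θ y) + Rot θ (s • XF y)) t := hasDerivAt_Rot hfl
  rw [hd.deriv, hΨ] at *
  have hw' : Rot (-θ) w ∈ coneTangent y := Rot_tangent θ hw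
  -- the space derivative
  have hdiff : DifferentiableAt ℝ (fun x : V => Hl s (t, x)) (Rot θ y) := by
    have h1 : ContDiff ℝ ∞ (fun x : V => Hl s (t, x)) :=
      (smooth_Hl s).comp (contDiff_const.prodMk contDiff_id)
    exact (h1.differentiable (by simp)) _
  have hline : HasDerivAt (fun τ : ℝ => Hl s (t, Rot θ y + τ • w))
      (2 * Real.pi * (herm (Jr (Rot θ y)) w).im +
        s * ((conj (Rot (-θ) w 2) * (y 1 - I * y 0)).re +
          (conj (y 2) * (Rot (-θ) w 1 - I * Rot (-θ) w 0)).re)) 0 := by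
    have h1 := H0_line (Rot θ y) w
    have h2 := Hf_line y (Rot (-θ) w)
    have h3 := (h1.add (h2.const_mul s))
    refine h3.congr_of_eventuallyEq (Eventually.of_forall fun τ => ?_)
    simp only [Hl, ← hθ]
    rw [Rot_line, Rot_neg_Rot]
    rfl
  rw [fderiv_apply_of_line hdiff hline]
  -- the Hermitian computation
  have hXF : XF y = X0 y := XF_eq_X0_of_mem hycone
  have hham := hamilton_X0 hw'
  rw [Rot_rsmul, hXF]
  have e1 : herm ((Real.pi : ℝ) • Jr (Rot θ y) + s • Rot θ (X0 y)) w =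
      (Real.pi : ℂ) * herm (Jr (Rot θ y)) w + (s : ℂ) * herm (X0 y) (Rot (-θ) w) := by
    rw [← herm_Rot]
    simp only [herm, Fin.sum_univ_five]
    simp
    ring
  rw [e1]
  simp only [Complex.add_im, Complex.mul_im, Complex.ofReal_re, Complex.ofReal_im, zero_mul,
    add_zero]
  have e2 : (s : ℝ) * (2 * (herm (X0 y) (Rot (-θ) w)).im) =
      s * ((conj (Rot (-θ) w 2) * (y 1 - I * y 0)).re +
          (conj (y 2) * (Rot (-θ) w 1 - I * Rot (-θ) w 0)).re) := by
    rw [hham]
  linarith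

end Flow

/-- The lift, as a structure. -/
noncomputable def lift {K M : ℝ≥0} (hK : LipschitzWith K XF) (hM : ∀ x, ‖XF x‖ ≤ M) (s : ℝ) :
    HamiltonianConeLift where
  Ψ := Psi s
  H := Hl s
  smooth_Ψ := smooth_Psi s
  smooth_H := smooth_Hl s
  mapsTo_cone := fun t z hz => Rot_mem_cone _ (flow_mem_cone hK hM hz _)
  compatible := fun t z _ c hc => ⟨c, by
    simp only [Psi]
    rw [flow_smul hK hM hc, Rot_smul]⟩
  start := fun z _ => ⟨1, by
    simp only [Psi, mul_zero, one_smul]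
    rw [flow_zero hK hM, Rot_zero]⟩
  invariant := fun t z _ c hc => by
    simp only [Hl]
    rw [H0_smul hc, Rot_smul, Hf_smul hc]
  hamilton := fun t _ z hz w hw => hamilton_main hK hM s t hz hw

theorem XF_eq_zero_of {z : V} (h : X0 z = 0) : XF z = 0 := by simp [XF, h]

theorem Rot_pi_of_four {z : V} (h : z 4 = 0) : Rot Real.pi z = (-1 : ℂ) • z := by
  funext j
  fin_cases j <;> simp [Rot, h]

theorem nsq_eq_one {z : V} (hz : z ∈ unitCone) : nsq z = 1 := by
  have := hz.1
  rw [herm_self] at this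
  exact_mod_cast this

theorem nsq_smul' (b : ℂ) (z : V) : nsq (b • z) = normSq b * nsq z := by
  simp only [nsq, Pi.smul_apply, smul_eq_mul, map_mul, Finset.mul_sum]

theorem Aflip_smul (b : ℂ) (z : V) : Aflip (b • z) = b • Aflip z := by
  funext j
  fin_cases j <;> simp [Aflip]

section Main

variable {K M : ℝ≥0} (hK : LipschitzWith K XF) (hM : ∀ x, ‖XF x‖ ≤ M)

include hK hM

theorem Psi_one_of_X0 (s : ℝ) {z : V} (h : X0 z = 0) : Psi s (1, z) = Rot Real.pi z := by
  simp only [Psi, mul_one]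
  rw [flow_of_zero hK hM (XF_eq_zero_of h)]

theorem Psi_one_of_X0_of_four (s : ℝ) {z : V} (h : X0 z = 0) (h4 : z 4 = 0) :
    Psi s (1, z) = (-1 : ℂ) • z := by
  rw [Psi_one_of_X0 hK hM s h, Rot_pi_of_four h4]

theorem classify_fixed {s : ℝ} (hs : 0 < s)
    (hsmall : 5 * (2 * s) * K * Real.exp (K * (2 * s)) < 1) {z : V} (hz : z ∈ unitCone)
    (h : Psi s (1, z) ∈ Submodule.span ℂ {z}) : X0 z = 0 ∧ z 4 = 0 := by
  obtain ⟨a, ha⟩ := Submodule.mem_span_singleton.mp h
  set b : ℂ := -a with hb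
  have h1 : flow XF s z = b • Aflip z := by
    have e1 : Psi s (1, z) = Rot Real.pi (flow XF s z) := by
      simp only [Psi, mul_one]
    have e2 := Rot_neg_Rot Real.pi (flow XF s z)
    rw [← e1, ← ha, Rot_smul, Rot_neg_pi] at e2
    rw [← e2, hb]
    funext j
    simp
  have hbn : ‖b‖ = 1 := by
    have e1 := nsq_eq_one (flow_mem_cone hK hM hz s)
    rw [h1, nsq_smul', nsq_Aflip, nsq_eq_one hz, mul_one, Complex.normSq_eq_norm_sq] at e1
    have h0 := norm_nonneg b
    nlinarith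
  have hclose : flow XF (2 * s) z = (b * b) • z := by
    rw [two_mul, flow_add hK hM, h1, flow_smul hK hM hbn, flow_Aflip hK hM, h1, Aflip_smul,
      Aflip_Aflip, smul_smul]
  have hX : X0 z = 0 := X0_eq_zero_of_closing hK hM hz (by linarith) hsmall hclose
  refine ⟨hX, ?_⟩
  have h2 : z = b • Aflip z := by
    rw [← h1, flow_of_zero hK hM (XF_eq_zero_of hX)]
  have hc : ∀ j, z j = b * Aflip z j := fun j => by
    conv_lhs => rw [h2]
    simp
  by_contra h4
  have h5 : (1 + b) * z 4 = 0 := by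
    have := hc 4
    simp only [Aflip, Matrix.cons_val] at this
    linear_combination this
  have hb1 : b = -1 := by
    have := (mul_eq_zero.mp h5).resolve_right h4
    linear_combination this
  have hz0 : ∀ j : Fin 5, j ≠ 4 → z j = 0 := by
    intro j hj
    have e := hc j
    rw [hb1] at e
    have e2 : Aflip z j = z j := by
      fin_cases j
      · simp [Aflip]
      · simp [Aflip]
      · simp [Aflip]
      · simp [Aflip]
      · exact absurd rfl hj
    rw [e2] at e
    have e3 : (2 : ℂ) * z j = 0 := by linear_combination e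
    simpa using e3
  have hG : ∑ j, z j ^ 2 = 0 := hz.2
  rw [Fin.sum_univ_five, hz0 0 (by decide), hz0 1 (by decide), hz0 2 (by decide),
    hz0 3 (by decide)] at hG
  apply h4
  simpa using hG

/-- The fixed lines. -/
theorem fixedLines_eq {s : ℝ} (hs : 0 < s)
    (hsmall : 5 * (2 * s) * K * Real.exp (K * (2 * s)) < 1) :
    fixedLines (lift hK hM s) =
      {Submodule.span ℂ {zb}, Submodule.span ℂ {zp}, Submodule.span ℂ {zm}} := by
  have key : ∀ z ∈ unitCone, X0 z = 0 → z 4 = 0 → Submodule.span ℂ {z} ∈ fixedLines (lift hK hM s) := by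
    intro z hz hX h4
    refine ⟨z, hz, rfl, ?_⟩
    show Psi s (1, z) ∈ _
    rw [Psi_one_of_X0_of_four hK hM s hX h4]
    exact Submodule.smul_mem _ _ (Submodule.mem_span_singleton_self z)
  ext ℓ
  simp only [mem_insert_iff, mem_singleton_iff]
  constructor
  · rintro ⟨z, hz, rfl, hf⟩
    obtain ⟨hX, h4⟩ := classify_fixed hK hM hs hsmall hz hf
    obtain ⟨a, ha, hc⟩ := classification hz h4 hX
    have hu : IsUnit a := isUnit_iff_ne_zero.mpr ha
    rcases hc with hc | hc | hc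
    · left
      rw [hc, Submodule.span_singleton_smul_eq hu]
    · right; left
      rw [hc, Submodule.span_singleton_smul_eq hu]
    · right; right
      rw [hc, Submodule.span_singleton_smul_eq hu]
  · rintro (rfl | rfl | rfl)
    · exact key zb zb_mem X0_zb (by simp [zb])
    · exact key zp zp_mem X0_zp (by simp [zp])
    · exact key zm zm_mem X0_zm (by simp [zm])

omit hK hM in
/-- The direction of degeneracy. -/
theorem X0_line_zb (τ : ℝ) : X0 (zb + τ • (![0, 0, 0, 1, 0] : V)) = 0 := by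
  set x : V := zb + τ • (![0, 0, 0, 1, 0] : V) with hx
  have h0 : x 0 = σc := by simp [hx, zb]
  have h1 : x 1 = σc * I := by simp [hx, zb]
  have h2 : x 2 = 0 := by simp [hx, zb]
  have hH : Hf x = 0 := by simp [Hf, h2]
  funext j
  simp only [X0, hH, h1, h2]
  fin_cases j <;> simp [Bz, h0, h1, h2]
  ring

theorem degenerate (s : ℝ) : HasDegenerateFixedPoint (lift hK hM s) := by
  refine ⟨zb, zb_mem, -1, ?_, ![0, 0, 0, 1, 0], ?_, ?_, 0, ?_⟩
  · exact Psi_one_of_X0_of_four hK hM s X0_zb (by simp [zb])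
  · constructor
    · simp [herm, zb, Fin.sum_univ_five]
    · simp [zb, Fin.sum_univ_five]
  · intro r h
    have := congrFun h 3
    simp [zb] at this
  · show fderiv ℝ (fun x : V => Psi s (1, x)) zb _ = _
    have hdiff : DifferentiableAt ℝ (fun x : V => Psi s (1, x)) zb := by
      have h0 : ContDiff ℝ ∞ (fun x : V => ((1 : ℝ), x)) := contDiff_const.prodMk contDiff_id
      have h1 := (smooth_Psi s).comp h0
      exact (h1.differentiable (by simp)) _
    have hline : HasDerivAt (fun τ : ℝ => Psi s (1, zb + τ • (![0, 0, 0, 1, 0] : V)))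
        ((-1 : ℂ) • (![0, 0, 0, 1, 0] : V)) 0 := by
      have e : (fun τ : ℝ => Psi s (1, zb + τ • (![0, 0, 0, 1, 0] : V))) =
          fun τ : ℝ => (-1 : ℂ) • (zb + τ • (![0, 0, 0, 1, 0] : V)) := by
        funext τ
        exact Psi_one_of_X0_of_four hK hM s (X0_line_zb τ) (by simp [zb])
      rw [e]
      have h1 : HasDerivAt (fun τ : ℝ => zb + τ • (![0, 0, 0, 1, 0] : V)) (![0, 0, 0, 1, 0] : V) 0 := by
        simpa using ((hasDerivAt_id (0 : ℝ)).smul_const (![0, 0, 0, 1, 0] : V)).const_add zb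
      exact h1.const_smul (-1 : ℂ)
    rw [fderiv_apply_of_line hdiff hline]
    simp

end Main

theorem τc_ne : τc ≠ 0 := by
  intro h
  have := τc_sq
  rw [h] at this
  norm_num at this

theorem span_ne_zb_zp : Submodule.span ℂ {zb} ≠ Submodule.span ℂ {zp} := by
  intro h
  have h1 : zp ∈ Submodule.span ℂ {zb} := by
    rw [h]; exact Submodule.mem_span_singleton_self _
  obtain ⟨a, ha⟩ := Submodule.mem_span_singleton.mp h1
  have := congrFun ha 2
  simp [zb, zp] at this
  have hne : I * τc * σc ≠ 0 := mul_ne_zero (mul_ne_zero I_ne_zero τc_ne) σc_ne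
  exact hne (by linear_combination (-2) * this)

theorem span_ne_zb_zm : Submodule.span ℂ {zb} ≠ Submodule.span ℂ {zm} := by
  intro h
  have h1 : zm ∈ Submodule.span ℂ {zb} := by
    rw [h]; exact Submodule.mem_span_singleton_self _
  obtain ⟨a, ha⟩ := Submodule.mem_span_singleton.mp h1
  have := congrFun ha 2
  simp [zb, zm] at this
  have hne : I * τc * σc ≠ 0 := mul_ne_zero (mul_ne_zero I_ne_zero τc_ne) σc_ne
  exact hne (by linear_combination 2 * this)

theorem span_ne_zp_zm : Submodule.span ℂ {zp} ≠ Submodule.span ℂ {zm} := by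
  intro h
  have h1 : zm ∈ Submodule.span ℂ {zp} := by
    rw [h]; exact Submodule.mem_span_singleton_self _
  obtain ⟨a, ha⟩ := Submodule.mem_span_singleton.mp h1
  have e0 := congrFun ha 0
  have e2 := congrFun ha 2
  simp only [zp, zm, Pi.smul_apply, smul_eq_mul, Matrix.cons_val] at e0 e2
  have ha1 : a = 1 := by
    have : (a - 1) * σc = 0 := by linear_combination e0
    have h2 := (mul_eq_zero.mp this).resolve_right σc_ne
    linear_combination h2
  rw [ha1] at e2
  have e3 : I * (τc * σc) = 0 := by linear_combination e2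
  have : I * (τc * σc) ≠ 0 := mul_ne_zero I_ne_zero (mul_ne_zero τc_ne σc_ne)
  exact this e3

/-- The main theorem. -/
theorem main : ∃ L : HamiltonianConeLift, (fixedLines L).ncard = 3 ∧ HasDegenerateFixedPoint L := by
  obtain ⟨K, hK⟩ := exists_lip contDiff_XF hasCompactSupport_XF
  obtain ⟨M, hM⟩ := exists_bdd contDiff_XF hasCompactSupport_XF
  have hK0 : (0 : ℝ) ≤ K := K.2
  set s : ℝ := 1 / (40 * ((K : ℝ) + 1)) with hs
  have hs0 : 0 < s := by positivity
  have e1 : (K : ℝ) * (2 * s) ≤ 1 / 20 := by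
    rw [hs]
    rw [show (K : ℝ) * (2 * (1 / (40 * ((K : ℝ) + 1)))) = (K : ℝ) / (20 * ((K : ℝ) + 1)) by
      field_simp
      ring]
    rw [div_le_iff₀ (by positivity)]
    linarith
  have e2 : Real.exp ((K : ℝ) * (2 * s)) ≤ 3 := by
    have h1 : Real.exp ((K : ℝ) * (2 * s)) ≤ Real.exp 1 :=
      Real.exp_le_exp.mpr (by linarith)
    have h2 := Real.exp_one_lt_d9
    linarith
  have hsmall : 5 * (2 * s) * K * Real.exp (K * (2 * s)) < 1 := by
    have h0 : 0 ≤ (K : ℝ) * (2 * s) := by positivity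
    have e3 : 5 * (2 * s) * K * Real.exp (K * (2 * s)) =
        5 * ((K : ℝ) * (2 * s)) * Real.exp (K * (2 * s)) := by ring
    rw [e3]
    have e4 : 5 * ((K : ℝ) * (2 * s)) ≤ 1 / 4 := by linarith
    have e5 := Real.exp_pos ((K : ℝ) * (2 * s))
    nlinarith
  refine ⟨lift hK hM s, ?_, degenerate hK hM s⟩
  rw [fixedLines_eq hK hM hs0 hsmall]
  exact Set.ncard_eq_three.mpr ⟨_, _, _, span_ne_zb_zp, span_ne_zb_zm, span_ne_zp_zm, rfl⟩

end Crest.Agent.Lib.QuadricLift
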