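import Mathlib

/-!
Helper for S0423: one-dimensional comparison lemma for log-concave survival functions.
-/

open Real Set MeasureTheory Filter Topology

noncomputable section

namespace Crest.Agent.Lib.S0423

/-! ### Elementary integrals -/

lemma hasDerivAt_anti {β : ℝ} (hβ : β ≠ 0) (t : ℝ) :
    HasDerivAt (fun t : ℝ => -(t / β + 1 / β ^ 2) * exp (-(β * t))) (t * exp (-(β * t))) t := by
  have h1 : HasDerivAt (fun t : ℝ => -(t / β + 1 / β ^ 2)) (-(1 / β)) t :=
    (((hasDerivAt_id t).div_const β).add_const (1 / β ^ 2)).neg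
  have h2 : HasDerivAt (fun t : ℝ => exp (-(β * t))) (exp (-(β * t)) * (-(β * 1))) t := by
    have : HasDerivAt (fun t : ℝ => -(β * t)) (-(β * 1)) t :=
      ((hasDerivAt_id t).const_mul β).neg
    exact this.exp
  refine (h1.fun_mul h2).congr_deriv ?_
  field_simp
  ring

lemma integrableOn_mul_exp {β s : ℝ} (hβ : 0 < β) (hs : 0 ≤ s) :
    IntegrableOn (fun t : ℝ => t * exp (-(β * t))) (Ioi s) := by
  have hb : 0 < β / 2 := by positivity
  have h := (exp_neg_integrableOn_Ioi s hb).const_mul (2 / β)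
  refine Integrable.mono' h ?_ ?_
  · exact (by fun_prop : Measurable (fun t : ℝ => t * exp (-(β * t)))).aestronglyMeasurable
  · refine (ae_restrict_iff' measurableSet_Ioi).2 (Eventually.of_forall fun t ht => ?_)
    have ht0 : 0 < t := lt_of_le_of_lt hs ht
    rw [Real.norm_of_nonneg (by positivity)]
    have h1 : β / 2 * t + 1 ≤ exp (β / 2 * t) := Real.add_one_le_exp _
    have h2 : t ≤ 2 / β * exp (β / 2 * t) := by
      rw [div_mul_eq_mul_div, le_div_iff₀ hβ]
      nlinarith [exp_pos (β / 2 * t)]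
    have h3 : exp (-(β * t)) = exp (-(β / 2) * t) * exp (-(β / 2 * t)) := by
      rw [← exp_add]; congr 1; ring
    rw [h3]
    have h4 : exp (β / 2 * t) * exp (-(β / 2 * t)) = 1 := by
      rw [← exp_add]; simp
    have h5 : 0 < exp (-(β / 2) * t) := exp_pos _
    have h6 : 0 < exp (-(β / 2 * t)) := exp_pos _
    calc t * (exp (-(β / 2) * t) * exp (-(β / 2 * t)))
        ≤ (2 / β * exp (β / 2 * t)) * (exp (-(β / 2) * t) * exp (-(β / 2 * t))) := by
          apply mul_le_mul_of_nonneg_right h2; positivity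
      _ = 2 / β * exp (-(β / 2) * t) * (exp (β / 2 * t) * exp (-(β / 2 * t))) := by ring
      _ = 2 / β * exp (-(β / 2) * t) := by rw [h4, mul_one]

lemma integral_mul_exp {β s : ℝ} (hβ : 0 < β) (hs : 0 ≤ s) :
    ∫ t in Ioi s, t * exp (-(β * t)) = (s / β + 1 / β ^ 2) * exp (-(β * s)) := by
  have hder : ∀ x ∈ Ici s, HasDerivAt (fun t : ℝ => -(t / β + 1 / β ^ 2) * exp (-(β * t)))
      (x * exp (-(β * x))) x := fun x _ => hasDerivAt_anti hβ.ne' x
  have hlim : Tendsto (fun t : ℝ => -(t / β + 1 / β ^ 2) * exp (-(β * t))) atTop (𝓝 0) := by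
    have h1 : Tendsto (fun t : ℝ => t * exp (-(β * t))) atTop (𝓝 0) := by
      have := (Real.tendsto_pow_mul_exp_neg_atTop_nhds_zero 1).comp
        (tendsto_id.const_mul_atTop hβ)
      have h2 := this.div_const β
      simp only [zero_div] at h2
      refine h2.congr fun t => ?_
      simp only [Function.comp, id, pow_one]
      field_simp
    have h2 : Tendsto (fun t : ℝ => exp (-(β * t))) atTop (𝓝 0) := by
      have : Tendsto (fun t : ℝ => β * t) atTop atTop := tendsto_id.const_mul_atTop hβ
      exact Real.tendsto_exp_neg_atTop_nhds_zero.comp this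
    have h3 := ((h1.div_const β).add (h2.const_mul (1 / β ^ 2))).neg
    simp only [zero_div, mul_zero, add_zero, neg_zero] at h3
    refine h3.congr fun t => ?_
    ring
  have := integral_Ioi_of_hasDerivAt_of_tendsto' hder (integrableOn_mul_exp hβ hs) hlim
  rw [this]
  ring

/-! ### The weight and the comparator -/

/-- the weight `t e^{-t}` on `t>0`, zero otherwise -/
def wt (t : ℝ) : ℝ := if 0 < t then t * exp (-t) else 0

lemma wt_nonneg (t : ℝ) : 0 ≤ wt t := by
  unfold wt; split_ifs with h
  · positivity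
  · exact le_rfl

lemma mul_exp_neg_le (t : ℝ) : t * exp (-t) ≤ exp (-1) := by
  have h1 : t - 1 + 1 ≤ exp (t - 1) := Real.add_one_le_exp _
  have h2 : exp (t - 1) * exp (-t) = exp (-1) := by
    rw [← exp_add]; congr 1; ring
  calc t * exp (-t) = (t - 1 + 1) * exp (-t) := by ring
    _ ≤ exp (t - 1) * exp (-t) := by
        apply mul_le_mul_of_nonneg_right h1 (exp_pos _).le
    _ = exp (-1) := h2

lemma wt_le (t : ℝ) : wt t ≤ exp (-1) := by
  unfold wt; split_ifs with h
  · exact mul_exp_neg_le t
  · exact (exp_pos _).le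

lemma measurable_wt : Measurable wt := by
  unfold wt
  exact Measurable.ite measurableSet_Ioi (by fun_prop) measurable_const

/-- exponential comparator survival function -/
def cmp (t0 A t : ℝ) : ℝ := min 1 (exp ((t0 - t) / A))

lemma cmp_pos (t0 A t : ℝ) : 0 < cmp t0 A t := lt_min one_pos (exp_pos _)
lemma cmp_le (t0 A t : ℝ) : cmp t0 A t ≤ 1 := min_le_left _ _

lemma cmp_of_le {t0 A t : ℝ} (hA : 0 < A) (h : t ≤ t0) : cmp t0 A t = 1 := by
  unfold cmp
  apply min_eq_left
  apply Real.one_le_exp
  apply div_nonneg (by linarith) hA.le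

lemma cmp_of_ge {t0 A t : ℝ} (hA : 0 < A) (h : t0 ≤ t) : cmp t0 A t = exp ((t0 - t) / A) := by
  unfold cmp
  apply min_eq_right
  apply Real.exp_le_one_iff.2
  apply div_nonpos_of_nonpos_of_nonneg (by linarith) hA.le

lemma cmp_mono {t0 t0' A t : ℝ} (hA : 0 < A) (h : t0' ≤ t0) : cmp t0' A t ≤ cmp t0 A t := by
  unfold cmp
  apply min_le_min le_rfl
  apply Real.exp_le_exp.2
  apply div_le_div_of_nonneg_right (by linarith) hA.le

lemma continuous_cmp (t0 A : ℝ) : Continuous (cmp t0 A) := by
  unfold cmp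
  fun_prop

/-- the step function -/
def chi (a t : ℝ) : ℝ := if t < a then 1 else 0

lemma measurable_chi (a : ℝ) : Measurable (chi a) := by
  unfold chi
  exact Measurable.ite measurableSet_Iio measurable_const measurable_const

lemma chi_sub_integrable (a b : ℝ) : Integrable (fun t => chi a t - chi b t) ∧
    ∫ t, (chi a t - chi b t) = a - b := by
  rcases le_total a b with h | h
  · have heq : (fun t => chi a t - chi b t) = fun t => -(Ico a b).indicator (fun _ => (1:ℝ)) t := by
      funext t
      unfold chi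
      by_cases h1 : t < a
      · have h2 : t < b := lt_of_lt_of_le h1 h
        have h3 : t ∉ Ico a b := fun ⟨h4, _⟩ => absurd h4 (not_le.2 h1)
        simp [h1, h2, h3]
      · by_cases h2 : t < b
        · have h3 : t ∈ Ico a b := ⟨not_lt.1 h1, h2⟩
          simp [h1, h2, h3]
        · have h3 : t ∉ Ico a b := fun ⟨_, h4⟩ => h2 h4
          simp [h1, h2, h3]
    rw [heq]
    constructor
    · apply Integrable.neg
      apply (integrable_indicator_iff measurableSet_Ico).2
      exact integrableOn_const (by simp) (by simp)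
    · rw [integral_neg, integral_indicator measurableSet_Ico]
      simp [h]
  · have heq : (fun t => chi a t - chi b t) = fun t => (Ico b a).indicator (fun _ => (1:ℝ)) t := by
      funext t
      unfold chi
      by_cases h1 : t < b
      · have h2 : t < a := lt_of_lt_of_le h1 h
        have h3 : t ∉ Ico b a := fun ⟨h4, _⟩ => absurd h4 (not_le.2 h1)
        simp [h1, h2, h3]
      · by_cases h2 : t < a
        · have h3 : t ∈ Ico b a := ⟨not_lt.1 h1, h2⟩
          simp [h1, h2, h3]
        · have h3 : t ∉ Ico b a := fun ⟨_, h4⟩ => h2 h4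
          simp [h1, h2, h3]
    rw [heq]
    constructor
    · apply (integrable_indicator_iff measurableSet_Ico).2
      exact integrableOn_const (by simp) (by simp)
    · rw [integral_indicator measurableSet_Ico]
      simp [h]

lemma exp_decay_integral (t0 : ℝ) {A : ℝ} (hA : 0 < A) :
    IntegrableOn (fun t => exp ((t0 - t) / A)) (Ioi t0) ∧
      ∫ t in Ioi t0, exp ((t0 - t) / A) = A := by
  have hform : (fun t => exp ((t0 - t) / A)) = fun t => exp (t0 / A) * exp (-(1 / A) * t) := by
    funext t
    rw [← exp_add]; congr 1; field_simp; ring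
  have hb : 0 < 1 / A := by positivity
  have hint : IntegrableOn (fun t => exp ((t0 - t) / A)) (Ioi t0) := by
    rw [hform]
    exact (exp_neg_integrableOn_Ioi t0 hb).const_mul _
  refine ⟨hint, ?_⟩
  have hder : ∀ x ∈ Ici t0, HasDerivAt (fun t => -A * exp ((t0 - t) / A)) (exp ((t0 - x) / A)) x := by
    intro x _
    have h1 : HasDerivAt (fun t : ℝ => (t0 - t) / A) (-1 / A) x := by
      have := ((hasDerivAt_id x).const_sub t0).div_const A
      simpa using this
    have h2 := (h1.exp).const_mul (-A)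
    refine h2.congr_deriv ?_
    field_simp
  have hlim : Tendsto (fun t => -A * exp ((t0 - t) / A)) atTop (𝓝 0) := by
    have h1 : Tendsto (fun t : ℝ => (t - t0) / A) atTop atTop :=
      (tendsto_atTop_add_const_right _ (-t0) tendsto_id).atTop_div_const hA
    have h2 : Tendsto (fun t : ℝ => exp (-((t - t0) / A))) atTop (𝓝 0) :=
      Real.tendsto_exp_neg_atTop_nhds_zero.comp h1
    have h3 := h2.const_mul (-A)
    simp only [mul_zero] at h3
    refine h3.congr fun t => ?_
    congr 2
    ring
  rw [integral_Ioi_of_hasDerivAt_of_tendsto' hder hint hlim]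
  simp

lemma cmp_integrable (t0 c : ℝ) {A : ℝ} (hA : 0 < A) :
    Integrable (fun t => cmp t0 A t - chi c t) ∧
      ∫ t, (cmp t0 A t - chi c t) = t0 - c + A := by
  obtain ⟨h1, h2⟩ := exp_decay_integral t0 hA
  obtain ⟨h3, h4⟩ := chi_sub_integrable t0 c
  have heq : (fun t => cmp t0 A t - chi c t) =
      fun t => (Ici t0).indicator (fun t => exp ((t0 - t) / A)) t + (chi t0 t - chi c t) := by
    funext t
    by_cases h : t0 ≤ t
    · have h5 : t ∈ Ici t0 := h
      have h6 : ¬ t < t0 := not_lt.2 h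
      rw [cmp_of_ge hA h, indicator_of_mem h5]
      simp only [chi, h6, if_false]
      ring
    · have h5 : t ∉ Ici t0 := h
      rw [indicator_of_notMem h5]
      rw [cmp_of_le hA (not_le.1 h).le]
      simp [chi, not_le.1 h]
  have hi1 : Integrable ((Ici t0).indicator (fun t => exp ((t0 - t) / A))) :=
    (integrable_indicator_iff measurableSet_Ici).2 ((integrableOn_Ici_iff_integrableOn_Ioi).2 h1)
  rw [heq]
  refine ⟨hi1.add h3, ?_⟩
  rw [integral_add hi1 h3, integral_indicator measurableSet_Ici, integral_Ici_eq_integral_Ioi, h2, h4]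
  ring

/-! ### The bound for mean-zero comparators -/

lemma exp_third_ge : (49 / 36 : ℝ) ≤ exp (1 / 3) := by
  have h := Real.quadratic_le_exp_of_nonneg (x := 1 / 3) (by norm_num)
  norm_num at h ⊢
  linarith

lemma exp_neg_third_le : exp (-(1 / 3)) ≤ (36 / 49 : ℝ) := by
  rw [Real.exp_neg]
  have h := exp_third_ge
  rw [inv_le_comm₀ (exp_pos _) (by norm_num)]
  norm_num at h ⊢
  linarith

/-- value for large `A` -/
lemma large_A_ineq {l : ℝ} (hl : 0 < l) :
    (4 / 9) * exp (-(1 / 3)) ≤ exp (4 / 3 * l - 1) * (1 / (1 + l) ^ 2) := by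
  set x : ℝ := 2 / 3 * (1 + l) with hx
  have hxpos : 0 < x := by positivity
  have h1 : x ≤ exp (x - 1) := by
    have := Real.add_one_le_exp (x - 1)
    linarith
  have h2 : x ^ 2 ≤ exp (x - 1) ^ 2 := by
    apply pow_le_pow_left₀ hxpos.le h1
  have h3 : exp (x - 1) ^ 2 = exp (4 / 3 * l - 2 / 3) := by
    rw [← Real.exp_nat_mul]
    congr 1
    rw [hx]
    push_cast
    ring
  rw [h3] at h2
  have h4 : exp (4 / 3 * l - 1) = exp (4 / 3 * l - 2 / 3) * exp (-(1 / 3)) := by
    rw [← exp_add]; congr 1; ring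
  rw [h4]
  have h5 : 0 < (1 + l) ^ 2 := by positivity
  have h6 : x ^ 2 = 4 / 9 * (1 + l) ^ 2 := by rw [hx]; ring
  rw [h6] at h2
  have h7 : 0 < exp (-(1 / 3)) := exp_pos _
  rw [mul_one_div, le_div_iff₀ h5]
  nlinarith [mul_le_mul_of_nonneg_right h2 h7.le]

lemma small_A_ineq {x : ℝ} (hx0 : 0 ≤ x) (hx1 : x ≤ 4 / 3) :
    exp (-x) * (11 / 3 + x / 3 - x ^ 2) ≤ 33 / 49 * (7 / 3 - x) ^ 2 := by
  have hexp : 1 + x + x ^ 2 / 2 + x ^ 3 / 6 ≤ exp x := by
    have := Real.sum_le_exp_of_nonneg hx0 4
    simp only [Finset.sum_range_succ, Finset.sum_range_zero, Nat.factorial] at this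
    norm_num at this
    linarith
  have hpoly : 11 / 3 + x / 3 - x ^ 2 ≤ 33 / 49 * (7 / 3 - x) ^ 2 * (1 + x + x ^ 2 / 2 + x ^ 3 / 6) := by
    have hQ : 0 ≤ 4 / 21 + 107 / 294 * x - 253 / 882 * x ^ 2 - 55 / 294 * x ^ 3 + 11 / 98 * x ^ 4 := by
      have h1 : 0 ≤ 4 / 3 - x := by linarith
      nlinarith [mul_nonneg hx0 h1, mul_nonneg (mul_nonneg hx0 h1) hx0, mul_nonneg (mul_nonneg hx0 h1) h1,
        mul_nonneg (mul_nonneg hx0 hx0) (mul_nonneg hx0 hx0), mul_nonneg (mul_nonneg hx0 hx0) (mul_nonneg h1 h1),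
        mul_nonneg (mul_nonneg hx0 hx0) hx0]
    nlinarith [mul_nonneg hx0 hQ]
  have h1 : 0 < exp x := exp_pos _
  have h2 : exp (-x) = (exp x)⁻¹ := Real.exp_neg x
  rw [h2, inv_mul_le_iff₀ h1]
  have h3 : 0 ≤ 33 / 49 * (7 / 3 - x) ^ 2 := by positivity
  calc 11 / 3 + x / 3 - x ^ 2 ≤ 33 / 49 * (7 / 3 - x) ^ 2 * (1 + x + x ^ 2 / 2 + x ^ 3 / 6) := hpoly
    _ ≤ 33 / 49 * (7 / 3 - x) ^ 2 * exp x := mul_le_mul_of_nonneg_left hexp h3
    _ = exp x * (33 / 49 * (7 / 3 - x) ^ 2) := by ring

lemma frac_aux (y : ℝ) (hy : y ≠ 0) :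
    ((7 / 3 - y) + 1) - ((7 / 3 - y) * (y - 1) / y + (y - 1) ^ 2 / y ^ 2) =
      (11 / 3 + (7 / 3 - y) / 3 - (7 / 3 - y) ^ 2) / y ^ 2 := by
  field_simp
  ring

lemma integrableOn_wt_cmp (t0 A s : ℝ) (hs : 0 ≤ s) :
    IntegrableOn (fun t => t * exp (-t) * cmp t0 A t) (Ioi s) := by
  have h : IntegrableOn (fun t : ℝ => t * exp (-(1 * t))) (Ioi s) := integrableOn_mul_exp one_pos hs
  simp only [one_mul] at h
  have hm : AEStronglyMeasurable (cmp t0 A) (volume.restrict (Ioi s)) :=
    (continuous_cmp t0 A).aestronglyMeasurable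
  have := h.mul_bdd (c := 1) hm (Eventually.of_forall fun t => by
    rw [Real.norm_of_nonneg (cmp_pos _ _ _).le]; exact cmp_le _ _ _)
  exact this

lemma V_bound {A : ℝ} (hA : 0 < A) :
    (4 / 9) * exp (-(1 / 3)) ≤ ∫ t in Ioi 0, t * exp (-t) * cmp (4 / 3 - A) A t := by
  rcases le_or_gt (4 / 3) A with hAc | hAc
  · -- `t0 ≤ 0`
    have hl : 0 < 1 / A := by positivity
    have hβ : 0 < 1 + 1 / A := by positivity
    have hcongr : ∫ t in Ioi 0, t * exp (-t) * cmp (4 / 3 - A) A t =
        ∫ t in Ioi 0, exp ((4 / 3 - A) / A) * (t * exp (-((1 + 1 / A) * t))) := by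
      apply setIntegral_congr_fun measurableSet_Ioi
      intro t ht
      have ht0 : (0:ℝ) < t := ht
      simp only
      rw [cmp_of_ge hA (by linarith)]
      have : exp ((4 / 3 - A) / A) * exp (-((1 + 1 / A) * t)) = exp (-t) * exp ((4 / 3 - A - t) / A) := by
        rw [← exp_add, ← exp_add]; congr 1; field_simp; ring
      calc t * exp (-t) * exp ((4 / 3 - A - t) / A) = t * (exp (-t) * exp ((4 / 3 - A - t) / A)) := by ring
        _ = t * (exp ((4 / 3 - A) / A) * exp (-((1 + 1 / A) * t))) := by rw [this]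
        _ = _ := by ring
    rw [hcongr, integral_const_mul, integral_mul_exp hβ le_rfl]
    have h := large_A_ineq hl
    have h2 : (4 / 3 - A) / A = 4 / 3 * (1 / A) - 1 := by field_simp
    rw [h2]
    simpa using h
  · -- `t0 > 0`
    set x : ℝ := 4 / 3 - A with hx
    have hx0 : 0 < x := by rw [hx]; linarith
    have hx1 : x ≤ 4 / 3 := by rw [hx]; linarith
    have hAeq : A = 4 / 3 - x := by rw [hx]; ring
    have hβ : 0 < 1 + 1 / A := by positivity
    have hunion : Ioi (0:ℝ) = Ioc 0 x ∪ Ioi x := (Ioc_union_Ioi_eq_Ioi hx0.le).symm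
    have hdisj : Disjoint (Ioc 0 x) (Ioi x) := Ioc_disjoint_Ioi le_rfl
    have hG : IntegrableOn (fun t : ℝ => t * exp (-t)) (Ioi 0) := by
      have := integrableOn_mul_exp (β := 1) (s := 0) one_pos le_rfl
      simpa using this
    have hF := integrableOn_wt_cmp x A 0 le_rfl
    have h1 : ∫ t in Ioi 0, t * exp (-t) * cmp x A t =
        (∫ t in Ioc 0 x, t * exp (-t) * cmp x A t) + ∫ t in Ioi x, t * exp (-t) * cmp x A t := by
      rw [hunion] at hF ⊢
      exact setIntegral_union hdisj measurableSet_Ioi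
        (hF.mono_set subset_union_left) (hF.mono_set subset_union_right)
    have h2 : ∫ t in Ioi 0, t * exp (-t) =
        (∫ t in Ioc 0 x, t * exp (-t)) + ∫ t in Ioi x, t * exp (-t) := by
      rw [hunion] at hG ⊢
      exact setIntegral_union hdisj measurableSet_Ioi
        (hG.mono_set subset_union_left) (hG.mono_set subset_union_right)
    have h3 : ∫ t in Ioc 0 x, t * exp (-t) * cmp x A t = ∫ t in Ioc 0 x, t * exp (-t) := by
      apply setIntegral_congr_fun measurableSet_Ioc
      intro t ht
      simp only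
      rw [cmp_of_le hA ht.2, mul_one]
    have h4 : ∫ t in Ioi x, t * exp (-t) * cmp x A t =
        ∫ t in Ioi x, exp (x / A) * (t * exp (-((1 + 1 / A) * t))) := by
      apply setIntegral_congr_fun measurableSet_Ioi
      intro t ht
      have ht0 : x < t := ht
      simp only
      rw [cmp_of_ge hA ht0.le]
      have : exp (x / A) * exp (-((1 + 1 / A) * t)) = exp (-t) * exp ((x - t) / A) := by
        rw [← exp_add, ← exp_add]; congr 1; field_simp; ring
      calc t * exp (-t) * exp ((x - t) / A) = t * (exp (-t) * exp ((x - t) / A)) := by ring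
        _ = t * (exp (x / A) * exp (-((1 + 1 / A) * t))) := by rw [this]
        _ = _ := by ring
    have h5 : ∫ t in Ioi 0, t * exp (-t) = 1 := by
      have := integral_mul_exp (β := 1) (s := 0) one_pos le_rfl
      simpa using this
    have h6 : ∫ t in Ioi x, t * exp (-t) = (x + 1) * exp (-x) := by
      have := integral_mul_exp (β := 1) (s := x) one_pos hx0.le
      simpa using this
    have h7 : ∫ t in Ioi x, exp (x / A) * (t * exp (-((1 + 1 / A) * t))) =
        exp (x / A) * ((x / (1 + 1 / A) + 1 / (1 + 1 / A) ^ 2) * exp (-((1 + 1 / A) * x))) := by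
      rw [integral_const_mul, integral_mul_exp hβ hx0.le]
    rw [h1, h3, h4, h7]
    have h8 : ∫ t in Ioc 0 x, t * exp (-t) = 1 - (x + 1) * exp (-x) := by
      rw [h5, h6] at h2
      linarith
    rw [h8]
    have h9 : exp (x / A) * exp (-((1 + 1 / A) * x)) = exp (-x) := by
      rw [← exp_add]; congr 1; field_simp; ring
    have h10 : exp (x / A) * ((x / (1 + 1 / A) + 1 / (1 + 1 / A) ^ 2) * exp (-((1 + 1 / A) * x))) =
        exp (-x) * (x / (1 + 1 / A) + 1 / (1 + 1 / A) ^ 2) := by
      rw [← h9]; ring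
    rw [h10]
    have hbound := small_A_ineq hx0.le hx1
    have h11 : (x + 1) - (x / (1 + 1 / A) + 1 / (1 + 1 / A) ^ 2) =
        (11 / 3 + x / 3 - x ^ 2) / (7 / 3 - x) ^ 2 := by
      have h12 : (7 / 3 - x) ≠ 0 := by linarith
      have h13 : (1 : ℝ) + A = 7 / 3 - x := by rw [hAeq]; ring
      have h1A : (1 : ℝ) + A ≠ 0 := by positivity
      have e1 : x / (1 + 1 / A) = x * A / (1 + A) := by
        field_simp
        ring
      have e2 : 1 / (1 + 1 / A) ^ 2 = A ^ 2 / (1 + A) ^ 2 := by
        field_simp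
        ring
      have hAy : A = (7 / 3 - x) - 1 := by rw [hAeq]; ring
      rw [e1, e2, h13, hAy]
      have := frac_aux (7 / 3 - x) h12
      rw [sub_sub_cancel] at this
      exact this
    have h15 : 0 < (7 / 3 - x) ^ 2 := by
      have : 0 < 7 / 3 - x := by linarith
      positivity
    have h16 : exp (-x) * ((11 / 3 + x / 3 - x ^ 2) / (7 / 3 - x) ^ 2) ≤ 33 / 49 := by
      rw [← mul_div_assoc, div_le_iff₀ h15]
      exact hbound
    have h17 := exp_neg_third_le
    have h18 : exp (-x) * ((x + 1) - (x / (1 + 1 / A) + 1 / (1 + 1 / A) ^ 2)) ≤ 33 / 49 := by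
      rw [h11]; exact h16
    nlinarith [h18, h17]

/-! ### Chords of convex functions -/

lemma chord_above {s : Set ℝ} {κ : ℝ → ℝ} (hκ : ConvexOn ℝ s κ) {a b t : ℝ} (ha : a ∈ s) (hb : b ∈ s)
    (ht : t ∈ s) (hab : a < b) (h1 : a ≤ t) (h2 : t ≤ b) :
    κ t ≤ κ a + (κ b - κ a) / (b - a) * (t - a) := by
  rcases eq_or_lt_of_le h1 with h | h
  · subst h; simp
  · have h3 := hκ.secant_mono ha ht hb h.ne' hab.ne' h2
    have h4 : 0 < t - a := by linarith
    rw [div_le_iff₀ h4] at h3
    linarith

lemma chord_below {s : Set ℝ} {κ : ℝ → ℝ} (hκ : ConvexOn ℝ s κ) {a b t : ℝ} (ha : a ∈ s) (hb : b ∈ s)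
    (ht : t ∈ s) (hab : a < b) (h : t < a ∨ b < t) :
    κ a + (κ b - κ a) / (b - a) * (t - a) ≤ κ t := by
  rcases h with h | h
  · have h3 := hκ.secant_mono ha ht hb h.ne hab.ne' (by linarith)
    have h4 : t - a < 0 := by linarith
    have h5 : (κ b - κ a) / (b - a) * (t - a) ≤ (κ t - κ a) / (t - a) * (t - a) :=
      mul_le_mul_of_nonpos_right h3 h4.le
    rw [div_mul_cancel₀ _ h4.ne] at h5
    linarith
  · have h3 := hκ.secant_mono ha hb ht hab.ne' (by linarith : t ≠ a) h.le
    have h4 : 0 < t - a := by linarith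
    rw [le_div_iff₀ h4] at h3
    linarith

/-! ### Level pairs -/

/-- left end of a level pair of `t e^{-t}` -/
def tOne (d : ℝ) : ℝ := d / (exp d - 1)

/-- right end of a level pair of `t e^{-t}` -/
def tThree (d : ℝ) : ℝ := tOne d + d

lemma exp_sub_one_gt {d : ℝ} (hd : 0 < d) : d < exp d - 1 := by
  have := Real.add_one_lt_exp hd.ne'
  linarith

lemma tOne_pos {d : ℝ} (hd : 0 < d) : 0 < tOne d := by
  have := exp_sub_one_gt hd
  unfold tOne
  apply div_pos hd (by linarith)

lemma tOne_lt_one {d : ℝ} (hd : 0 < d) : tOne d < 1 := by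
  have := exp_sub_one_gt hd
  unfold tOne
  rw [div_lt_one (by linarith)]
  exact this

lemma tThree_eq {d : ℝ} (hd : 0 < d) : tThree d = tOne d * exp d := by
  have h := exp_sub_one_gt hd
  have h2 : exp d - 1 ≠ 0 := by linarith
  unfold tThree tOne
  field_simp
  ring

lemma one_lt_tThree {d : ℝ} (hd : 0 < d) : 1 < tThree d := by
  have h := exp_sub_one_gt hd
  have h2 : 0 < exp d - 1 := by linarith
  have h3 : tThree d = d * exp d / (exp d - 1) := by
    rw [tThree_eq hd]
    unfold tOne
    ring
  rw [h3, one_lt_div h2]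
  have h4 := Real.add_one_lt_exp (x := -d) (by linarith)
  have h5 : exp (-d) * exp d = 1 := by rw [← exp_add]; simp
  have h6 := exp_pos d
  nlinarith

lemma tOne_le_two_div {d : ℝ} (hd : 0 < d) : tOne d ≤ 2 / d := by
  have h := Real.quadratic_le_exp_of_nonneg hd.le
  have h2 : 0 < exp d - 1 := by have := exp_sub_one_gt hd; linarith
  unfold tOne
  rw [div_le_div_iff₀ h2 hd]
  nlinarith

lemma level_ell {d : ℝ} (hd : 0 < d) :
    log (tThree d) - tThree d = log (tOne d) - tOne d := by
  rw [tThree_eq hd, log_mul (tOne_pos hd).ne' (exp_pos d).ne', log_exp]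
  have : tOne d * exp d = tOne d + d := by rw [← tThree_eq hd]; rfl
  rw [this]
  ring

lemma mul_exp_eq {t : ℝ} (ht : 0 < t) : t * exp (-t) = exp (log t - t) := by
  rw [sub_eq_add_neg, exp_add, exp_log ht]

lemma convex_neg_ell : ConvexOn ℝ (Ioi (0:ℝ)) (fun t => -(log t - t)) := by
  have h1 : ConvexOn ℝ (Ioi (0:ℝ)) (fun t => -log t) := strictConcaveOn_log_Ioi.concaveOn.neg
  have h2 : ConvexOn ℝ (Ioi (0:ℝ)) (fun t : ℝ => t) := convexOn_id (convex_Ioi 0)
  have h3 := h1.add h2
  refine h3.congr ?_
  intro t _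
  simp
  ring

lemma level_in {d t : ℝ} (hd : 0 < d) (h1 : tOne d ≤ t) (h3 : t ≤ tThree d) :
    tOne d * exp (-tOne d) ≤ t * exp (-t) := by
  have hp := tOne_pos hd
  have ht : 0 < t := by linarith
  have hq : tOne d < tThree d := by unfold tThree; linarith
  have hq0 : 0 < tThree d := by linarith
  have := chord_above convex_neg_ell (a := tOne d) (b := tThree d) (t := t) hp hq0 ht hq h1 h3
  simp only [level_ell hd, sub_self, zero_div, zero_mul, add_zero] at this
  rw [mul_exp_eq hp, mul_exp_eq ht]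
  apply Real.exp_le_exp.2
  linarith

lemma level_out {d t : ℝ} (hd : 0 < d) (ht : 0 < t) (h : t < tOne d ∨ tThree d < t) :
    t * exp (-t) ≤ tOne d * exp (-tOne d) := by
  have hp := tOne_pos hd
  have hq : tOne d < tThree d := by unfold tThree; linarith
  have hq0 : 0 < tThree d := by linarith
  have := chord_below convex_neg_ell (a := tOne d) (b := tThree d) (t := t) hp hq0 ht hq h
  simp only [level_ell hd, sub_self, zero_div, zero_mul, add_zero] at this
  rw [mul_exp_eq hp, mul_exp_eq ht]
  apply Real.exp_le_exp.2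
  linarith

lemma continuousOn_tOne : ContinuousOn tOne (Ioi 0) := by
  unfold tOne
  apply ContinuousOn.div continuousOn_id (by fun_prop)
  intro d hd
  have := exp_sub_one_gt hd
  have hd' : (0:ℝ) < d := hd
  linarith

lemma continuousOn_tThree : ContinuousOn tThree (Ioi 0) := by
  unfold tThree
  exact continuousOn_tOne.add continuousOn_id

/-! ### The comparison inequality -/

lemma wt_mul_integral (f : ℝ → ℝ) :
    ∫ t, wt t * f t = ∫ t in Ioi 0, t * exp (-t) * f t := by
  have : (fun t => wt t * f t) = (Ioi 0).indicator (fun t => t * exp (-t) * f t) := by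
    funext t
    unfold wt
    by_cases h : 0 < t
    · simp [h]
    · simp [h]
  rw [this, integral_indicator measurableSet_Ioi]

lemma wt_norm_le (t : ℝ) : ‖wt t‖ ≤ exp (-1) := by
  rw [Real.norm_of_nonneg (wt_nonneg t)]
  exact wt_le t

lemma key_ineq {τ : ℝ → ℝ} (hc : Continuous τ) (hpos : ∀ t, 0 < τ t) (hle : ∀ t, τ t ≤ 1)
    (hint : Integrable (fun t => τ t - chi (4 / 3) t)) (hmean : ∫ t, (τ t - chi (4 / 3) t) = 0)
    {t0 A w0 : ℝ} (hA : 0 < A)
    (hpat : ∀ t, 0 ≤ (wt t - w0) * (τ t - cmp t0 A t)) :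
    (∫ t in Ioi 0, t * exp (-t) * cmp t0 A t) - w0 * (t0 - 4 / 3 + A) ≤
      ∫ t in Ioi 0, t * exp (-t) * τ t := by
  obtain ⟨hc1, hc2⟩ := cmp_integrable t0 (4 / 3) hA
  have he : Integrable (fun t => τ t - cmp t0 A t) := by
    have := hint.sub hc1
    refine this.congr (Eventually.of_forall fun t => ?_)
    simp
  have hei : ∫ t, (τ t - cmp t0 A t) = -(t0 - 4 / 3 + A) := by
    have h1 : (fun t => τ t - cmp t0 A t) =
        fun t => (τ t - chi (4 / 3) t) - (cmp t0 A t - chi (4 / 3) t) := by
      funext t; ring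
    rw [h1, integral_sub hint hc1, hmean, hc2]
    ring
  have hwe : Integrable (fun t => wt t * (τ t - cmp t0 A t)) :=
    he.bdd_mul measurable_wt.aestronglyMeasurable (Eventually.of_forall wt_norm_le)
  have hnn : 0 ≤ ∫ t, (wt t - w0) * (τ t - cmp t0 A t) := integral_nonneg hpat
  have hexp : ∫ t, (wt t - w0) * (τ t - cmp t0 A t) =
      (∫ t, wt t * (τ t - cmp t0 A t)) - w0 * ∫ t, (τ t - cmp t0 A t) := by
    have h2 : (fun t => (wt t - w0) * (τ t - cmp t0 A t)) =
        fun t => wt t * (τ t - cmp t0 A t) - w0 * (τ t - cmp t0 A t) := by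
      funext t; ring
    rw [h2, integral_sub hwe (he.const_mul w0), integral_const_mul]
  have hsplit : ∫ t, wt t * (τ t - cmp t0 A t) =
      (∫ t in Ioi 0, t * exp (-t) * τ t) - ∫ t in Ioi 0, t * exp (-t) * cmp t0 A t := by
    rw [wt_mul_integral]
    have h3 : (fun t => t * exp (-t) * (τ t - cmp t0 A t)) =
        fun t => t * exp (-t) * τ t - t * exp (-t) * cmp t0 A t := by
      funext t; ring
    have hG : IntegrableOn (fun t : ℝ => t * exp (-t)) (Ioi 0) := by
      have := integrableOn_mul_exp (β := 1) (s := 0) one_pos le_rfl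
      simpa using this
    have hτi : IntegrableOn (fun t => t * exp (-t) * τ t) (Ioi 0) := by
      have hm : AEStronglyMeasurable τ (volume.restrict (Ioi 0)) := hc.aestronglyMeasurable
      exact hG.mul_bdd (c := 1) hm (Eventually.of_forall fun t => by
        rw [Real.norm_of_nonneg (hpos t).le]; exact hle t)
    rw [h3, integral_sub hτi (integrableOn_wt_cmp t0 A 0 le_rfl)]
  rw [hexp, hsplit, hei] at hnn
  linarith

lemma cmp_value_ge {t0 A : ℝ} (hA : 0 < A) (hΨ : 0 ≤ t0 - 4 / 3 + A) :
    (4 / 9) * exp (-(1 / 3)) ≤ ∫ t in Ioi 0, t * exp (-t) * cmp t0 A t := by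
  refine (V_bound hA).trans ?_
  apply setIntegral_mono_on (integrableOn_wt_cmp _ _ 0 le_rfl) (integrableOn_wt_cmp _ _ 0 le_rfl)
    measurableSet_Ioi
  intro t ht
  have ht0 : (0:ℝ) < t := ht
  apply mul_le_mul_of_nonneg_left (cmp_mono hA (by linarith)) (by positivity)

lemma cmp_value_ge' {t0 A : ℝ} (hA : 0 < A) (hΨ : t0 - 4 / 3 + A ≤ 0) :
    (4 / 9) * exp (-(1 / 3)) + exp (-1) * (t0 - 4 / 3 + A) ≤
      ∫ t in Ioi 0, t * exp (-t) * cmp t0 A t := by
  have hV := V_bound hA
  obtain ⟨hc1, hc2⟩ := cmp_integrable t0 (4 / 3) hA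
  obtain ⟨hc3, hc4⟩ := cmp_integrable (4 / 3 - A) (4 / 3) hA
  have he : Integrable (fun t => cmp (4 / 3 - A) A t - cmp t0 A t) := by
    have := hc3.sub hc1
    refine this.congr (Eventually.of_forall fun t => ?_)
    simp
  have hei : ∫ t, (cmp (4 / 3 - A) A t - cmp t0 A t) = -(t0 - 4 / 3 + A) := by
    have h1 : (fun t => cmp (4 / 3 - A) A t - cmp t0 A t) =
        fun t => (cmp (4 / 3 - A) A t - chi (4 / 3) t) - (cmp t0 A t - chi (4 / 3) t) := by
      funext t; ring
    rw [h1, integral_sub hc3 hc1, hc2, hc4]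
    ring
  have hnn : ∀ t, 0 ≤ cmp (4 / 3 - A) A t - cmp t0 A t := by
    intro t
    have := cmp_mono (t0 := 4 / 3 - A) (t0' := t0) (A := A) (t := t) hA (by linarith)
    linarith
  have hwe : Integrable (fun t => wt t * (cmp (4 / 3 - A) A t - cmp t0 A t)) :=
    he.bdd_mul measurable_wt.aestronglyMeasurable (Eventually.of_forall wt_norm_le)
  have h2 : ∫ t, wt t * (cmp (4 / 3 - A) A t - cmp t0 A t) ≤
      ∫ t, exp (-1) * (cmp (4 / 3 - A) A t - cmp t0 A t) := by
    apply integral_mono hwe (he.const_mul _)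
    intro t
    exact mul_le_mul_of_nonneg_right (wt_le t) (hnn t)
  rw [integral_const_mul, hei, wt_mul_integral] at h2
  have h3 : (fun t => t * exp (-t) * (cmp (4 / 3 - A) A t - cmp t0 A t)) =
      fun t => t * exp (-t) * cmp (4 / 3 - A) A t - t * exp (-t) * cmp t0 A t := by
    funext t; ring
  rw [h3, integral_sub (integrableOn_wt_cmp _ _ 0 le_rfl) (integrableOn_wt_cmp _ _ 0 le_rfl)] at h2
  nlinarith

/-! ### The main one-dimensional theorem -/

theorem lc_bound {τ : ℝ → ℝ} (hc : Continuous τ) (hpos : ∀ t, 0 < τ t) (hle : ∀ t, τ t ≤ 1)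
    (h0 : τ 0 < 1) (hκ : ConvexOn ℝ univ (fun t => -log (τ t)))
    (hint : Integrable (fun t => τ t - chi (4 / 3) t)) (hmean : ∫ t, (τ t - chi (4 / 3) t) = 0) :
    (4 / 9) * exp (-(1 / 3)) ≤ ∫ t in Ioi 0, t * exp (-t) * τ t := by
  set κ : ℝ → ℝ := fun t => -log (τ t) with hκdef
  have hκ0 : ∀ t, 0 ≤ κ t := by
    intro t
    have := Real.log_nonpos (hpos t).le (hle t)
    simp only [hκdef]
    linarith
  have hτeq : ∀ t, τ t = exp (-κ t) := by
    intro t
    simp only [hκdef, neg_neg]
    rw [exp_log (hpos t)]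
  have hκc : Continuous κ := by
    simp only [hκdef]
    exact (hc.log fun t => (hpos t).ne').neg
  -- the minimal slope is positive
  have hmin : 0 < κ 1 - κ 0 := by
    by_contra hcon
    push Not at hcon
    have hle0 : ∀ t, t < 0 → κ 0 ≤ κ t := by
      intro t ht
      have := chord_below hκ (a := 0) (b := 1) (t := t) (mem_univ _) (mem_univ _) (mem_univ _)
        one_pos (Or.inl ht)
      simp only [sub_zero, div_one] at this
      nlinarith
    have hτle : ∀ t, t < 0 → τ t ≤ τ 0 := by
      intro t ht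
      rw [hτeq t, hτeq 0]
      apply Real.exp_le_exp.2
      linarith [hle0 t ht]
    have hδ : 0 < 1 - τ 0 := by linarith
    have hIcon : IntegrableOn (fun _ : ℝ => 1 - τ 0) (Iio 0) := by
      have h1 : IntegrableOn (fun t => τ t - chi (4 / 3) t) (Iio 0) := hint.integrableOn
      refine Integrable.mono h1 aestronglyMeasurable_const ?_
      refine (ae_restrict_iff' measurableSet_Iio).2 (Eventually.of_forall fun t ht => ?_)
      have ht0 : t < 0 := ht
      have h2 : chi (4 / 3) t = 1 := by
        unfold chi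
        rw [if_pos (by linarith)]
      rw [h2, Real.norm_of_nonneg hδ.le, Real.norm_of_nonpos (by linarith [hle t])]
      linarith [hτle t ht0]
    have := (integrableOn_const_iff (C := 1 - τ 0) (μ := volume) (s := Iio (0:ℝ))).1 hIcon
    rcases this with h | h
    · have h' := enorm_eq_zero.1 h
      linarith
    · simp [Real.volume_Iio] at h
  -- parameters
  set lam : ℝ → ℝ := fun d => (κ (tThree d) - κ (tOne d)) / d with hlamdef
  have hlam : ∀ d, 0 < d → κ 1 - κ 0 ≤ lam d := by
    intro d hd
    have ht1 := tOne_pos hd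
    have ht1' := tOne_lt_one hd
    have ht3 := one_lt_tThree hd
    have h1 := hκ.secant_mono (a := tOne d) (x := 1) (y := tThree d) (mem_univ _) (mem_univ _)
      (mem_univ _) (by linarith) (by linarith) ht3.le
    have h2 := hκ.secant_mono (a := 1) (x := 0) (y := tOne d) (mem_univ _) (mem_univ _)
      (mem_univ _) (by norm_num) (by linarith) ht1.le
    simp only [hlamdef]
    have h3 : tThree d - tOne d = d := by unfold tThree; ring
    rw [h3] at h1
    have h4 : (κ 0 - κ 1) / (0 - 1) = κ 1 - κ 0 := by ring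
    have h5 : (κ (tOne d) - κ 1) / (tOne d - 1) = (κ 1 - κ (tOne d)) / (1 - tOne d) := by
      rw [← neg_div_neg_eq]; congr 1 <;> ring
    simp only [hκdef] at h1 h2 h4 h5 ⊢
    rw [h4, h5] at h2
    exact h2.trans h1
  have hlampos : ∀ d, 0 < d → 0 < lam d := fun d hd => lt_of_lt_of_le hmin (hlam d hd)
  set A : ℝ → ℝ := fun d => 1 / lam d with hAdef
  have hApos : ∀ d, 0 < d → 0 < A d := fun d hd => one_div_pos.2 (hlampos d hd)
  set t0 : ℝ → ℝ := fun d => tOne d - κ (tOne d) * A d with ht0def
  set Psi : ℝ → ℝ := fun d => t0 d - 4 / 3 + A d with hPsidef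
  set w0 : ℝ → ℝ := fun d => tOne d * exp (-tOne d) with hw0def
  have hw0pos : ∀ d, 0 < d → 0 < w0 d := fun d hd => mul_pos (tOne_pos hd) (exp_pos _)
  -- the pointwise pattern
  have hline : ∀ d, 0 < d → ∀ t, (t0 d - t) / A d = -(κ (tOne d) + lam d * (t - tOne d)) := by
    intro d hd t
    have h1 : lam d ≠ 0 := (hlampos d hd).ne'
    simp only [ht0def, hAdef]
    field_simp
    ring
  have hpat : ∀ d, 0 < d → ∀ t, 0 ≤ (wt t - w0 d) * (τ t - cmp (t0 d) (A d) t) := by
    intro d hd t
    have ht1 := tOne_pos hd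
    have h3 : tThree d - tOne d = d := by unfold tThree; ring
    have hlt : tOne d < tThree d := by linarith
    have hlamform : lam d = (κ (tThree d) - κ (tOne d)) / (tThree d - tOne d) := by
      rw [h3]
    by_cases hin : tOne d ≤ t ∧ t ≤ tThree d
    · obtain ⟨h1, h2⟩ := hin
      have htpos : 0 < t := by linarith
      have hw : w0 d ≤ wt t := by
        unfold wt
        rw [if_pos htpos]
        exact level_in hd h1 h2
      have hch := chord_above hκ (a := tOne d) (b := tThree d) (t := t) (mem_univ _) (mem_univ _)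
        (mem_univ _) hlt h1 h2
      have hτ : cmp (t0 d) (A d) t ≤ τ t := by
        refine (min_le_right _ _).trans ?_
        rw [hline d hd t, hτeq t]
        apply Real.exp_le_exp.2
        rw [hlamform]
        simp only [hκdef] at hch ⊢
        linarith
      exact mul_nonneg (by linarith) (by linarith)
    · have hout : t < tOne d ∨ tThree d < t := by
        by_contra hcon
        push Not at hcon
        exact hin hcon
      have hw : wt t ≤ w0 d := by
        unfold wt
        split_ifs with htpos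
        · exact level_out hd htpos hout
        · exact (hw0pos d hd).le
      have hch := chord_below hκ (a := tOne d) (b := tThree d) (t := t) (mem_univ _) (mem_univ _)
        (mem_univ _) hlt hout
      have hτ : τ t ≤ cmp (t0 d) (A d) t := by
        apply le_min (hle t)
        rw [hline d hd t, hτeq t]
        apply Real.exp_le_exp.2
        rw [hlamform]
        simp only [hκdef] at hch ⊢
        linarith
      have h4 : 0 ≤ w0 d - wt t := by linarith
      have h5 : 0 ≤ cmp (t0 d) (A d) t - τ t := by linarith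
      have := mul_nonneg h4 h5
      nlinarith
  -- the core inequality
  have hcore : ∀ d, 0 < d → (∫ t in Ioi 0, t * exp (-t) * cmp (t0 d) (A d) t) - w0 d * Psi d ≤
      ∫ t in Ioi 0, t * exp (-t) * τ t := fun d hd =>
    key_ineq hc hpos hle hint hmean (hApos d hd) (hpat d hd)
  -- continuity of `Psi`
  have hlamc : ContinuousOn lam (Ioi 0) := by
    simp only [hlamdef]
    apply ContinuousOn.div _ continuousOn_id
    · intro d hd
      exact (ne_of_gt hd)
    · exact (hκc.comp_continuousOn continuousOn_tThree).sub (hκc.comp_continuousOn continuousOn_tOne)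
  have hAc : ContinuousOn A (Ioi 0) := by
    simp only [hAdef]
    exact continuousOn_const.div hlamc fun d hd => (hlampos d hd).ne'
  have hPsic : ContinuousOn Psi (Ioi 0) := by
    simp only [hPsidef, ht0def]
    exact ((continuousOn_tOne.sub ((hκc.comp_continuousOn continuousOn_tOne).mul hAc)).sub
      continuousOn_const).add hAc
  -- case analysis
  by_cases hneg : ∃ d, 0 < d ∧ Psi d ≤ 0
  · by_cases hnonneg : ∃ d, 0 < d ∧ 0 ≤ Psi d
    · -- a zero of `Psi` exists
      obtain ⟨d1, hd1, h1⟩ := hneg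
      obtain ⟨d2, hd2, h2⟩ := hnonneg
      have hmem := isPreconnected_Ioi.intermediate_value (s := Ioi (0:ℝ)) hd1 hd2 hPsic ⟨h1, h2⟩
      obtain ⟨d, hd, hd0⟩ := hmem
      have hd' : (0:ℝ) < d := hd
      have h3 := hcore d hd'
      rw [hd0, mul_zero, sub_zero] at h3
      have h4 : 0 ≤ t0 d - 4 / 3 + A d := by
        have : Psi d = t0 d - 4 / 3 + A d := rfl
        rw [← this, hd0]
      exact (cmp_value_ge (hApos d hd') h4).trans h3
    · -- `Psi < 0` everywhere: let `d → 0`
      push Not at hnonneg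
      apply le_of_forall_pos_le_add
      intro ε hε
      have hd : 0 < ε := hε
      have hΨ := hnonneg ε hd
      have hΨeq : Psi ε = t0 ε - 4 / 3 + A ε := rfl
      have h1 := hcore ε hd
      have h2 := cmp_value_ge' (hApos ε hd) (by rw [← hΨeq]; exact hΨ.le)
      rw [← hΨeq] at h2
      -- `-Psi ≤ d`
      obtain ⟨hc1, hc2⟩ := cmp_integrable (t0 ε) (4 / 3) (hApos ε hd)
      have he : Integrable (fun t => τ t - cmp (t0 ε) (A ε) t) := by
        have := hint.sub hc1
        refine this.congr (Eventually.of_forall fun t => ?_)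
        simp
      have hei : ∫ t, (τ t - cmp (t0 ε) (A ε) t) = -Psi ε := by
        have h3 : (fun t => τ t - cmp (t0 ε) (A ε) t) =
            fun t => (τ t - chi (4 / 3) t) - (cmp (t0 ε) (A ε) t - chi (4 / 3) t) := by
          funext t; ring
        rw [h3, integral_sub hint hc1, hmean, hc2, hΨeq]
        ring
      have hind : Integrable ((Icc (tOne ε) (tThree ε)).indicator (fun _ => (1:ℝ))) := by
        apply (integrable_indicator_iff measurableSet_Icc).2
        exact integrableOn_const (by simp) (by simp)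
      have h4 : ∫ t, (τ t - cmp (t0 ε) (A ε) t) ≤
          ∫ t, (Icc (tOne ε) (tThree ε)).indicator (fun _ => (1:ℝ)) t := by
        apply integral_mono he hind
        intro t
        simp only
        by_cases hin : t ∈ Icc (tOne ε) (tThree ε)
        · rw [indicator_of_mem hin]
          have := cmp_pos (t0 ε) (A ε) t
          linarith [hle t]
        · rw [indicator_of_notMem hin]
          have hout : t < tOne ε ∨ tThree ε < t := by
            by_contra hcon
            push Not at hcon
            exact hin hcon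
          have hpt := hpat ε hd t
          have hlt : tOne ε < tThree ε := by unfold tThree; linarith
          have h3 : tThree ε - tOne ε = ε := by unfold tThree; ring
          have hch := chord_below hκ (a := tOne ε) (b := tThree ε) (t := t) (mem_univ _) (mem_univ _)
            (mem_univ _) hlt hout
          have : τ t ≤ cmp (t0 ε) (A ε) t := by
            apply le_min (hle t)
            rw [hline ε hd t, hτeq t]
            apply Real.exp_le_exp.2
            have hlamform : lam ε = (κ (tThree ε) - κ (tOne ε)) / (tThree ε - tOne ε) := by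
              rw [h3]
            rw [hlamform]
            simp only [hκdef] at hch ⊢
            linarith
          linarith
      have h5 : ∫ t, (Icc (tOne ε) (tThree ε)).indicator (fun _ => (1:ℝ)) t = ε := by
        rw [integral_indicator measurableSet_Icc]
        have hlt : tOne ε ≤ tThree ε := by unfold tThree; linarith
        have h3 : tThree ε - tOne ε = ε := by unfold tThree; ring
        simp [h3, hd.le]
      rw [hei, h5] at h4
      have h6 : exp (-1) ≤ 1 := Real.exp_le_one_iff.2 (by norm_num)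
      have h7 : 0 < exp (-1) := exp_pos _
      have h8 := hw0pos ε hd
      nlinarith
  · -- `Psi > 0` everywhere: let `d → ∞`
    push Not at hneg
    apply le_of_forall_pos_le_add
    intro ε hε
    set C : ℝ := 1 / (κ 1 - κ 0) with hC
    have hCpos : 0 < C := one_div_pos.2 hmin
    set d : ℝ := max 1 (2 * C / ε + 1) with hddef
    have hd1 : 1 ≤ d := le_max_left _ _
    have hdpos : 0 < d := by linarith
    have hd2 : 2 * C / ε < d := by
      have := le_max_right 1 (2 * C / ε + 1)
      rw [← hddef] at this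
      linarith
    have hΨ := hneg d hdpos
    have hΨeq : Psi d = t0 d - 4 / 3 + A d := rfl
    have h1 := hcore d hdpos
    have h2 := cmp_value_ge (hApos d hdpos) (by rw [← hΨeq]; exact hΨ.le)
    have hAle : A d ≤ C := by
      simp only [hAdef, hC]
      apply one_div_le_one_div_of_le hmin (hlam d hdpos)
    have hκ1 := hκ0 (tOne d)
    have hPsile : Psi d ≤ C := by
      rw [hΨeq]
      simp only [ht0def]
      have h3 := tOne_lt_one hdpos
      have h4 := hApos d hdpos
      nlinarith [mul_nonneg hκ1 h4.le]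
    have hw0le : w0 d ≤ tOne d := by
      simp only [hw0def]
      have h3 := tOne_pos hdpos
      have h4 : exp (-tOne d) ≤ 1 := Real.exp_le_one_iff.2 (by linarith)
      nlinarith
    have hw0le' : w0 d ≤ 2 / d := hw0le.trans (tOne_le_two_div hdpos)
    have h3 : w0 d * Psi d ≤ 2 / d * C := by
      apply mul_le_mul hw0le' hPsile hΨ.le (by positivity)
    have h4 : 2 / d * C < ε := by
      rw [div_mul_eq_mul_div, div_lt_iff₀ hdpos]
      rw [div_lt_iff₀ hε] at hd2
      linarith
    linarith

end Crest.Agent.Lib.S0423
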