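import Mathlib
import Crest.Agent.Lib.S0423LC

/-!
Helper for S0423: averaging against one exponential variable.
-/

open Real Set MeasureTheory Filter Topology

noncomputable section

namespace Crest.Agent.Lib.S0423

/-- average of `f (u + a X)` for a mean-one exponential variable `X`. -/
def K (a : ℝ) (f : ℝ → ℝ) (u : ℝ) : ℝ := ∫ x in Ioi 0, f (u + a * x) * exp (-x)

/-- the step function -/
def theta (u : ℝ) : ℝ := if 0 < u then 1 else 0

lemma measurable_theta : Measurable theta := by
  unfold theta
  exact Measurable.ite measurableSet_Ioi measurable_const measurable_const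

/-- measurable and with values in `[0,1]` -/
structure Unit01 (f : ℝ → ℝ) : Prop where
  meas : Measurable f
  nonneg : ∀ u, 0 ≤ f u
  le : ∀ u, f u ≤ 1

lemma unit01_theta : Unit01 theta := by
  refine ⟨measurable_theta, fun u => ?_, fun u => ?_⟩ <;> unfold theta <;> split_ifs <;> norm_num

lemma K_integrable {f : ℝ → ℝ} (hf : Measurable f) {C : ℝ} (hC : ∀ u, ‖f u‖ ≤ C) (a u : ℝ) :
    IntegrableOn (fun x => f (u + a * x) * exp (-x)) (Ioi 0) := by
  have h1 : IntegrableOn (fun x : ℝ => exp (-x)) (Ioi 0) := integrableOn_exp_neg_Ioi 0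
  have h2 : AEStronglyMeasurable (fun x => f (u + a * x)) (volume.restrict (Ioi 0)) :=
    (hf.comp (by fun_prop)).aestronglyMeasurable
  exact h1.bdd_mul h2 (Eventually.of_forall fun x => hC _)

lemma Unit01.norm_le {f : ℝ → ℝ} (hf : Unit01 f) (u : ℝ) : ‖f u‖ ≤ 1 := by
  rw [Real.norm_of_nonneg (hf.nonneg u)]
  exact hf.le u

lemma Unit01.K_integrable {f : ℝ → ℝ} (hf : Unit01 f) (a u : ℝ) :
    IntegrableOn (fun x => f (u + a * x) * exp (-x)) (Ioi 0) :=
  Crest.Agent.Lib.S0423.K_integrable hf.meas hf.norm_le a u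

lemma Unit01.K_nonneg {f : ℝ → ℝ} (hf : Unit01 f) (a u : ℝ) : 0 ≤ K a f u := by
  apply setIntegral_nonneg measurableSet_Ioi
  intro x _
  exact mul_nonneg (hf.nonneg _) (exp_pos _).le

lemma Unit01.K_le {f : ℝ → ℝ} (hf : Unit01 f) (a u : ℝ) : K a f u ≤ 1 := by
  have h : ∫ x in Ioi (0:ℝ), exp (-x) = 1 := integral_exp_neg_Ioi_zero
  rw [← h]
  apply setIntegral_mono_on (hf.K_integrable a u) (integrableOn_exp_neg_Ioi 0) measurableSet_Ioi
  intro x _
  have := hf.le (u + a * x)
  have h2 := exp_pos (-x)
  nlinarith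

lemma K_measurable {f : ℝ → ℝ} (hf : Measurable f) (a : ℝ) : Measurable (K a f) := by
  unfold K
  have h : StronglyMeasurable (Function.uncurry fun u x : ℝ => f (u + a * x) * exp (-x)) := by
    apply Measurable.stronglyMeasurable
    simp only [Function.uncurry_def]
    exact (hf.comp (by fun_prop)).mul (by fun_prop)
  exact (h.integral_prod_right' (ν := volume.restrict (Ioi 0))).measurable

lemma Unit01.K {f : ℝ → ℝ} (hf : Unit01 f) (a : ℝ) : Unit01 (K a f) :=
  ⟨K_measurable hf.meas a, hf.K_nonneg a, hf.K_le a⟩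

lemma K_zero (f : ℝ → ℝ) : K 0 f = f := by
  funext u
  unfold K
  simp only [zero_mul, add_zero]
  rw [integral_const_mul, integral_exp_neg_Ioi_zero, mul_one]

lemma K_mono {f : ℝ → ℝ} (hf : Unit01 f) (hm : Monotone f) (a : ℝ) : Monotone (K a f) := by
  intro u v huv
  apply setIntegral_mono_on (hf.K_integrable a u) (hf.K_integrable a v) measurableSet_Ioi
  intro x _
  apply mul_le_mul_of_nonneg_right _ (exp_pos _).le
  apply hm
  linarith

lemma K_pos {f : ℝ → ℝ} (hf : Unit01 f) (hpos : ∀ u, 0 < f u) (a u : ℝ) : 0 < K a f u := by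
  unfold K
  rw [setIntegral_pos_iff_support_of_nonneg_ae _ (hf.K_integrable a u)]
  · have h : Function.support (fun x => f (u + a * x) * exp (-x)) = univ := by
      ext x
      simp [(hpos _).ne', (exp_pos _).ne']
    rw [h]
    simp
  · exact Eventually.of_forall fun x => mul_nonneg (hf.nonneg _) (exp_pos _).le

/-! ### Derivative -/

lemma K_pos_formula {f : ℝ → ℝ} (_hf : Unit01 f) {a : ℝ} (ha : 0 < a) (u : ℝ) :
    K a f u = 1 / a * exp (u / a) * ∫ r in Ioi u, f r * exp (-(r / a)) := by
  unfold K
  set g : ℝ → ℝ := fun y => f (u + y) * exp (-(y / a)) with hg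
  have h1 : ∫ x in Ioi (0:ℝ), f (u + a * x) * exp (-x) = ∫ x in Ioi (0:ℝ), g (a * x) := by
    apply setIntegral_congr_fun measurableSet_Ioi
    intro x _
    simp only [hg]
    congr 3
    field_simp
  rw [h1, integral_comp_mul_left_Ioi g 0 ha, mul_zero]
  have h2 : ∫ y in Ioi (0:ℝ), g y = ∫ r in Ioi u, f r * exp (-((r - u) / a)) := by
    have h3 : ∀ y : ℝ, (Ioi (0:ℝ)).indicator g y =
        (Ioi u).indicator (fun r => f r * exp (-((r - u) / a))) (u + y) := by
      intro y
      by_cases hy : 0 < y
      · have h4 : y ∈ Ioi (0:ℝ) := hy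
        have h5 : u + y ∈ Ioi u := by simp [hy]
        rw [indicator_of_mem h4, indicator_of_mem h5]
        simp only [hg]
        congr 3
        ring
      · have h4 : y ∉ Ioi (0:ℝ) := hy
        have h5 : u + y ∉ Ioi u := by simpa using not_lt.1 hy
        rw [indicator_of_notMem h4, indicator_of_notMem h5]
    rw [← integral_indicator measurableSet_Ioi, ← integral_indicator measurableSet_Ioi]
    simp_rw [h3]
    exact integral_add_left_eq_self (fun r => (Ioi u).indicator (fun r => f r * exp (-((r - u) / a))) r) u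
  rw [h2, smul_eq_mul]
  have h6 : ∫ r in Ioi u, f r * exp (-((r - u) / a)) = exp (u / a) * ∫ r in Ioi u, f r * exp (-(r / a)) := by
    rw [← integral_const_mul]
    apply setIntegral_congr_fun measurableSet_Ioi
    intro r _
    simp only
    have : exp (-((r - u) / a)) = exp (u / a) * exp (-(r / a)) := by
      rw [← exp_add]; congr 1; field_simp; ring
    rw [this]; ring
  rw [h6]
  field_simp

lemma integrableOn_weight {f : ℝ → ℝ} (hf : Unit01 f) {a : ℝ} (ha : 0 < a) (u : ℝ) :
    IntegrableOn (fun r => f r * exp (-(r / a))) (Ioi u) := by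
  have hb : 0 < 1 / a := by positivity
  have h1 : IntegrableOn (fun r : ℝ => exp (-(1 / a) * r)) (Ioi u) := exp_neg_integrableOn_Ioi u hb
  have h2 : AEStronglyMeasurable f (volume.restrict (Ioi u)) := hf.meas.aestronglyMeasurable
  have h3 := h1.bdd_mul h2 (c := 1) (Eventually.of_forall hf.norm_le)
  refine h3.congr (Eventually.of_forall fun r => ?_)
  simp only
  congr 2
  field_simp

lemma hasDerivAt_tail {ψ : ℝ → ℝ} (hc : Continuous ψ) (hi : ∀ u, IntegrableOn ψ (Ioi u)) (u : ℝ) :
    HasDerivAt (fun u => ∫ r in Ioi u, ψ r) (-ψ u) u := by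
  have h1 : (fun u => ∫ r in Ioi u, ψ r) = fun u => (∫ r in Ioi (0:ℝ), ψ r) - ∫ r in (0:ℝ)..u, ψ r := by
    funext u
    have := intervalIntegral.integral_interval_add_Ioi (hi 0) (hi u)
    linarith
  rw [h1]
  have h2 := (hc.integral_hasStrictDerivAt 0 u).hasDerivAt
  exact h2.const_sub _

lemma K_hasDerivAt_pos {f : ℝ → ℝ} (hf : Unit01 f) (hc : Continuous f) {a : ℝ} (ha : 0 < a) (u : ℝ) :
    HasDerivAt (K a f) ((K a f u - f u) / a) u := by
  have h1 : K a f = fun u => 1 / a * exp (u / a) * ∫ r in Ioi u, f r * exp (-(r / a)) := by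
    funext v
    exact K_pos_formula hf ha v
  have hψ : Continuous fun r => f r * exp (-(r / a)) := by fun_prop
  have h2 := hasDerivAt_tail hψ (integrableOn_weight hf ha) u
  have h3 : HasDerivAt (fun u : ℝ => exp (u / a)) (exp (u / a) * (1 / a)) u := by
    have := ((hasDerivAt_id u).div_const a).exp
    simpa using this
  have h4 := (h3.const_mul (1 / a)).fun_mul h2
  have h5 := K_pos_formula hf ha u
  have h6 : exp (u / a) * exp (-(u / a)) = 1 := by rw [← exp_add]; simp
  have h7 : exp (u / a) * (f u * exp (-(u / a))) = f u := by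
    calc exp (u / a) * (f u * exp (-(u / a))) = f u * (exp (u / a) * exp (-(u / a))) := by ring
      _ = f u := by rw [h6, mul_one]
  have h8 : (K a f u - f u) / a = (1 / a * (exp (u / a) * (1 / a)) * ∫ r in Ioi u, f r * exp (-(r / a))) +
      1 / a * exp (u / a) * -(f u * exp (-(u / a))) := by
    rw [h5]
    linear_combination (1 / a) * h7
  rw [h8, h1]
  exact h4

/-- reflection -/
lemma K_neg_eq (f : ℝ → ℝ) (a u : ℝ) : K (-a) f u = K a (fun r => f (-r)) (-u) := by
  unfold K
  apply setIntegral_congr_fun measurableSet_Ioi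
  intro x _
  simp only
  congr 2
  ring

lemma Unit01.reflect {f : ℝ → ℝ} (hf : Unit01 f) : Unit01 (fun r => f (-r)) :=
  ⟨hf.meas.comp measurable_neg, fun _ => hf.nonneg _, fun _ => hf.le _⟩

lemma K_hasDerivAt {f : ℝ → ℝ} (hf : Unit01 f) (hc : Continuous f) {a : ℝ} (ha : a ≠ 0) (u : ℝ) :
    HasDerivAt (K a f) ((K a f u - f u) / a) u := by
  rcases lt_or_gt_of_ne ha with h | h
  · -- `a < 0`
    obtain ⟨b, rfl⟩ : ∃ b, a = -b := ⟨-a, by ring⟩
    have hb : 0 < b := by linarith
    have h1 : K (-b) f = fun u => K b (fun r => f (-r)) (-u) := by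
      funext v
      exact K_neg_eq f b v
    have h2 := K_hasDerivAt_pos hf.reflect (hc.comp continuous_neg) hb (-u)
    have h3 : HasDerivAt (fun u : ℝ => K b (fun r => f (-r)) (-u))
        ((K b (fun r => f (-r)) (-u) - f (- -u)) / b * (-1)) u :=
      HasDerivAt.comp u h2 (hasDerivAt_neg u)
    have h4 := K_neg_eq f b u
    have h5 : (K (-b) f u - f u) / (-b) = (K b (fun r => f (-r)) (-u) - f (- -u)) / b * (-1) := by
      rw [h4, neg_neg]
      field_simp
    rw [h5, h1]
    exact h3
  · exact K_hasDerivAt_pos hf hc h u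

/-! ### Log-concavity -/

lemma concave_rearr {φ : ℝ → ℝ} (hφ : ConcaveOn ℝ univ φ) {u v δ : ℝ} (huv : u ≤ v) (hδ : 0 ≤ δ) :
    φ u + φ (v + δ) ≤ φ v + φ (u + δ) := by
  have hκ : ConvexOn ℝ univ (fun t => -φ t) := hφ.neg
  rcases eq_or_lt_of_le (by linarith : u ≤ v + δ) with h | h
  · have h1 : u = v := by linarith
    have h2 : δ = 0 := by linarith
    subst h1; subst h2
    simp
  · have h1 := chord_above hκ (a := u) (b := v + δ) (t := v) (mem_univ _) (mem_univ _) (mem_univ _) h huv
      (by linarith)
    have h2 := chord_above hκ (a := u) (b := v + δ) (t := u + δ) (mem_univ _) (mem_univ _) (mem_univ _) h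
      (by linarith) (by linarith)
    have h3 : 0 < v + δ - u := by linarith
    have h4 : (-φ (v + δ) - -φ u) / (v + δ - u) * (v - u) +
        (-φ (v + δ) - -φ u) / (v + δ - u) * (u + δ - u) = -φ (v + δ) - -φ u := by
      rw [← mul_add]
      have : v - u + (u + δ - u) = v + δ - u := by ring
      rw [this, div_mul_cancel₀ _ h3.ne']
    linarith

lemma pos_rearr {f : ℝ → ℝ} (hpos : ∀ u, 0 < f u) (hφ : ConcaveOn ℝ univ (fun u => log (f u)))
    {u v δ : ℝ} (huv : u ≤ v) (hδ : 0 ≤ δ) : f u * f (v + δ) ≤ f v * f (u + δ) := by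
  have h := concave_rearr hφ huv hδ
  have h1 := Real.exp_le_exp.2 h
  simp only [exp_add, exp_log (hpos _)] at h1
  exact h1

/-- positive, continuous, monotone, bounded by one and log-concave -/
structure Nice (f : ℝ → ℝ) : Prop where
  cont : Continuous f
  pos : ∀ u, 0 < f u
  le : ∀ u, f u ≤ 1
  mono : Monotone f
  conc : ConcaveOn ℝ univ (fun u => log (f u))

lemma Nice.unit01 {f : ℝ → ℝ} (hf : Nice f) : Unit01 f :=
  ⟨hf.cont.measurable, fun u => (hf.pos u).le, hf.le⟩

lemma K_concave {f : ℝ → ℝ} (hf : Nice f) {a : ℝ} (ha : a ≠ 0) :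
    ConcaveOn ℝ univ (fun u => log (K a f u)) := by
  have hu := hf.unit01
  have hG : ∀ u, 0 < K a f u := K_pos hu hf.pos a
  have hder : ∀ u, HasDerivAt (fun u => log (K a f u)) ((K a f u - f u) / a / K a f u) u := by
    intro u
    exact (K_hasDerivAt hu hf.cont ha u).log (hG u).ne'
  have hderiv : ∀ u, deriv (fun u => log (K a f u)) u = (K a f u - f u) / a / K a f u :=
    fun u => (hder u).deriv
  apply AntitoneOn.concaveOn_of_deriv convex_univ
  · exact fun u _ => (hder u).continuousAt.continuousWithinAt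
  · exact fun u _ => (hder u).differentiableAt.differentiableWithinAt
  · intro u _ v _ huv
    simp only [hderiv]
    have hGu := hG u
    have hGv := hG v
    have hform : ∀ w, (K a f w - f w) / a / K a f w = (1 - f w / K a f w) / a := by
      intro w
      have := hG w
      field_simp
    rw [hform, hform]
    rcases lt_or_gt_of_ne ha with h | h
    · -- `a < 0`
      apply div_le_div_of_nonpos_of_le h.le
      have key : f v * K a f u ≤ f u * K a f v := by
        unfold K
        rw [← integral_const_mul, ← integral_const_mul]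
        apply setIntegral_mono_on ((hu.K_integrable a u).const_mul _) ((hu.K_integrable a v).const_mul _)
          measurableSet_Ioi
        intro x hx
        have hx0 : (0:ℝ) < x := hx
        have hδ : 0 ≤ -(a * x) := by nlinarith
        have := pos_rearr hf.pos hf.conc (u := u + a * x) (v := v + a * x) (δ := -(a * x))
          (by linarith) hδ
        have h1 : v + a * x + -(a * x) = v := by ring
        have h2 : u + a * x + -(a * x) = u := by ring
        rw [h1, h2] at this
        have h3 := exp_pos (-x)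
        nlinarith [mul_le_mul_of_nonneg_right this h3.le]
      have : f v / K a f v ≤ f u / K a f u := by
        rw [div_le_div_iff₀ hGv hGu]
        exact key
      linarith
    · -- `a > 0`
      apply div_le_div_of_nonneg_right _ h.le
      have key : f u * K a f v ≤ f v * K a f u := by
        unfold K
        rw [← integral_const_mul, ← integral_const_mul]
        apply setIntegral_mono_on ((hu.K_integrable a v).const_mul _) ((hu.K_integrable a u).const_mul _)
          measurableSet_Ioi
        intro x hx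
        have hx0 : (0:ℝ) < x := hx
        have hδ : 0 ≤ a * x := by positivity
        have := pos_rearr hf.pos hf.conc (u := u) (v := v) (δ := a * x) huv hδ
        have h3 := exp_pos (-x)
        nlinarith [mul_le_mul_of_nonneg_right this h3.le]
      have : f u / K a f u ≤ f v / K a f v := by
        rw [div_le_div_iff₀ hGu hGv]
        exact key
      linarith

theorem K_nice {f : ℝ → ℝ} (hf : Nice f) (a : ℝ) : Nice (K a f) := by
  by_cases ha : a = 0
  · subst ha
    rw [K_zero]
    exact hf
  · have hu := hf.unit01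
    refine ⟨?_, K_pos hu hf.pos a, hu.K_le a, K_mono hu hf.mono a, K_concave hf ha⟩
    rw [continuous_iff_continuousAt]
    exact fun u => (K_hasDerivAt hu hf.cont ha u).continuousAt

lemma K_lt_one {f : ℝ → ℝ} (hf : Unit01 f) (hlt : ∀ u, f u < 1) (a u : ℝ) : K a f u < 1 := by
  have h : ∫ x in Ioi (0:ℝ), exp (-x) = 1 := integral_exp_neg_Ioi_zero
  have h2 : 0 < ∫ x in Ioi (0:ℝ), (1 - f (u + a * x)) * exp (-x) := by
    have hi : IntegrableOn (fun x => (1 - f (u + a * x)) * exp (-x)) (Ioi 0) := by
      have := (integrableOn_exp_neg_Ioi 0).sub (hf.K_integrable a u)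
      refine this.congr (Eventually.of_forall fun x => ?_)
      simp only [Pi.sub_apply]
      ring
    rw [setIntegral_pos_iff_support_of_nonneg_ae _ hi]
    · have h3 : Function.support (fun x => (1 - f (u + a * x)) * exp (-x)) = univ := by
        ext x
        have := hlt (u + a * x)
        have h4 : 1 - f (u + a * x) ≠ 0 := by linarith
        simp [h4, (exp_pos _).ne']
      rw [h3]
      simp
    · exact Eventually.of_forall fun x => mul_nonneg (by linarith [hf.le (u + a * x)]) (exp_pos _).le
  have h3 : ∫ x in Ioi (0:ℝ), (1 - f (u + a * x)) * exp (-x) =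
      (∫ x in Ioi (0:ℝ), exp (-x)) - K a f u := by
    unfold K
    rw [← integral_sub (integrableOn_exp_neg_Ioi 0) (hf.K_integrable a u)]
    apply setIntegral_congr_fun measurableSet_Ioi
    intro x _
    simp only
    ring
  rw [h] at h3
  linarith

lemma K_neg_lt_one {f : ℝ → ℝ} (hf : Unit01 f) (hm : Monotone f) {v : ℝ} (hv : f v < 1) {a : ℝ}
    (ha : a < 0) (u : ℝ) : K a f u < 1 := by
  have h : ∫ x in Ioi (0:ℝ), exp (-x) = 1 := integral_exp_neg_Ioi_zero
  -- the integrand is strictly below `exp (-x)` for large `x`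
  set x0 : ℝ := max 1 ((v - u) / a) with hx0
  have hx0pos : 0 < x0 := lt_of_lt_of_le one_pos (le_max_left _ _)
  have hlow : ∀ x, x0 < x → f (u + a * x) ≤ f v := by
    intro x hx
    apply hm
    have h1 : (v - u) / a < x := lt_of_le_of_lt (le_max_right _ _) hx
    have h2 := (div_lt_iff_of_neg ha).1 h1
    linarith
  have h2 : 0 < ∫ x in Ioi x0, (1 - f v) * exp (-x) := by
    rw [integral_const_mul, integral_exp_neg_Ioi]
    exact mul_pos (by linarith) (exp_pos _)
  have h3 : ∫ x in Ioi x0, (1 - f v) * exp (-x) ≤ ∫ x in Ioi (0:ℝ), (1 - f (u + a * x)) * exp (-x) := by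
    have hi : IntegrableOn (fun x => (1 - f (u + a * x)) * exp (-x)) (Ioi 0) := by
      have := (integrableOn_exp_neg_Ioi 0).sub (hf.K_integrable a u)
      refine this.congr (Eventually.of_forall fun x => ?_)
      simp only [Pi.sub_apply]
      ring
    calc ∫ x in Ioi x0, (1 - f v) * exp (-x)
        ≤ ∫ x in Ioi x0, (1 - f (u + a * x)) * exp (-x) := by
          apply setIntegral_mono_on ((integrableOn_exp_neg_Ioi x0).const_mul _)
            (hi.mono_set (Ioi_subset_Ioi hx0pos.le)) measurableSet_Ioi
          intro x hx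
          have := hlow x hx
          apply mul_le_mul_of_nonneg_right _ (exp_pos _).le
          linarith
      _ ≤ ∫ x in Ioi (0:ℝ), (1 - f (u + a * x)) * exp (-x) := by
          apply setIntegral_mono_set hi
          · exact Eventually.of_forall fun x => mul_nonneg (by linarith [hf.le (u + a * x)]) (exp_pos _).le
          · exact (Ioi_subset_Ioi hx0pos.le).eventuallyLE
  have h4 : ∫ x in Ioi (0:ℝ), (1 - f (u + a * x)) * exp (-x) =
      (∫ x in Ioi (0:ℝ), exp (-x)) - K a f u := by
    unfold K
    rw [← integral_sub (integrableOn_exp_neg_Ioi 0) (hf.K_integrable a u)]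
    apply setIntegral_congr_fun measurableSet_Ioi
    intro x _
    simp only
    ring
  rw [h] at h4
  linarith

end Crest.Agent.Lib.S0423
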