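import Mathlib
import Crest.Agent.Lib.S0423K

/-!
Helper for S0423: the step function, means.
-/

open Real Set MeasureTheory Filter Topology

noncomputable section

namespace Crest.Agent.Lib.S0423

lemma theta_of_pos {u : ℝ} (h : 0 < u) : theta u = 1 := by
  unfold theta; rw [if_pos h]

lemma theta_of_not_pos {u : ℝ} (h : ¬ 0 < u) : theta u = 0 := by
  unfold theta; rw [if_neg h]

lemma K_theta_pos {a : ℝ} (ha : 0 < a) (u : ℝ) : K a theta u = cmp 0 a (-u) := by
  unfold K
  rcases le_or_gt 0 u with hu | hu
  · rw [cmp_of_le ha (by linarith)]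
    have : ∫ x in Ioi (0:ℝ), theta (u + a * x) * exp (-x) = ∫ x in Ioi (0:ℝ), exp (-x) := by
      apply setIntegral_congr_fun measurableSet_Ioi
      intro x hx
      have hx0 : (0:ℝ) < x := hx
      have h1 : 0 < u + a * x := by positivity
      simp [theta, h1]
    rw [this, integral_exp_neg_Ioi_zero]
  · rw [cmp_of_ge ha (by linarith)]
    set s : ℝ := -u / a with hs
    have hs0 : 0 < s := div_pos (by linarith) ha
    have h1 : ∀ x : ℝ, (Ioi (0:ℝ)).indicator (fun x => theta (u + a * x) * exp (-x)) x =
        (Ioi s).indicator (fun x => exp (-x)) x := by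
      intro x
      by_cases hx : s < x
      · have hx0 : x ∈ Ioi (0:ℝ) := lt_trans hs0 hx
        have hx1 : x ∈ Ioi s := hx
        rw [indicator_of_mem hx0, indicator_of_mem hx1]
        have h2 : 0 < u + a * x := by
          have := (div_lt_iff₀ ha).1 hx
          linarith
        simp [theta, h2]
      · have hx1 : x ∉ Ioi s := hx
        rw [indicator_of_notMem hx1]
        by_cases hx0 : 0 < x
        · rw [indicator_of_mem (show x ∈ Ioi (0:ℝ) from hx0)]
          have h2 : ¬ 0 < u + a * x := by
            have := (le_div_iff₀ ha).1 (not_lt.1 hx)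
            linarith
          simp [theta, h2]
        · rw [indicator_of_notMem (show x ∉ Ioi (0:ℝ) from hx0)]
    rw [← integral_indicator measurableSet_Ioi]
    simp_rw [h1]
    rw [integral_indicator measurableSet_Ioi, integral_exp_neg_Ioi]
    congr 1
    rw [hs]
    field_simp
    ring

lemma nice_K_theta {a : ℝ} (ha : 0 < a) : Nice (K a theta) := by
  have heq : K a theta = fun u => cmp 0 a (-u) := funext (K_theta_pos ha)
  rw [heq]
  refine ⟨(continuous_cmp 0 a).comp continuous_neg, fun u => cmp_pos _ _ _, fun u => cmp_le _ _ _, ?_, ?_⟩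
  · intro u v huv
    simp only [cmp]
    apply min_le_min le_rfl
    apply Real.exp_le_exp.2
    apply div_le_div_of_nonneg_right (by linarith) ha.le
  · have h1 : (fun u => log (cmp 0 a (-u))) = (fun _ => (0:ℝ)) ⊓ fun u => u / a := by
      funext u
      simp only [Pi.inf_apply]
      rcases le_or_gt 0 u with hu | hu
      · rw [cmp_of_le ha (by linarith), log_one, inf_eq_left.2 (by positivity)]
      · rw [cmp_of_ge ha (by linarith), log_exp, inf_eq_right.2 (div_nonpos_of_nonpos_of_nonneg hu.le ha.le)]
        congr 1
        ring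
    rw [h1]
    apply ConcaveOn.inf (concaveOn_const 0 convex_univ)
    refine ⟨convex_univ, fun x _ y _ p q _ _ _ => ?_⟩
    simp only [smul_eq_mul]
    apply le_of_eq
    ring

lemma K_theta_neg {b : ℝ} (hb : 0 < b) (u : ℝ) :
    K (-b) theta u - theta u = -(Ioi 0).indicator (fun t => exp ((0 - t) / b)) u := by
  unfold K
  rcases le_or_gt u 0 with hu | hu
  · have h0 : theta u = 0 := by simp [theta, not_lt.2 hu]
    have h1 : ∫ x in Ioi (0:ℝ), theta (u + -b * x) * exp (-x) = 0 := by
      have : ∀ x ∈ Ioi (0:ℝ), theta (u + -b * x) * exp (-x) = 0 := by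
        intro x hx
        have hx0 : (0:ℝ) < x := hx
        have h2 : ¬ 0 < u + -b * x := by
          have := mul_pos hb hx0
          linarith
        rw [theta_of_not_pos h2, zero_mul]
      rw [setIntegral_congr_fun measurableSet_Ioi this]
      simp
    rw [h0, h1, indicator_of_notMem (by simpa using hu)]
    simp
  · have h0 : theta u = 1 := by simp [theta, hu]
    rw [h0, indicator_of_mem (show u ∈ Ioi (0:ℝ) from hu)]
    set s : ℝ := u / b with hs
    have hs0 : 0 < s := div_pos hu hb
    have h1 : ∀ x : ℝ, (Ioi (0:ℝ)).indicator (fun x => (1 - theta (u + -b * x)) * exp (-x)) x =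
        (Ici s).indicator (fun x => exp (-x)) x := by
      intro x
      by_cases hx : s ≤ x
      · have hx0 : x ∈ Ioi (0:ℝ) := lt_of_lt_of_le hs0 hx
        have hx1 : x ∈ Ici s := hx
        rw [indicator_of_mem hx0, indicator_of_mem hx1]
        have h2 : ¬ 0 < u + -b * x := by
          have := (div_le_iff₀ hb).1 hx
          nlinarith
        rw [theta_of_not_pos h2]
        ring
      · have hx1 : x ∉ Ici s := hx
        rw [indicator_of_notMem hx1]
        by_cases hx0 : 0 < x
        · rw [indicator_of_mem (show x ∈ Ioi (0:ℝ) from hx0)]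
          have h2 : 0 < u + -b * x := by
            have := (lt_div_iff₀ hb).1 (not_le.1 hx)
            nlinarith
          rw [theta_of_pos h2]
          ring
        · rw [indicator_of_notMem (show x ∉ Ioi (0:ℝ) from hx0)]
    have h2 : ∫ x in Ioi (0:ℝ), (1 - theta (u + -b * x)) * exp (-x) = exp (-s) := by
      rw [← integral_indicator measurableSet_Ioi]
      simp_rw [h1]
      rw [integral_indicator measurableSet_Ici, integral_Ici_eq_integral_Ioi, integral_exp_neg_Ioi]
    have h3 : ∫ x in Ioi (0:ℝ), (1 - theta (u + -b * x)) * exp (-x) =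
        (∫ x in Ioi (0:ℝ), exp (-x)) - ∫ x in Ioi (0:ℝ), theta (u + -b * x) * exp (-x) := by
      rw [← integral_sub (integrableOn_exp_neg_Ioi 0) (unit01_theta.K_integrable (-b) u)]
      apply setIntegral_congr_fun measurableSet_Ioi
      intro x _
      simp only
      ring
    rw [integral_exp_neg_Ioi_zero, h2] at h3
    have h4 : (0 - u) / b = -s := by rw [hs]; ring
    rw [h4]
    linarith

lemma K_theta_mean (a : ℝ) :
    Integrable (fun u => K a theta u - theta u) ∧ ∫ u, (K a theta u - theta u) = a := by
  rcases lt_trichotomy a 0 with ha | ha | ha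
  · obtain ⟨b, rfl⟩ : ∃ b, a = -b := ⟨-a, by ring⟩
    have hb : 0 < b := by linarith
    obtain ⟨h1, h2⟩ := exp_decay_integral 0 hb
    have heq : (fun u => K (-b) theta u - theta u) =
        fun u => -(Ioi 0).indicator (fun t => exp ((0 - t) / b)) u := funext (K_theta_neg hb)
    rw [heq]
    have hi : Integrable ((Ioi (0:ℝ)).indicator (fun t => exp ((0 - t) / b))) :=
      (integrable_indicator_iff measurableSet_Ioi).2 h1
    refine ⟨hi.neg, ?_⟩
    rw [integral_neg, integral_indicator measurableSet_Ioi, h2]
  · subst ha
    rw [K_zero]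
    simp
  · have heq : (fun u => K a theta u - theta u) = fun u => (fun t => cmp 0 a t - chi 0 t) (-u) := by
      funext u
      rw [K_theta_pos ha]
      have : theta u = chi 0 (-u) := by simp [theta, chi]
      rw [this]
    obtain ⟨h1, h2⟩ := cmp_integrable 0 0 ha
    rw [heq]
    refine ⟨h1.comp_neg, ?_⟩
    rw [integral_neg_eq_self (fun t => cmp 0 a t - chi 0 t) volume, h2]
    ring

/-- convolution with the exponential density preserves integrals -/
lemma K_conv {e : ℝ → ℝ} (hm : Measurable e) (hi : Integrable e) (a : ℝ) :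
    Integrable (K a e) ∧ ∫ u, K a e u = ∫ u, e u := by
  set ν : Measure ℝ := volume.restrict (Ioi 0) with hν
  set F : ℝ × ℝ → ℝ := fun z => e (z.1 + a * z.2) * exp (-z.2) with hF
  have hFm : Measurable F := (hm.comp (by fun_prop)).mul (by fun_prop)
  have hexp : Integrable (fun x : ℝ => exp (-x)) ν := integrableOn_exp_neg_Ioi 0
  have hFi : Integrable F (volume.prod ν) := by
    rw [integrable_prod_iff' hFm.aestronglyMeasurable]
    constructor
    · refine Eventually.of_forall fun y => ?_
      show Integrable (fun x => e (x + a * y) * exp (-y)) volume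
      exact (hi.comp_add_right (a * y)).mul_const _
    · have h1 : (fun y => ∫ x, ‖F (x, y)‖) = fun y => (∫ x, ‖e x‖) * exp (-y) := by
        funext y
        simp only [hF, norm_mul, Real.norm_of_nonneg (exp_pos _).le]
        rw [integral_mul_const]
        congr 1
        exact integral_add_right_eq_self (fun x => ‖e x‖) (a * y)
      rw [h1]
      exact hexp.const_mul _
  refine ⟨?_, ?_⟩
  · exact hFi.integral_prod_left
  · have h2 : ∫ u, K a e u = ∫ u, ∫ x, F (u, x) ∂ν := rfl
    rw [h2, integral_integral_swap (f := fun u x => F (u, x)) hFi]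
    have h3 : ∀ y, ∫ x, F (x, y) = (∫ x, e x) * exp (-y) := by
      intro y
      simp only [hF]
      rw [integral_mul_const]
      congr 1
      exact integral_add_right_eq_self e (a * y)
    simp_rw [h3]
    rw [integral_const_mul]
    have : ∫ y, exp (-y) ∂ν = 1 := integral_exp_neg_Ioi_zero
    rw [this, mul_one]

lemma K_mean {f : ℝ → ℝ} (hf : Unit01 f) {m : ℝ} (hi : Integrable (fun u => f u - theta u))
    (hm : ∫ u, (f u - theta u) = m) (a : ℝ) :
    Integrable (fun u => K a f u - theta u) ∧ ∫ u, (K a f u - theta u) = m + a := by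
  have hem : Measurable (fun u => f u - theta u) := hf.meas.sub measurable_theta
  obtain ⟨h1, h2⟩ := K_conv hem hi a
  obtain ⟨h3, h4⟩ := K_theta_mean a
  have heq : (fun u => K a f u - theta u) =
      fun u => K a (fun u => f u - theta u) u + (K a theta u - theta u) := by
    funext u
    have h5 : K a (fun u => f u - theta u) u = K a f u - K a theta u := by
      unfold K
      rw [← integral_sub (hf.K_integrable a u) (unit01_theta.K_integrable a u)]
      apply setIntegral_congr_fun measurableSet_Ioi
      intro x _
      simp only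
      ring
    rw [h5]
    ring
  rw [heq]
  refine ⟨h1.add h3, ?_⟩
  rw [integral_add h1 h3, h2, h4, hm]

end Crest.Agent.Lib.S0423
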