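import Mathlib
import Crest.Agent.Lib.S0423Mean

/-!
Helper for S0423: the `N`-fold exponential average.
-/

open Real Set MeasureTheory Filter Topology

noncomputable section

namespace Crest.Agent.Lib.S0423

/-- `E f (u + ∑ a_i X_i)` for independent mean-one exponential `X_i`. -/
def Phi {N : ℕ} (a : Fin N → ℝ) (f : ℝ → ℝ) (u : ℝ) : ℝ :=
  ∫ x in Set.pi Set.univ (fun _ : Fin N => Ioi (0:ℝ)), f (u + ∑ i, a i * x i) * exp (-∑ i, x i)

lemma exp_neg_sum {N : ℕ} (x : Fin N → ℝ) : exp (-∑ i, x i) = ∏ i, exp (-x i) := by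
  rw [← Finset.sum_neg_distrib, Real.exp_sum]

lemma integrableOn_density (N : ℕ) :
    IntegrableOn (fun x : Fin N → ℝ => exp (-∑ i, x i)) (Set.pi Set.univ (fun _ : Fin N => Ioi (0:ℝ))) := by
  unfold IntegrableOn
  rw [volume_pi, Measure.restrict_pi_pi]
  simp_rw [exp_neg_sum]
  exact Integrable.fintype_prod (fun _ => integrableOn_exp_neg_Ioi 0)

lemma integral_prod_orthant {N : ℕ} (g : Fin N → ℝ → ℝ) :
    ∫ x in Set.pi Set.univ (fun _ : Fin N => Ioi (0:ℝ)), ∏ i, g i (x i) = ∏ i, ∫ y in Ioi (0:ℝ), g i y := by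
  rw [volume_pi, Measure.restrict_pi_pi]
  exact integral_fintype_prod_eq_prod (𝕜 := ℝ) g

lemma integral_density (N : ℕ) :
    ∫ x in Set.pi Set.univ (fun _ : Fin N => Ioi (0:ℝ)), exp (-∑ i, x i) = 1 := by
  simp_rw [exp_neg_sum]
  rw [integral_prod_orthant (fun _ y => exp (-y))]
  exact Finset.prod_eq_one (fun _ _ => integral_exp_neg_Ioi_zero)

lemma Phi_integrable {N : ℕ} (a : Fin N → ℝ) {f : ℝ → ℝ} (hf : Unit01 f) (u : ℝ) :
    IntegrableOn (fun x : Fin N → ℝ => f (u + ∑ i, a i * x i) * exp (-∑ i, x i))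
      (Set.pi Set.univ (fun _ : Fin N => Ioi (0:ℝ))) := by
  have hm : Measurable (fun x : Fin N → ℝ => f (u + ∑ i, a i * x i)) := hf.meas.comp (by fun_prop)
  exact (integrableOn_density N).bdd_mul hm.aestronglyMeasurable
    (Eventually.of_forall fun x => hf.norm_le _)

theorem Phi_peel {n : ℕ} (a : Fin (n + 1) → ℝ) (i : Fin (n + 1)) {f : ℝ → ℝ} (hf : Unit01 f) (u : ℝ) :
    Phi a f u = Phi (fun j => a (i.succAbove j)) (K (a i) f) u := by
  set e := MeasurableEquiv.piFinSuccAbove (fun _ : Fin (n + 1) => ℝ) i with he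
  have hmp : MeasurePreserving e volume volume :=
    volume_preserving_piFinSuccAbove (fun _ : Fin (n + 1) => ℝ) i
  set S' : Set (Fin n → ℝ) := Set.pi Set.univ (fun _ : Fin n => Ioi (0:ℝ)) with hS'
  set G : ℝ × (Fin n → ℝ) → ℝ := fun z =>
    f (u + ∑ j, a (i.succAbove j) * z.2 j + a i * z.1) * (exp (-z.1) * exp (-∑ j, z.2 j)) with hG
  have hpre : Set.pi Set.univ (fun _ : Fin (n + 1) => Ioi (0:ℝ)) = e ⁻¹' (Ioi 0 ×ˢ S') := by
    ext x
    simp only [Set.mem_pi, Set.mem_univ, true_implies, Set.mem_Ioi, Set.mem_preimage, Set.mem_prod, hS', he]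
    rw [Fin.forall_iff_succAbove i]
    rfl
  have hcomp : ∀ x : Fin (n + 1) → ℝ,
      f (u + ∑ k, a k * x k) * exp (-∑ k, x k) = G (e x) := by
    intro x
    have h1 : (e x).1 = x i := rfl
    have h2 : (e x).2 = fun j => x (i.succAbove j) := rfl
    simp only [hG, h1, h2]
    rw [Fin.sum_univ_succAbove (fun k => a k * x k) i, Fin.sum_univ_succAbove x i, ← exp_add]
    congr 2 <;> ring
  have h1 : Phi a f u = ∫ z in Ioi 0 ×ˢ S', G z ∂(volume.prod volume) := by
    unfold Phi
    rw [hpre]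
    simp_rw [hcomp]
    have := hmp.setIntegral_preimage_emb e.measurableEmbedding G (Ioi 0 ×ˢ S')
    rw [this, Measure.volume_eq_prod]
  -- integrability on the product
  have hGm : Measurable G := by
    simp only [hG]
    apply Measurable.mul
    · exact hf.meas.comp (by fun_prop)
    · fun_prop
  have hGi : Integrable G ((volume.restrict (Ioi 0)).prod (volume.restrict S')) := by
    have hb : Integrable (fun z : ℝ × (Fin n → ℝ) => exp (-z.1) * exp (-∑ j, z.2 j))
        ((volume.restrict (Ioi 0)).prod (volume.restrict S')) :=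
      Integrable.mul_prod (integrableOn_exp_neg_Ioi 0) (integrableOn_density n)
    refine hb.mono' hGm.aestronglyMeasurable (Eventually.of_forall fun z => ?_)
    simp only [hG, norm_mul]
    have h1 := hf.norm_le (u + ∑ j, a (i.succAbove j) * z.2 j + a i * z.1)
    have h2 : 0 ≤ exp (-z.1) * exp (-∑ j, z.2 j) := by positivity
    rw [Real.norm_of_nonneg (exp_pos _).le, Real.norm_of_nonneg (exp_pos _).le]
    nlinarith
  have hGi' : IntegrableOn G (Ioi 0 ×ˢ S') (volume.prod volume) := by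
    unfold IntegrableOn
    rw [← Measure.prod_restrict]
    exact hGi
  rw [h1, setIntegral_prod G hGi']
  rw [integral_integral_swap (f := fun y x' => G (y, x')) hGi]
  unfold Phi
  apply setIntegral_congr_fun (MeasurableSet.univ_pi fun _ => measurableSet_Ioi)
  intro x' _
  simp only [hG]
  unfold K
  rw [← integral_mul_const]
  apply setIntegral_congr_fun measurableSet_Ioi
  intro y _
  simp only
  ring

lemma Phi_zero (a : Fin 0 → ℝ) (f : ℝ → ℝ) : Phi a f = f := by
  funext u
  unfold Phi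
  have h1 : Set.pi Set.univ (fun _ : Fin 0 => Ioi (0:ℝ)) = Set.univ := by
    ext x
    simp
  rw [h1]
  simp [measureReal_def, volume_pi, Measure.pi_empty_univ]

theorem Phi_unit01 {N : ℕ} (a : Fin N → ℝ) {f : ℝ → ℝ} (hf : Unit01 f) : Unit01 (Phi a f) := by
  induction N generalizing f with
  | zero => rw [Phi_zero]; exact hf
  | succ n ih =>
    have h : Phi a f = Phi (fun j => a ((0 : Fin (n + 1)).succAbove j)) (K (a 0) f) :=
      funext (Phi_peel a 0 hf)
    rw [h]
    exact ih _ (hf.K _)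

theorem Phi_nice {N : ℕ} (a : Fin N → ℝ) {f : ℝ → ℝ} (hf : Nice f) : Nice (Phi a f) := by
  induction N generalizing f with
  | zero => rw [Phi_zero]; exact hf
  | succ n ih =>
    have h : Phi a f = Phi (fun j => a ((0 : Fin (n + 1)).succAbove j)) (K (a 0) f) :=
      funext (Phi_peel a 0 hf.unit01)
    rw [h]
    exact ih _ (K_nice hf _)

theorem Phi_lt_one {N : ℕ} (a : Fin N → ℝ) {f : ℝ → ℝ} (hf : Unit01 f) (hlt : ∀ u, f u < 1) (u : ℝ) :
    Phi a f u < 1 := by
  induction N generalizing f with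
  | zero => rw [Phi_zero]; exact hlt u
  | succ n ih =>
    rw [Phi_peel a 0 hf]
    exact ih _ (hf.K _) (fun v => K_lt_one hf hlt _ v)

theorem Phi_mean {N : ℕ} (a : Fin N → ℝ) {f : ℝ → ℝ} (hf : Unit01 f) {m : ℝ}
    (hi : Integrable (fun u => f u - theta u)) (hm : ∫ u, (f u - theta u) = m) :
    Integrable (fun u => Phi a f u - theta u) ∧ ∫ u, (Phi a f u - theta u) = m + ∑ i, a i := by
  induction N generalizing f m with
  | zero =>
    rw [Phi_zero]
    simpa using ⟨hi, hm⟩
  | succ n ih =>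
    have h : Phi a f = Phi (fun j => a ((0 : Fin (n + 1)).succAbove j)) (K (a 0) f) :=
      funext (Phi_peel a 0 hf)
    rw [h]
    obtain ⟨h1, h2⟩ := K_mean hf hi hm (a 0)
    obtain ⟨h3, h4⟩ := ih (fun j => a ((0 : Fin (n + 1)).succAbove j)) (hf.K _) h1 h2
    refine ⟨h3, ?_⟩
    rw [h4, Fin.sum_univ_succAbove a 0]
    ring

end Crest.Agent.Lib.S0423
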