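import Mathlib
import Crest.Prelude.Def_TruncExpWeight
import Crest.Agent.Lib.S0423Phi

/-!
Helper for S0423: assembling the upper bound and the approximating sequence.
-/

open Real Set MeasureTheory Filter Topology

noncomputable section

namespace Crest.Agent.Lib.S0423

open Crest.AlgGeometry

lemma integrableOn_wt' {s : ℝ} (hs : 0 ≤ s) : IntegrableOn (fun t : ℝ => t * exp (-t)) (Ioi s) := by
  have := integrableOn_mul_exp (β := 1) (s := s) one_pos hs
  simpa using this

lemma integral_wt' {s : ℝ} (hs : 0 ≤ s) : ∫ t in Ioi s, t * exp (-t) = (s + 1) * exp (-s) := by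
  have := integral_mul_exp (β := 1) (s := s) one_pos hs
  simpa using this

lemma trunc_eq (y : ℝ) :
    truncExpWeight y = 1 - ∫ t in Ioi 0, t * exp (-t) * theta (y - t) := by
  unfold truncExpWeight
  split_ifs with hy
  · have h : ∫ t in Ioi (0:ℝ), t * exp (-t) * theta (y - t) = 0 := by
      have h1 : ∀ t ∈ Ioi (0:ℝ), t * exp (-t) * theta (y - t) = 0 := by
        intro t ht
        have ht0 : (0:ℝ) < t := ht
        rw [theta_of_not_pos (by linarith), mul_zero]
      rw [setIntegral_congr_fun measurableSet_Ioi h1]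
      simp
    rw [h, sub_zero]
  · have hy0 : 0 < y := not_le.1 hy
    have hi : IntegrableOn (fun t : ℝ => t * exp (-t)) (Ioi 0) := integrableOn_wt' le_rfl
    have h1 : ∀ t : ℝ, (Ioi (0:ℝ)).indicator (fun t => t * exp (-t) * (1 - theta (y - t))) t =
        (Ici y).indicator (fun t => t * exp (-t)) t := by
      intro t
      by_cases ht : y ≤ t
      · have h2 : t ∈ Ioi (0:ℝ) := lt_of_lt_of_le hy0 ht
        have h3 : t ∈ Ici y := ht
        rw [indicator_of_mem h2, indicator_of_mem h3, theta_of_not_pos (by linarith)]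
        ring
      · have h3 : t ∉ Ici y := ht
        rw [indicator_of_notMem h3]
        by_cases ht0 : 0 < t
        · rw [indicator_of_mem (show t ∈ Ioi (0:ℝ) from ht0), theta_of_pos (by linarith [not_le.1 ht])]
          ring
        · rw [indicator_of_notMem (show t ∉ Ioi (0:ℝ) from ht0)]
    have h2 : ∫ t in Ioi (0:ℝ), t * exp (-t) * (1 - theta (y - t)) = (y + 1) * exp (-y) := by
      rw [← integral_indicator measurableSet_Ioi]
      simp_rw [h1]
      rw [integral_indicator measurableSet_Ici, integral_Ici_eq_integral_Ioi, integral_wt' hy0.le]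
    have hi2 : IntegrableOn (fun t => t * exp (-t) * theta (y - t)) (Ioi 0) := by
      have hm : AEStronglyMeasurable (fun t => theta (y - t)) (volume.restrict (Ioi 0)) :=
        (measurable_theta.comp (by fun_prop)).aestronglyMeasurable
      exact hi.mul_bdd (c := 1) hm (Eventually.of_forall fun t => unit01_theta.norm_le _)
    have h3 : ∫ t in Ioi (0:ℝ), t * exp (-t) * (1 - theta (y - t)) =
        (∫ t in Ioi (0:ℝ), t * exp (-t)) - ∫ t in Ioi (0:ℝ), t * exp (-t) * theta (y - t) := by
      rw [← integral_sub hi hi2]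
      apply setIntegral_congr_fun measurableSet_Ioi
      intro t _
      simp only
      ring
    rw [integral_wt' le_rfl, h2] at h3
    simp only [zero_add, neg_zero, exp_zero, mul_one] at h3
    have h4 : (1 + y) * exp (-y) = (y + 1) * exp (-y) := by ring
    rw [h4]
    linarith

/-- Fubini for the weight of the truncated exponential. -/
theorem Phi_trunc {N : ℕ} (a : Fin N → ℝ) (u : ℝ) :
    Phi a truncExpWeight u = 1 - ∫ t in Ioi 0, t * exp (-t) * Phi a theta (u - t) := by
  set S : Set (Fin N → ℝ) := Set.pi Set.univ (fun _ : Fin N => Ioi (0:ℝ)) with hS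
  set F : (Fin N → ℝ) × ℝ → ℝ := fun z =>
    exp (-∑ i, z.1 i) * (z.2 * exp (-z.2) * theta (u + ∑ i, a i * z.1 i - z.2)) with hF
  have hFm : Measurable F := by
    simp only [hF]
    apply Measurable.mul (by fun_prop)
    apply Measurable.mul (by fun_prop)
    exact measurable_theta.comp (by fun_prop)
  have hFi : Integrable F ((volume.restrict S).prod (volume.restrict (Ioi 0))) := by
    have hb : Integrable (fun z : (Fin N → ℝ) × ℝ => exp (-∑ i, z.1 i) * (z.2 * exp (-z.2)))
        ((volume.restrict S).prod (volume.restrict (Ioi 0))) :=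
      Integrable.mul_prod (integrableOn_density N) (integrableOn_wt' le_rfl)
    refine hb.mono hFm.aestronglyMeasurable (Eventually.of_forall fun z => ?_)
    simp only [hF, norm_mul]
    have h1 := unit01_theta.norm_le (u + ∑ i, a i * z.1 i - z.2)
    have h2 : 0 ≤ ‖exp (-∑ i, z.1 i)‖ * (‖z.2‖ * ‖exp (-z.2)‖) := by positivity
    nlinarith
  have h1 : ∀ x : Fin N → ℝ, truncExpWeight (u + ∑ i, a i * x i) * exp (-∑ i, x i) =
      exp (-∑ i, x i) - ∫ t in Ioi 0, F (x, t) := by
    intro x
    rw [trunc_eq]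
    simp only [hF]
    rw [integral_const_mul]
    ring
  have h2 : Integrable (fun x => ∫ t in Ioi 0, F (x, t)) (volume.restrict S) :=
    hFi.integral_prod_left
  unfold Phi
  simp_rw [h1]
  rw [integral_sub (integrableOn_density N) h2, integral_density]
  congr 1
  rw [integral_integral_swap (f := fun x t => F (x, t)) hFi]
  apply setIntegral_congr_fun measurableSet_Ioi
  intro t _
  simp only [hF]
  rw [← integral_const_mul]
  apply setIntegral_congr_fun (MeasurableSet.univ_pi fun _ => measurableSet_Ioi)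
  intro x _
  simp only
  have : u + ∑ i, a i * x i - t = u - t + ∑ i, a i * x i := by ring
  rw [this]
  ring

lemma chi_eq_theta (c t : ℝ) : chi c t = theta (c - t) := by
  unfold chi theta
  by_cases h : t < c
  · rw [if_pos h, if_pos (by linarith)]
  · rw [if_neg h, if_neg (by linarith)]

/-- the upper bound in the non-degenerate case -/
theorem main_ub_general {N : ℕ} (a : Fin N → ℝ) (hsum : ∑ i, a i = 0) {i0 j0 : Fin N}
    (hi0 : 0 < a i0) (hj0 : a j0 < 0) :
    Phi a truncExpWeight (4 / 3) ≤ 1 - (4 / 9) * exp (-(1 / 3)) := by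
  -- the law of `∑ a_i X_i`
  have hΘnice : Nice (Phi a theta) ∧ ∀ u, Phi a theta u < 1 := by
    cases N with
    | zero => exact i0.elim0
    | succ n =>
      have hne : j0 ≠ i0 := by
        intro h
        rw [h] at hj0
        linarith
      obtain ⟨j1, hj1⟩ := Fin.exists_succAbove_eq hne
      have h1 : Phi a theta = Phi (fun j => a (i0.succAbove j)) (K (a i0) theta) :=
        funext (Phi_peel a i0 unit01_theta)
      have hf1 : Nice (K (a i0) theta) := nice_K_theta hi0
      cases n with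
      | zero => exact j1.elim0
      | succ m =>
        have h2 : Phi (fun j => a (i0.succAbove j)) (K (a i0) theta) =
            Phi (fun j => a (i0.succAbove (j1.succAbove j))) (K (a (i0.succAbove j1)) (K (a i0) theta)) :=
          funext (Phi_peel (fun j => a (i0.succAbove j)) j1 hf1.unit01)
        rw [hj1] at h2
        rw [h1, h2]
        have hf2 : Nice (K (a j0) (K (a i0) theta)) := K_nice hf1 _
        have hf1v : K (a i0) theta (-1) < 1 := by
          rw [K_theta_pos hi0, cmp_of_ge hi0 (by norm_num)]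
          rw [Real.exp_lt_one_iff]
          exact div_neg_of_neg_of_pos (by norm_num) hi0
        have hlt : ∀ u, K (a j0) (K (a i0) theta) u < 1 :=
          fun u => K_neg_lt_one hf1.unit01 hf1.mono hf1v hj0 u
        exact ⟨Phi_nice _ hf2, fun u => Phi_lt_one _ hf2.unit01 hlt u⟩
  obtain ⟨hn, hlt⟩ := hΘnice
  obtain ⟨hm1, hm2⟩ := Phi_mean a unit01_theta (m := 0) (by simp) (by simp)
  rw [hsum, zero_add] at hm2
  -- apply the comparison theorem
  set Θ := Phi a theta with hΘ
  have hτ := lc_bound (τ := fun t => Θ (4 / 3 - t)) (hn.cont.comp (by fun_prop))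
    (fun t => hn.pos _) (fun t => hn.le _) (hlt _) ?_ ?_ ?_
  · rw [Phi_trunc]
    have h2 : 4 / 9 * rexp (-(1 / 3)) ≤ ∫ t in Ioi 0, t * rexp (-t) * Θ (4 / 3 - t) := hτ
    linarith
  · refine ⟨convex_univ, fun x _ y _ p q hp hq hpq => ?_⟩
    have h1 := hn.conc.2 (mem_univ (4 / 3 - x)) (mem_univ (4 / 3 - y)) hp hq hpq
    simp only [smul_eq_mul] at h1 ⊢
    have h2 : p * (4 / 3 - x) + q * (4 / 3 - y) = 4 / 3 - (p * x + q * y) := by
      have : q = 1 - p := by linarith
      rw [this]; ring
    rw [h2] at h1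
    linarith
  · have := hm1.comp_sub_left (4 / 3)
    refine this.congr (Eventually.of_forall fun t => ?_)
    simp only [chi_eq_theta]
  · simp_rw [chi_eq_theta]
    have := integral_sub_left_eq_self (fun u => Θ u - theta u) (volume : Measure ℝ) (4 / 3)
    rw [this]
    exact hm2

lemma exp_third_ge' : (113 / 81 : ℝ) ≤ exp (1 / 3) := by
  have := Real.sum_le_exp_of_nonneg (x := 1 / 3) (by norm_num) 4
  simp only [Finset.sum_range_succ, Finset.sum_range_zero, Nat.factorial] at this
  norm_num at this ⊢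
  linarith

/-- the upper bound -/
theorem main_ub {N : ℕ} (a : Fin N → ℝ) (hsum : ∑ i, a i = 0) :
    Phi a truncExpWeight (4 / 3) ≤ 1 - (4 / 9) * exp (-(1 / 3)) := by
  by_cases hall : ∀ i, a i = 0
  · -- degenerate case
    have h1 : Phi a truncExpWeight (4 / 3) = truncExpWeight (4 / 3) := by
      unfold Phi
      simp only [hall, zero_mul, Finset.sum_const_zero, add_zero]
      rw [integral_const_mul, integral_density, mul_one]
    rw [h1]
    unfold truncExpWeight
    rw [if_neg (by norm_num)]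
    have h2 := exp_third_ge'
    have h3 : exp (-(1 / 3)) ≤ 81 / 113 := by
      rw [Real.exp_neg, inv_le_comm₀ (exp_pos _) (by norm_num)]
      norm_num at h2 ⊢
      linarith
    have h4 : exp (-(4 / 3)) = exp (-(1 / 3)) ^ 4 := by
      rw [← Real.exp_nat_mul]
      congr 1
      norm_num
    rw [h4]
    have h5 : exp (-(1 / 3)) ^ 4 ≤ (81 / 113) ^ 4 := pow_le_pow_left₀ (exp_pos _).le h3 4
    norm_num at h5 ⊢
    nlinarith
  · have hex : ∃ i, a i ≠ 0 := by
      by_contra hcon
      push Not at hcon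
      exact hall hcon
    have hpos : ∃ i, 0 < a i := by
      by_contra hcon
      push Not at hcon
      have := (Finset.sum_eq_zero_iff_of_nonpos (fun i _ => hcon i)).1 hsum
      exact hall fun i => this i (Finset.mem_univ i)
    have hneg : ∃ i, a i < 0 := by
      by_contra hcon
      push Not at hcon
      have := (Finset.sum_eq_zero_iff_of_nonneg (fun i _ => hcon i)).1 hsum
      exact hall fun i => this i (Finset.mem_univ i)
    obtain ⟨i0, hi0⟩ := hpos
    obtain ⟨j0, hj0⟩ := hneg
    exact main_ub_general a hsum hi0 hj0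

/-! ### The approximating sequence -/

/-- the coefficients `(2, -2/n, ..., -2/n)` -/
def aSeq (n : ℕ) : Fin (n + 1) → ℝ := Fin.cons 2 (fun _ => -2 / (n : ℝ))

lemma aSeq_sum {n : ℕ} (hn : 1 ≤ n) : ∑ i, aSeq n i = 0 := by
  rw [Fin.sum_univ_succ]
  simp only [aSeq, Fin.cons_zero, Fin.cons_succ, Finset.sum_const, Finset.card_univ, Fintype.card_fin,
    nsmul_eq_mul]
  have : (n : ℝ) ≠ 0 := by
    have : 0 < n := hn
    positivity
  field_simp
  ring

lemma integral_exp_neg_mul {b : ℝ} (hb : 0 < b) :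
    IntegrableOn (fun y : ℝ => exp (-(b * y))) (Ioi 0) ∧ ∫ y in Ioi (0:ℝ), exp (-(b * y)) = 1 / b := by
  have hA : 0 < 1 / b := by positivity
  obtain ⟨h1, h2⟩ := exp_decay_integral 0 hA
  have heq : (fun t : ℝ => exp ((0 - t) / (1 / b))) = fun y => exp (-(b * y)) := by
    funext t
    congr 1
    field_simp
    ring
  rw [heq] at h1 h2
  exact ⟨h1, h2⟩

lemma Phi_theta_aSeq_le {n : ℕ} (hn : 1 ≤ n) (v : ℝ) :
    Phi (aSeq n) theta v ≤ exp (v / 2) * (1 / (1 + 1 / (n : ℝ))) ^ n := by
  have hn0 : (n : ℝ) ≠ 0 := by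
    have : 0 < n := hn
    positivity
  have hnpos : (0:ℝ) < n := by
    have : 0 < n := hn
    positivity
  have hb : 0 < 1 + 1 / (n : ℝ) := by positivity
  rw [Phi_peel (aSeq n) 0 unit01_theta]
  have h0 : aSeq n 0 = 2 := by simp [aSeq]
  have hsuc : ∀ j : Fin n, aSeq n ((0 : Fin (n + 1)).succAbove j) = -2 / (n : ℝ) := by
    intro j
    simp [aSeq]
  rw [h0]
  unfold Phi
  have hK : ∀ w, K 2 theta w ≤ exp (w / 2) := by
    intro w
    rw [K_theta_pos two_pos]
    refine (min_le_right _ _).trans (le_of_eq ?_)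
    congr 1
    ring
  have hprod : ∀ x : Fin n → ℝ, exp ((v + ∑ j, aSeq n ((0 : Fin (n + 1)).succAbove j) * x j) / 2) *
      exp (-∑ j, x j) = exp (v / 2) * ∏ j, exp (-((1 + 1 / (n : ℝ)) * x j)) := by
    intro x
    simp only [hsuc]
    rw [← Real.exp_sum, ← exp_add, ← exp_add]
    congr 1
    rw [← Finset.mul_sum, Finset.sum_neg_distrib, ← Finset.mul_sum]
    field_simp
    ring
  have hint : IntegrableOn (fun x : Fin n → ℝ => ∏ j, exp (-((1 + 1 / (n : ℝ)) * x j)))
      (Set.pi Set.univ fun _ => Ioi (0:ℝ)) := by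
    have h : Integrable (fun x : Fin n → ℝ => ∏ j, exp (-((1 + 1 / (n : ℝ)) * x j)))
        (Measure.pi fun _ => volume.restrict (Ioi (0:ℝ))) :=
      Integrable.fintype_prod (f := fun (_ : Fin n) y => exp (-((1 + 1 / (n : ℝ)) * y)))
        (fun _ => (integral_exp_neg_mul hb).1)
    have hr := Measure.restrict_pi_pi (fun _ : Fin n => (volume : Measure ℝ)) (fun _ => Ioi (0:ℝ))
    rw [IntegrableOn, volume_pi, hr]
    exact h
  have hint0 := Phi_integrable (fun j => aSeq n ((0 : Fin (n + 1)).succAbove j)) (unit01_theta.K 2) v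
  calc ∫ x in Set.pi Set.univ fun _ => Ioi (0:ℝ), K 2 theta (v + ∑ j, aSeq n ((0 : Fin (n + 1)).succAbove j) * x j) * exp (-∑ j, x j)
      ≤ ∫ x in Set.pi Set.univ fun _ => Ioi (0:ℝ), exp (v / 2) * ∏ j, exp (-((1 + 1 / (n : ℝ)) * x j)) := by
        apply setIntegral_mono_on hint0 (hint.const_mul _) (MeasurableSet.univ_pi fun _ => measurableSet_Ioi)
        intro x _
        rw [← hprod]
        exact mul_le_mul_of_nonneg_right (hK _) (exp_pos _).le
    _ = exp (v / 2) * (1 / (1 + 1 / (n : ℝ))) ^ n := by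
        rw [integral_const_mul, integral_prod_orthant (fun _ y => exp (-((1 + 1 / (n : ℝ)) * y)))]
        simp only [(integral_exp_neg_mul hb).2, Finset.prod_const, Finset.card_univ, Fintype.card_fin]

/-- the integral estimate for the approximating sequence -/
lemma aSeq_integral_le {n : ℕ} (hn : 1 ≤ n) :
    ∫ t in Ioi (0:ℝ), t * exp (-t) * Phi (aSeq n) theta (4 / 3 - t) ≤
      (4 / 9) * exp (2 / 3) * (1 / (1 + 1 / (n : ℝ))) ^ n := by
  set ρ : ℝ := (1 / (1 + 1 / (n : ℝ))) ^ n with hρ
  have hρ0 : 0 ≤ ρ := by positivity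
  have hU := Phi_unit01 (aSeq n) unit01_theta
  have hi : IntegrableOn (fun t : ℝ => t * exp (-t)) (Ioi 0) := integrableOn_wt' le_rfl
  have hi2 : IntegrableOn (fun t => t * exp (-t) * Phi (aSeq n) theta (4 / 3 - t)) (Ioi 0) := by
    have hm : AEStronglyMeasurable (fun t => Phi (aSeq n) theta (4 / 3 - t)) (volume.restrict (Ioi 0)) :=
      (hU.meas.comp (by fun_prop)).aestronglyMeasurable
    exact hi.mul_bdd (c := 1) hm (Eventually.of_forall fun t => hU.norm_le _)
  have hβ : (0:ℝ) < 3 / 2 := by norm_num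
  have h32 := integrableOn_mul_exp (β := 3 / 2) (s := 0) hβ le_rfl
  have h33 := integral_mul_exp (β := 3 / 2) (s := 0) hβ le_rfl
  have heq : ∀ t : ℝ, exp (2 / 3) * ρ * (t * exp (-(3 / 2 * t))) =
      t * exp (-t) * (exp ((4 / 3 - t) / 2) * ρ) := by
    intro t
    have : exp ((4 / 3 - t) / 2) * exp (-t) = exp (2 / 3) * exp (-(3 / 2 * t)) := by
      rw [← exp_add, ← exp_add]
      congr 1
      ring
    calc exp (2 / 3) * ρ * (t * exp (-(3 / 2 * t))) = t * ρ * (exp (2 / 3) * exp (-(3 / 2 * t))) := by ring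
      _ = t * ρ * (exp ((4 / 3 - t) / 2) * exp (-t)) := by rw [this]
      _ = _ := by ring
  calc ∫ t in Ioi (0:ℝ), t * exp (-t) * Phi (aSeq n) theta (4 / 3 - t)
      ≤ ∫ t in Ioi (0:ℝ), exp (2 / 3) * ρ * (t * exp (-(3 / 2 * t))) := by
        apply setIntegral_mono_on hi2 (h32.const_mul _) measurableSet_Ioi
        intro t ht
        have ht0 : (0:ℝ) < t := ht
        rw [heq]
        apply mul_le_mul_of_nonneg_left (Phi_theta_aSeq_le hn _)
        positivity
    _ = (4 / 9) * exp (2 / 3) * ρ := by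
        rw [integral_const_mul, h33]
        simp only [neg_zero, mul_zero, exp_zero]
        ring

/-- the lower bound along the sequence -/
theorem aSeq_lb {n : ℕ} (hn : 1 ≤ n) :
    1 - (4 / 9) * exp (2 / 3) * (1 / (1 + 1 / (n : ℝ))) ^ n ≤ Phi (aSeq n) truncExpWeight (4 / 3) := by
  rw [Phi_trunc]
  have := aSeq_integral_le hn
  linarith

/-- the limit of `(1 / (1 + 1 / n)) ^ n` -/
lemma rho_tendsto : Tendsto (fun n : ℕ => (1 / (1 + 1 / (n : ℝ))) ^ n) atTop (𝓝 (exp (-1))) := by
  have h := Real.tendsto_one_add_div_pow_exp 1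
  have h2 := h.inv₀ (exp_pos 1).ne'
  rw [← Real.exp_neg] at h2
  refine h2.congr (fun n => ?_)
  simp only [one_div, inv_pow]

/-- existence of a good index -/
lemma exists_index {ε : ℝ} (hε : 0 < ε) :
    ∃ n : ℕ, 1 ≤ n ∧ exp 2 * (1 / (1 + 1 / (n : ℝ))) ^ n < exp 1 + 3 * ε := by
  have h1 : Tendsto (fun n : ℕ => exp 2 * (1 / (1 + 1 / (n : ℝ))) ^ n) atTop (𝓝 (exp 2 * exp (-1))) :=
    rho_tendsto.const_mul _
  have h2 : exp 2 * exp (-1) = exp 1 := by
    rw [← exp_add]
    norm_num
  rw [h2] at h1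
  have h3 : ∀ᶠ n : ℕ in atTop, exp 2 * (1 / (1 + 1 / (n : ℝ))) ^ n < exp 1 + 3 * ε :=
    h1.eventually (gt_mem_nhds (by linarith))
  obtain ⟨n, hn1, hn2⟩ := (h3.and (eventually_ge_atTop 1)).exists
  exact ⟨n, hn2, hn1⟩

end Crest.Agent.Lib.S0423
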